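import Vale.Agent.Lib.P078.PauliDefs
import Vale.Agent.Lib.P078.Approx
import Vale.Agent.Lib.P078.Factor
import Vale.Agent.Lib.P078.Summary
import Vale.Agent.Lib.P078.AFDDefs

namespace Vale.Agent.Lib.P078

open scoped InnerProductSpace Matrix.Norms.L2Operator
open ContinuousLinearMap Filter Topology

variable {H : Type*} [NormedAddCommGroup H] [InnerProductSpace ℂ H] [CompleteSpace H]

/-! ### A1 : matrix units and the norm -/

theorem norm_matrix_units_sum_le {m : ℕ} (e : Fin m → Fin m → H →L[ℂ] H)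
    (hstar : ∀ i j, star (e i j) = e j i)
    (hmul : ∀ i j k l, e i j * e k l = if j = k then e i l else 0) (hsum : ∑ i, e i i = 1)
    (T : Matrix (Fin m) (Fin m) ℂ) (hT : T.IsHermitian) :
    ‖∑ i, ∑ j, T i j • e i j‖ ≤ ‖T‖ := by
  classical
  rcases Nat.eq_zero_or_pos m with hm | hm
  · subst hm
    simp
  obtain ⟨i₀, hi₀⟩ : ∃ i₀ : Fin m, i₀ = ⟨0, hm⟩ := ⟨_, rfl⟩
  obtain ⟨x, hx⟩ : ∃ x, x = ∑ i, ∑ j, T i j • e i j := ⟨_, rfl⟩
  rw [← hx]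
  have hsa : IsSelfAdjoint x := by
    rw [IsSelfAdjoint, hx, star_sum]
    simp_rw [star_sum, star_smul, hstar]
    rw [Finset.sum_comm]
    refine Finset.sum_congr rfl (fun i _ => Finset.sum_congr rfl (fun j _ => ?_))
    rw [hT.apply i j]
  have hfac : ∀ i j, e i j = star (e i₀ i) * e i₀ j := by
    intro i j
    rw [hstar, hmul, if_pos rfl]
  have key : ∀ ξ : H, ‖⟪ξ, x ξ⟫_ℂ‖ ≤ ‖T‖ * ‖ξ‖ ^ 2 := by
    intro ξ
    have h1 : ⟪ξ, x ξ⟫_ℂ = ∑ i, ∑ j, T i j * ⟪e i₀ i ξ, e i₀ j ξ⟫_ℂ := by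
      rw [hx]
      simp only [sum_apply, smul_apply, inner_sum, inner_smul_right]
      refine Finset.sum_congr rfl (fun i _ => Finset.sum_congr rfl (fun j _ => ?_))
      rw [hfac i j, mul_apply_eq_comp, star_eq_adjoint, adjoint_inner_right]
    have h3 : ∑ j, ‖e i₀ j ξ‖ ^ 2 = ‖ξ‖ ^ 2 := by
      have h4 : ∀ j, (‖e i₀ j ξ‖ ^ 2 : ℝ) = RCLike.re ⟪ξ, e j j ξ⟫_ℂ := by
        intro j
        rw [hfac j j, mul_apply_eq_comp, star_eq_adjoint, adjoint_inner_right,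
          inner_self_eq_norm_sq]
      simp_rw [h4]
      rw [← map_sum, ← inner_sum, ← sum_apply, hsum, one_apply_eq_self,
        inner_self_eq_norm_sq]
    rw [h1, ← h3]
    exact taskB_gram_le T (fun j => e i₀ j ξ)
  have hre : ∀ ξ : H, |RCLike.re ⟪x ξ, ξ⟫_ℂ| ≤ ‖T‖ * ‖ξ‖ ^ 2 := by
    intro ξ
    refine le_trans (RCLike.abs_re_le_norm _) ?_
    rw [norm_inner_symm]
    exact key ξ
  have halg : ∀ C : ℝ, algebraMap ℝ (H →L[ℂ] H) C = (C : ℂ) • (1 : H →L[ℂ] H) := by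
    intro C
    rw [Algebra.algebraMap_eq_smul_one, Complex.coe_smul]
  have hsaC : ∀ C : ℝ, IsSelfAdjoint ((C : ℂ) • (1 : H →L[ℂ] H)) := by
    intro C
    exact IsSelfAdjoint.smul (Complex.conj_ofReal _) (IsSelfAdjoint.one _)
  have hreC : ∀ (C : ℝ) (ξ : H),
      RCLike.re ((starRingEnd ℂ) (C : ℂ) * ⟪ξ, ξ⟫_ℂ) = C * ‖ξ‖ ^ 2 := by
    intro C ξ
    rw [Complex.conj_ofReal, ← inner_self_eq_norm_sq (𝕜 := ℂ) ξ]
    exact Complex.re_ofReal_mul C _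
  refine norm_le_of_neg_le_of_le hsa (norm_nonneg T) ?_ ?_
  · rw [ContinuousLinearMap.le_def, isPositive_def', halg]
    refine ⟨hsa.sub (hsaC _), fun ξ => ?_⟩
    rw [reApplyInnerSelf_apply]
    simp only [sub_apply, smul_apply, one_apply_eq_self, inner_sub_left,
      inner_smul_left, map_sub]
    have h5 := hre ξ
    have h6 : RCLike.re ((starRingEnd ℂ) ((-‖T‖ : ℝ) : ℂ) * ⟪ξ, ξ⟫_ℂ) = -‖T‖ * ‖ξ‖ ^ 2 :=
      hreC (-‖T‖) ξ
    rw [h6]
    have := neg_le_of_abs_le h5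
    linarith
  · rw [ContinuousLinearMap.le_def, isPositive_def', halg]
    refine ⟨(hsaC _).sub hsa, fun ξ => ?_⟩
    rw [reApplyInnerSelf_apply]
    simp only [sub_apply, smul_apply, one_apply_eq_self, inner_sub_left,
      inner_smul_left, map_sub]
    have h5 := hre ξ
    have h6 : RCLike.re ((starRingEnd ℂ) ((‖T‖ : ℝ) : ℂ) * ⟪ξ, ξ⟫_ℂ) = ‖T‖ * ‖ξ‖ ^ 2 :=
      hreC ‖T‖ ξ
    rw [h6]
    have := le_of_abs_le h5
    linarith

end Vale.Agent.Lib.P078
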