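import Vale.Agent.Lib.P078.PauliDefs
import Vale.Agent.Lib.P078.Approx
import Vale.Agent.Lib.P078.Factor
import Vale.Agent.Lib.P078.Summary
import Vale.Agent.Lib.P078.AFDDefs
import Vale.Agent.Lib.P078.HF.A1

namespace Vale.Agent.Lib.P078

open scoped InnerProductSpace Matrix.Norms.L2Operator
open ContinuousLinearMap Filter Topology

variable {H : Type*} [NormedAddCommGroup H] [InnerProductSpace ℂ H] [CompleteSpace H]

/-! ### A2 : fibre decomposition of a pinching over normalizing matrix units -/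

lemma taskHFA2_proj_norm_eq_one {P : H →L[ℂ] H} (hP : IsStarProjection P) (h0 : P ≠ 0) :
    ‖P‖ = 1 := by
  have h1 : ‖star P * P‖ = ‖P‖ * ‖P‖ := CStarRing.norm_star_mul_self
  rw [hP.isSelfAdjoint.star_eq, hP.isIdempotentElem.eq] at h1
  have h2 : 0 < ‖P‖ := norm_pos_iff.mpr h0
  nlinarith

lemma taskHFA2_unit_norm_le {m : ℕ} (e : Fin m → Fin m → H →L[ℂ] H)
    (hstar : ∀ i j, star (e i j) = e j i)
    (hmul : ∀ i j k l, e i j * e k l = if j = k then e i l else 0) (i j : Fin m) :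
    ‖e i j‖ ≤ 1 := by
  have hP : IsStarProjection (e j j) :=
    ⟨by unfold IsIdempotentElem; rw [hmul, if_pos rfl], hstar j j⟩
  have h1 : ‖star (e i j) * e i j‖ = ‖e i j‖ * ‖e i j‖ := CStarRing.norm_star_mul_self
  rw [hstar, hmul, if_pos rfl] at h1
  have h2 : ‖e j j‖ ≤ 1 := IsStarProjection.norm_le _ hP
  nlinarith [norm_nonneg (e i j)]

/-- for `y` in the commutative algebra, `y * e i o = e i o * (e o i * y * e i o)` -/
lemma taskHFA2_key_right (A : VonNeumannAlgebra H)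
    (hAc : ∀ a ∈ A, ∀ b ∈ A, a * b = b * a) {m : ℕ}
    (e : Fin m → Fin m → H →L[ℂ] H) (heA : ∀ i, e i i ∈ A)
    (hmul : ∀ i j k l, e i j * e k l = if j = k then e i l else 0)
    (o i : Fin m) {y : H →L[ℂ] H} (hy : y ∈ A) :
    y * e i o = e i o * (e o i * y * e i o) := by
  have h1 : e i i * e i o = e i o := by rw [hmul, if_pos rfl]
  have h2 : e i o * e o i = e i i := by rw [hmul, if_pos rfl]
  calc y * e i o = y * (e i i * e i o) := by rw [h1]
    _ = (y * e i i) * e i o := by rw [mul_assoc]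
    _ = (e i i * y) * e i o := by rw [hAc y hy (e i i) (heA i)]
    _ = (e i o * e o i) * y * e i o := by rw [h2]
    _ = e i o * (e o i * y * e i o) := by simp only [mul_assoc]

/-- a projection `q` that is within `1/3` of a scalar on `g` either kills or fixes every
projection `γ` under `g` -/
lemma taskHFA2_dichotomy (A : VonNeumannAlgebra H)
    (hAc : ∀ a ∈ A, ∀ b ∈ A, a * b = b * a) {q γ g : H →L[ℂ] H} (hq : q ∈ A)
    (hg : g ∈ A) (hqq : q * q = q) (hgγ : g * γ = γ) (z : ℂ)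
    (hz : ‖(q - z • 1) * g‖ ≤ 1 / 3) : q * γ = 0 ∨ q * γ = γ := by
  by_contra hcon
  push Not at hcon
  obtain ⟨h1, h2⟩ := hcon
  have hP0 : 0 < ‖q * γ‖ := norm_pos_iff.mpr h1
  have hQ0 : 0 < ‖γ - q * γ‖ := norm_pos_iff.mpr (sub_ne_zero.mpr (Ne.symm h2))
  have hgq : g * (q * γ) = q * γ := by
    rw [← mul_assoc, hAc g hg q hq, mul_assoc, hgγ]
  have e1 : (q - z • 1) * g * (q * γ) = (1 - z) • (q * γ) := by
    rw [mul_assoc, hgq, sub_mul, ← mul_assoc, hqq, smul_mul_assoc, one_mul, sub_smul, one_smul]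
  have e2 : (q - z • 1) * g * (γ - q * γ) = (-z) • (γ - q * γ) := by
    rw [mul_assoc, mul_sub, hgγ, hgq, sub_mul, mul_sub, ← mul_assoc, hqq, sub_self,
      smul_mul_assoc, one_mul, zero_sub, neg_smul]
  have n1 : ‖(1 - z)‖ * ‖q * γ‖ ≤ 1 / 3 * ‖q * γ‖ := by
    rw [← norm_smul, ← e1]
    exact (norm_mul_le _ _).trans (mul_le_mul_of_nonneg_right hz (norm_nonneg _))
  have n2 : ‖(-z)‖ * ‖γ - q * γ‖ ≤ 1 / 3 * ‖γ - q * γ‖ := by
    rw [← norm_smul, ← e2]
    exact (norm_mul_le _ _).trans (mul_le_mul_of_nonneg_right hz (norm_nonneg _))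
  have n1' : ‖(1 - z)‖ ≤ 1 / 3 := le_of_mul_le_mul_right n1 hP0
  have n2' : ‖z‖ ≤ 1 / 3 := by
    rw [norm_neg] at n2
    exact le_of_mul_le_mul_right n2 hQ0
  have n3 : ‖(1 : ℂ)‖ ≤ ‖(1 - z)‖ + ‖z‖ := by
    have := norm_add_le (1 - z) z
    rwa [sub_add_cancel] at this
  rw [norm_one] at n3
  linarith

/-- passing from a complex scalar to its real part -/
lemma taskHFA2_real_part (A : VonNeumannAlgebra H)
    (hAc : ∀ a ∈ A, ∀ b ∈ A, a * b = b * a) {b γ : H →L[ℂ] H} (hb : b ∈ A) (hγ : γ ∈ A)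
    (hbs : IsSelfAdjoint b) (hγp : IsStarProjection γ) (hγ0 : γ ≠ 0) (z : ℂ) {η' : ℝ}
    (hz : ‖(b - z • 1) * γ‖ ≤ η') :
    ‖(b - (z.re : ℂ) • 1) * γ‖ ≤ η' ∧ |z.re| ≤ ‖b‖ + η' := by
  have hγ1 : ‖γ‖ = 1 := taskHFA2_proj_norm_eq_one hγp hγ0
  have hstar : star ((b - z • 1) * γ) = (b - (starRingEnd ℂ z) • 1) * γ := by
    rw [star_mul, star_sub, star_smul, star_one, hbs.star_eq, hγp.isSelfAdjoint.star_eq,
      mul_sub, sub_mul, hAc γ hγ b hb]
    simp
  have hre : (b - (z.re : ℂ) • 1) * γ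
      = (1 / 2 : ℂ) • ((b - z • 1) * γ + star ((b - z • 1) * γ)) := by
    rw [hstar]
    have hz2 : (z.re : ℂ) = (1 / 2 : ℂ) * (z + starRingEnd ℂ z) := by
      rw [Complex.add_conj]
      push_cast
      ring
    rw [hz2]
    have e1 : (b - z • 1) * γ + (b - (starRingEnd ℂ) z • 1) * γ
        = (2 : ℂ) • (b * γ) - (z + (starRingEnd ℂ) z) • γ := by
      simp only [sub_mul, smul_mul_assoc, one_mul, add_smul, two_smul]
      abel
    rw [e1, smul_sub, smul_smul, smul_smul, sub_mul, smul_mul_assoc, one_mul]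
    norm_num
  have h1 : ‖(b - (z.re : ℂ) • 1) * γ‖ ≤ η' := by
    rw [hre, norm_smul]
    have h3 : ‖(b - z • 1) * γ + star ((b - z • 1) * γ)‖ ≤ η' + η' :=
      (norm_add_le _ _).trans (add_le_add hz (by rw [norm_star]; exact hz))
    have h4 : ‖(1 / 2 : ℂ)‖ = 1 / 2 := by norm_num
    rw [h4]
    linarith
  refine ⟨h1, ?_⟩
  have h5 : (z.re : ℂ) • γ = b * γ - (b - (z.re : ℂ) • 1) * γ := by
    rw [sub_mul, smul_mul_assoc, one_mul]
    abel
  have h6 : ‖(z.re : ℂ) • γ‖ = |z.re| := by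
    rw [norm_smul, hγ1, mul_one, Complex.norm_real, Real.norm_eq_abs]
  rw [← h6, h5]
  refine (norm_sub_le _ _).trans (add_le_add ?_ h1)
  refine (norm_mul_le _ _).trans ?_
  rw [hγ1, mul_one]

lemma taskHFA2_clamp (d₀ N η' : ℝ) (hN : 0 ≤ N) (hη : 0 ≤ η') (h : |d₀| ≤ N + η') :
    |max (-N) (min N d₀)| ≤ N ∧ |max (-N) (min N d₀) - d₀| ≤ η' := by
  have h1 := abs_le.mp h
  constructor
  · rw [abs_le]
    constructor
    · exact le_max_left _ _
    · exact max_le (by linarith) (min_le_left _ _)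
  · rw [abs_le]
    rcases le_total d₀ N with h2 | h2
    · rw [min_eq_right h2]
      rcases le_total (-N) d₀ with h3 | h3
      · rw [max_eq_right h3]
        constructor <;> linarith
      · rw [max_eq_left h3]
        constructor <;> linarith
    · rw [min_eq_left h2, max_eq_right (by linarith)]
      constructor <;> linarith

/-- the diagonal value on one fibre -/
lemma taskHFA2_diag (A : VonNeumannAlgebra H)
    (hAc : ∀ a ∈ A, ∀ b ∈ A, a * b = b * a) {b γ g : H →L[ℂ] H} (hb : b ∈ A) (hγ : γ ∈ A)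
    (hbs : IsSelfAdjoint b) (hγp : IsStarProjection γ) (hgγ : g * γ = γ) (z : ℂ) {η' N : ℝ}
    (hη : 0 ≤ η') (hbN : ‖b‖ ≤ N) (hz : ‖(b - z • 1) * g‖ ≤ η') :
    ∃ d : ℝ, |d| ≤ N ∧ ‖(b - (d : ℂ) • 1) * γ‖ ≤ 2 * η' := by
  by_cases hγ0 : γ = 0
  · refine ⟨0, ?_, ?_⟩
    · rw [abs_zero]
      exact (norm_nonneg b).trans hbN
    · rw [hγ0, mul_zero, norm_zero]
      linarith
  · have hγ1 : ‖γ‖ = 1 := taskHFA2_proj_norm_eq_one hγp hγ0
    have hz' : ‖(b - z • 1) * γ‖ ≤ η' := by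
      have h1 : (b - z • 1) * γ = (b - z • 1) * g * γ := by rw [mul_assoc, hgγ]
      rw [h1]
      refine (norm_mul_le _ _).trans ?_
      rw [hγ1, mul_one]
      exact hz
    obtain ⟨h1, h2⟩ := taskHFA2_real_part A hAc hb hγ hbs hγp hγ0 z hz'
    have hN : 0 ≤ N := (norm_nonneg b).trans hbN
    obtain ⟨h3, h4⟩ := taskHFA2_clamp z.re N η' hN hη (h2.trans (by linarith))
    refine ⟨max (-N) (min N z.re), h3, ?_⟩
    have h5 : (b - ((max (-N) (min N z.re) : ℝ) : ℂ) • 1) * γ
        = (b - (z.re : ℂ) • 1) * γ + ((z.re - max (-N) (min N z.re) : ℝ) : ℂ) • γ := by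
      push_cast
      simp only [sub_mul, smul_mul_assoc, one_mul, sub_smul]
      abel
    rw [h5]
    refine (norm_add_le _ _).trans ?_
    have h6 : ‖((z.re - max (-N) (min N z.re) : ℝ) : ℂ) • γ‖ ≤ η' := by
      rw [norm_smul, hγ1, mul_one, Complex.norm_real, Real.norm_eq_abs, abs_sub_comm]
      exact h4
    linarith

/-- the colour of one index on one fibre -/
lemma taskHFA2_colour (A : VonNeumannAlgebra H)
    (hAc : ∀ a ∈ A, ∀ b ∈ A, a * b = b * a) {r : ℕ} (hr : 0 < r) (q : Fin r → H →L[ℂ] H)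
    (hqA : ∀ l, q l ∈ A) (hqq : ∀ l, q l * q l = q l) (hqo : ∀ l l', l ≠ l' → q l * q l' = 0)
    {γ g : H →L[ℂ] H} (hg : g ∈ A) (hgγ : g * γ = γ)
    (hsum : (∑ l, q l) * γ = γ)
    (hz : ∀ l, ∃ z : ℂ, ‖(q l - z • 1) * g‖ ≤ 1 / 3) :
    ∃ c₀ : Fin r, ∀ l, q l * γ = if c₀ = l then γ else 0 := by
  by_cases hγ0 : γ = 0
  · refine ⟨⟨0, hr⟩, fun l => ?_⟩
    rw [hγ0]
    simp
  · have hdich : ∀ l, q l * γ = 0 ∨ q l * γ = γ := by
      intro l
      obtain ⟨z, hzl⟩ := hz l
      exact taskHFA2_dichotomy A hAc (hqA l) hg (hqq l) hgγ z hzl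
    have hex : ∃ l₀, q l₀ * γ = γ := by
      by_contra hne
      push Not at hne
      have h0 : ∀ l, q l * γ = 0 := fun l => (hdich l).resolve_right (hne l)
      rw [Finset.sum_mul, Finset.sum_congr rfl (fun l _ => h0 l), Finset.sum_const_zero] at hsum
      exact hγ0 hsum.symm
    obtain ⟨l₀, hl₀⟩ := hex
    refine ⟨l₀, fun l => ?_⟩
    split_ifs with h
    · rw [← h]
      exact hl₀
    · calc q l * γ = q l * (q l₀ * γ) := by rw [hl₀]
        _ = (q l * q l₀) * γ := by rw [mul_assoc]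
        _ = 0 := by rw [hqo l l₀ (Ne.symm h), zero_mul]

/-- the algebra on one fibre -/
lemma taskHFA2_fiber (A : VonNeumannAlgebra H)
    (hAc : ∀ a ∈ A, ∀ b ∈ A, a * b = b * a) {m : ℕ} (o : Fin m)
    (e : Fin m → Fin m → H →L[ℂ] H)
    (heA : ∀ i, e i i ∈ A) (hstar : ∀ i j, star (e i j) = e j i)
    (hmul : ∀ i j k l, e i j * e k l = if j = k then e i l else 0)
    (T : Matrix (Fin m) (Fin m) ℂ) {r : ℕ} (p : Fin r → H →L[ℂ] H) (hpA : ∀ l, p l ∈ A)
    {a : H →L[ℂ] H} (haA : a ∈ A) {γ : H →L[ℂ] H}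
    (c : Fin m → Fin r) (d : Fin m → ℝ)
    (hc : ∀ i l, (e o i * p l * e i o) * γ = if c i = l then γ else 0)
    {η' : ℝ} (hd : ∀ i, ‖(e o i * a * e i o - (d i : ℂ) • 1) * γ‖ ≤ η') :
    ‖(pinching p (∑ i, ∑ j, T i j • e i j) - a) * (∑ i, e i o * γ * e o i)
          - ∑ i, ∑ j, pavedMatrix T c d i j • (e i o * γ * e o j)‖ ≤ m * η' := by
  have hterm : ∀ l i j j', p l * e i j * p l * (e j' o * γ * e o j')
      = if j = j' then e i o * ((e o i * p l * e i o) * ((e o j * p l * e j o) * γ)) * e o j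
        else 0 := by
    intro l i j j'
    have k1 := taskHFA2_key_right A hAc e heA hmul o j' (hpA l)
    have k2 := taskHFA2_key_right A hAc e heA hmul o i (hpA l)
    calc p l * e i j * p l * (e j' o * γ * e o j')
        = p l * e i j * (p l * e j' o) * γ * e o j' := by simp only [mul_assoc]
      _ = p l * (e i j * e j' o) * (e o j' * p l * e j' o) * γ * e o j' := by
          rw [k1]
          simp only [mul_assoc]
      _ = if j = j' then e i o * ((e o i * p l * e i o) * ((e o j * p l * e j o) * γ)) * e o j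
            else 0 := by
          rw [hmul]
          split_ifs with h
          · subst h
            rw [k2]
            simp only [mul_assoc]
          · simp
  have h1 : ∀ l i j, p l * e i j * p l * (∑ j', e j' o * γ * e o j')
      = e i o * ((e o i * p l * e i o) * ((e o j * p l * e j o) * γ)) * e o j := by
    intro l i j
    rw [Finset.mul_sum, Finset.sum_congr rfl (fun j' _ => hterm l i j j'), Finset.sum_ite_eq]
    simp
  have h2 : ∀ l, p l * (∑ i, ∑ j, T i j • e i j) * p l * (∑ j', e j' o * γ * e o j')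
      = ∑ i, ∑ j, T i j •
        (e i o * ((e o i * p l * e i o) * ((e o j * p l * e j o) * γ)) * e o j) := by
    intro l
    have hX : p l * (∑ i, ∑ j, T i j • e i j) * p l
        = ∑ i, ∑ j, T i j • (p l * e i j * p l) := by
      rw [Finset.mul_sum, Finset.sum_mul]
      refine Finset.sum_congr rfl (fun i _ => ?_)
      rw [Finset.mul_sum, Finset.sum_mul]
      refine Finset.sum_congr rfl (fun j _ => ?_)
      rw [mul_smul_comm, smul_mul_assoc]
    rw [hX, Finset.sum_mul]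
    refine Finset.sum_congr rfl (fun i _ => ?_)
    rw [Finset.sum_mul]
    refine Finset.sum_congr rfl (fun j _ => ?_)
    rw [smul_mul_assoc, h1]
  have h3 : ∀ i j, ∑ l, (e o i * p l * e i o) * ((e o j * p l * e j o) * γ)
      = if c i = c j then γ else 0 := by
    intro i j
    simp only [hc, mul_ite, mul_zero]
    rw [Finset.sum_ite_eq]
    simp
  have hP : pinching p (∑ i, ∑ j, T i j • e i j) * (∑ i, e i o * γ * e o i)
      = ∑ i, ∑ j, (if c i = c j then T i j else 0) • (e i o * γ * e o j) := by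
    unfold pinching
    rw [Finset.sum_mul, Finset.sum_congr rfl (fun l _ => h2 l), Finset.sum_comm]
    refine Finset.sum_congr rfl (fun i _ => ?_)
    rw [Finset.sum_comm]
    refine Finset.sum_congr rfl (fun j _ => ?_)
    rw [← Finset.smul_sum, ← Finset.sum_mul, ← Finset.mul_sum, h3]
    split_ifs with h
    · rfl
    · simp
  have hA : a * (∑ i, e i o * γ * e o i)
      = ∑ i, e i o * ((e o i * a * e i o) * γ) * e o i := by
    rw [Finset.mul_sum]
    refine Finset.sum_congr rfl (fun i _ => ?_)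
    have k := taskHFA2_key_right A hAc e heA hmul o i haA
    calc a * (e i o * γ * e o i) = (a * e i o) * γ * e o i := by simp only [mul_assoc]
      _ = e i o * ((e o i * a * e i o) * γ) * e o i := by
          rw [k]
          simp only [mul_assoc]
  have hD : ∑ i, ∑ j, pavedMatrix T c d i j • (e i o * γ * e o j)
      = ∑ i, ∑ j, (if c i = c j then T i j else 0) • (e i o * γ * e o j)
        - ∑ i, (d i : ℂ) • (e i o * γ * e o i) := by
    rw [← Finset.sum_sub_distrib]
    refine Finset.sum_congr rfl (fun i _ => ?_)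
    have hj : ∀ j, pavedMatrix T c d i j • (e i o * γ * e o j)
        = (if c i = c j then T i j else 0) • (e i o * γ * e o j)
          - (if i = j then (d i : ℂ) • (e i o * γ * e o j) else 0) := by
      intro j
      unfold pavedMatrix
      rw [Matrix.of_apply, sub_smul]
      congr 1
      split_ifs <;> simp
    rw [Finset.sum_congr rfl (fun j _ => hj j), Finset.sum_sub_distrib, Finset.sum_ite_eq]
    simp
  have hfin : (pinching p (∑ i, ∑ j, T i j • e i j) - a) * (∑ i, e i o * γ * e o i)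
      - ∑ i, ∑ j, pavedMatrix T c d i j • (e i o * γ * e o j)
      = - ∑ i, e i o * ((e o i * a * e i o - (d i : ℂ) • 1) * γ) * e o i := by
    rw [sub_mul, hP, hA, hD, ← Finset.sum_neg_distrib]
    have hi : ∀ i, -(e i o * ((e o i * a * e i o - (d i : ℂ) • 1) * γ) * e o i)
        = (d i : ℂ) • (e i o * γ * e o i) - e i o * ((e o i * a * e i o) * γ) * e o i := by
      intro i
      simp only [sub_mul, mul_sub, smul_mul_assoc, one_mul, mul_smul_comm, neg_sub]
    rw [Finset.sum_congr rfl (fun i _ => hi i), Finset.sum_sub_distrib]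
    abel
  rw [hfin, norm_neg]
  have hle : ∀ i, ‖e i o * ((e o i * a * e i o - (d i : ℂ) • 1) * γ) * e o i‖ ≤ η' := by
    intro i
    have u1 := taskHFA2_unit_norm_le e hstar hmul i o
    have u2 := taskHFA2_unit_norm_le e hstar hmul o i
    have h5 : ‖e i o * ((e o i * a * e i o - (d i : ℂ) • 1) * γ) * e o i‖
        ≤ ‖e i o‖ * ‖(e o i * a * e i o - (d i : ℂ) • 1) * γ‖ * ‖e o i‖ :=
      (norm_mul_le _ _).trans (mul_le_mul_of_nonneg_right (norm_mul_le _ _) (norm_nonneg _))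
    have h0 : 0 ≤ η' := (norm_nonneg _).trans (hd i)
    have h6 : ‖e i o‖ * ‖(e o i * a * e i o - (d i : ℂ) • 1) * γ‖ ≤ 1 * η' :=
      mul_le_mul u1 (hd i) (norm_nonneg _) zero_le_one
    have h7 : ‖e i o‖ * ‖(e o i * a * e i o - (d i : ℂ) • 1) * γ‖ * ‖e o i‖ ≤ 1 * η' * 1 :=
      mul_le_mul h6 u2 (norm_nonneg _) (by linarith)
    linarith
  calc ‖∑ i, e i o * ((e o i * a * e i o - (d i : ℂ) • 1) * γ) * e o i‖
      ≤ ∑ i, ‖e i o * ((e o i * a * e i o - (d i : ℂ) • 1) * γ) * e o i‖ := norm_sum_le _ _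
    _ ≤ ∑ _i : Fin m, η' := Finset.sum_le_sum (fun i _ => hle i)
    _ = m * η' := by simp

theorem exists_fiber_decomposition (A : VonNeumannAlgebra H)
    (hAc : ∀ a ∈ A, ∀ b ∈ A, a * b = b * a) {m : ℕ} (hm : 0 < m)
    (e : Fin m → Fin m → H →L[ℂ] H)
    (heA : ∀ i, e i i ∈ A) (hstar : ∀ i j, star (e i j) = e j i)
    (hmul : ∀ i j k l, e i j * e k l = if j = k then e i l else 0) (hsum : ∑ i, e i i = 1)
    (hnorm : ∀ i j, ∀ a ∈ A, e i j * a * e j i ∈ A)
    (T : Matrix (Fin m) (Fin m) ℂ) {r : ℕ} (p : Fin r → H →L[ℂ] H) (hp : IsPartitionIn A p)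
    {a : H →L[ℂ] H} (haA : a ∈ A) (ha : IsSelfAdjoint a) {η : ℝ} (hη : 0 < η) :
    ∃ (s : ℕ) (g : Fin s → H →L[ℂ] H) (c : Fin s → Fin m → Fin r) (d : Fin s → Fin m → ℝ),
      (∀ t, g t ∈ A ∧ IsStarProjection (g t) ∧ e ⟨0, hm⟩ ⟨0, hm⟩ * g t = g t) ∧
      (∀ t t', t ≠ t' → g t * g t' = 0) ∧ ∑ t, g t = e ⟨0, hm⟩ ⟨0, hm⟩ ∧
      (∀ t i, |d t i| ≤ ‖a‖) ∧
      ∀ t, ‖(pinching p (∑ i, ∑ j, T i j • e i j) - a) * (∑ i, e i ⟨0, hm⟩ * g t * e ⟨0, hm⟩ i)
          - ∑ i, ∑ j, pavedMatrix T (c t) (d t) i j • (e i ⟨0, hm⟩ * g t * e ⟨0, hm⟩ j)‖ ≤ η := by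
  classical
  have _hsum := hsum
  obtain ⟨hp1, hp2, hp3⟩ := hp
  generalize (⟨0, hm⟩ : Fin m) = o
  rcases Nat.eq_zero_or_pos r with hr | hr
  · subst hr
    have h10 : (1 : H →L[ℂ] H) = 0 := by
      rw [← hp3]
      simp
    have hall : ∀ x : H →L[ℂ] H, x = 0 := fun x => by rw [← mul_one x, h10, mul_zero]
    refine ⟨0, fun t => t.elim0, fun t => t.elim0, fun t => t.elim0, fun t => t.elim0,
      fun t => t.elim0, ?_, fun t => t.elim0, fun t => t.elim0⟩
    rw [hall (e o o)]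
    simp
  · have heo : IsStarProjection (e o o) :=
      ⟨by unfold IsIdempotentElem; rw [hmul, if_pos rfl], hstar o o⟩
    have hqA : ∀ l i, e o i * p l * e i o ∈ A := fun l i => hnorm o i (p l) (hp1 l).1
    have hbA : ∀ i, e o i * a * e i o ∈ A := fun i => hnorm o i a haA
    have hqmul : ∀ l l' i, (e o i * p l * e i o) * (e o i * p l' * e i o)
        = e o i * (p l * p l') * e i o := by
      intro l l' i
      have k := taskHFA2_key_right A hAc e heA hmul o i (hp1 l').1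
      calc (e o i * p l * e i o) * (e o i * p l' * e i o)
          = e o i * p l * (e i o * (e o i * p l' * e i o)) := by simp only [mul_assoc]
        _ = e o i * p l * (p l' * e i o) := by rw [← k]
        _ = e o i * (p l * p l') * e i o := by simp only [mul_assoc]
    have hqq : ∀ l i, (e o i * p l * e i o) * (e o i * p l * e i o) = e o i * p l * e i o := by
      intro l i
      rw [hqmul, (hp1 l).2.isIdempotentElem.eq]
    have hqo : ∀ i l l', l ≠ l' → (e o i * p l * e i o) * (e o i * p l' * e i o) = 0 := by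
      intro i l l' hll
      rw [hqmul, hp2 l l' hll, mul_zero, zero_mul]
    have hqsum : ∀ i, ∑ l, e o i * p l * e i o = e o o := by
      intro i
      rw [← Finset.sum_mul, ← Finset.mul_sum, hp3, mul_one, hmul, if_pos rfl]
    have hbs : ∀ i, IsSelfAdjoint (e o i * a * e i o) := by
      intro i
      unfold IsSelfAdjoint
      rw [star_mul, star_mul, hstar, hstar, ha.star_eq, mul_assoc]
    have hbn : ∀ i, ‖e o i * a * e i o‖ ≤ ‖a‖ := by
      intro i
      have u1 := taskHFA2_unit_norm_le e hstar hmul o i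
      have u2 := taskHFA2_unit_norm_le e hstar hmul i o
      have h5 : ‖e o i * a * e i o‖ ≤ ‖e o i‖ * ‖a‖ * ‖e i o‖ :=
        (norm_mul_le _ _).trans (mul_le_mul_of_nonneg_right (norm_mul_le _ _) (norm_nonneg _))
      have h6 : ‖e o i‖ * ‖a‖ ≤ 1 * ‖a‖ :=
        mul_le_mul u1 le_rfl (norm_nonneg _) zero_le_one
      have h7 : ‖e o i‖ * ‖a‖ * ‖e i o‖ ≤ 1 * ‖a‖ * 1 :=
        mul_le_mul h6 u2 (norm_nonneg _) (by linarith [norm_nonneg a])
      linarith
    have hη'0 : 0 < min (1 / 3 : ℝ) (η / (2 * (m + 1))) :=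
      lt_min (by norm_num) (by positivity)
    have hη'1 : min (1 / 3 : ℝ) (η / (2 * (m + 1))) ≤ 1 / 3 := min_le_left _ _
    have hη'2 : (m : ℝ) * (2 * min (1 / 3 : ℝ) (η / (2 * (m + 1)))) ≤ η := by
      have h1 : min (1 / 3 : ℝ) (η / (2 * (m + 1))) ≤ η / (2 * (m + 1)) := min_le_right _ _
      have hm' : (0 : ℝ) < 2 * (m + 1) := by positivity
      have h2 : min (1 / 3 : ℝ) (η / (2 * (m + 1))) * (2 * (m + 1)) ≤ η :=
        (le_div_iff₀ hm').mp h1
      nlinarith [hη'0.le]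
    generalize min (1 / 3 : ℝ) (η / (2 * (m + 1))) = η' at hη'0 hη'1 hη'2
    have hS : ∀ h ∈ (Finset.univ.image (fun x : Fin r × Fin m => e o x.2 * p x.1 * e x.2 o))
        ∪ (Finset.univ.image (fun i : Fin m => e o i * a * e i o)), h ∈ A := by
      intro h hh
      rcases Finset.mem_union.mp hh with hh | hh
      · obtain ⟨x, _, rfl⟩ := Finset.mem_image.mp hh
        exact hqA x.1 x.2
      · obtain ⟨i, _, rfl⟩ := Finset.mem_image.mp hh
        exact hbA i
    obtain ⟨κ, hκ, gκ, ⟨hgA, hgP, hgorth, hgsum⟩, hstep⟩ :=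
      exists_common_step A hAc _ hS hη'0
    have hstepq : ∀ l i, ∃ z : κ → ℂ, ∀ k, ‖(e o i * p l * e i o - z k • 1) * gκ k‖ ≤ η' := by
      intro l i
      exact hstep _ (Finset.mem_union_left _
        (Finset.mem_image.mpr ⟨(l, i), Finset.mem_univ _, rfl⟩))
    have hstepb : ∀ i, ∃ z : κ → ℂ, ∀ k, ‖(e o i * a * e i o - z k • 1) * gκ k‖ ≤ η' := by
      intro i
      exact hstep _ (Finset.mem_union_right _
        (Finset.mem_image.mpr ⟨i, Finset.mem_univ _, rfl⟩))
    have hγA : ∀ k, e o o * gκ k ∈ A := fun k => mul_mem (heA o) (hgA k)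
    have hγP : ∀ k, IsStarProjection (e o o * gκ k) :=
      fun k => heo.mul (hgP k) (hAc _ (heA o) _ (hgA k))
    have hoγ : ∀ k, e o o * (e o o * gκ k) = e o o * gκ k := by
      intro k
      rw [← mul_assoc, heo.isIdempotentElem.eq]
    have hgγ : ∀ k, gκ k * (e o o * gκ k) = e o o * gκ k := by
      intro k
      rw [← mul_assoc, hAc _ (hgA k) _ (heA o), mul_assoc, (hgP k).isIdempotentElem.eq]
    have hcol : ∀ k i, ∃ c₀ : Fin r, ∀ l,
        (e o i * p l * e i o) * (e o o * gκ k) = if c₀ = l then e o o * gκ k else 0 := by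
      intro k i
      refine taskHFA2_colour A hAc hr (fun l => e o i * p l * e i o) (fun l => hqA l i)
        (fun l => hqq l i) (hqo i) (hgA k) (hgγ k) ?_ ?_
      · rw [hqsum, hoγ]
      · intro l
        obtain ⟨z, hz⟩ := hstepq l i
        exact ⟨z k, (hz k).trans hη'1⟩
    have hdiag : ∀ k i, ∃ d₀ : ℝ, |d₀| ≤ ‖a‖ ∧
        ‖(e o i * a * e i o - (d₀ : ℂ) • 1) * (e o o * gκ k)‖ ≤ 2 * η' := by
      intro k i
      obtain ⟨z, hz⟩ := hstepb i
      exact taskHFA2_diag A hAc (hbA i) (hγA k) (hbs i) (hγP k) (hgγ k) (z k) hη'0.le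
        (hbn i) (hz k)
    choose c hc using hcol
    choose d hd1 hd2 using hdiag
    refine ⟨Fintype.card κ, fun t => e o o * gκ ((Fintype.equivFin κ).symm t),
      fun t => c ((Fintype.equivFin κ).symm t), fun t => d ((Fintype.equivFin κ).symm t),
      fun t => ⟨hγA _, hγP _, hoγ _⟩, ?_, ?_, fun t i => hd1 _ i, fun t => ?_⟩
    · intro t t' htt
      have hne : (Fintype.equivFin κ).symm t ≠ (Fintype.equivFin κ).symm t' :=
        fun h => htt ((Fintype.equivFin κ).symm.injective h)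
      calc e o o * gκ ((Fintype.equivFin κ).symm t) * (e o o * gκ ((Fintype.equivFin κ).symm t'))
          = e o o * (gκ ((Fintype.equivFin κ).symm t) * e o o)
              * gκ ((Fintype.equivFin κ).symm t') := by simp only [mul_assoc]
        _ = e o o * (e o o * gκ ((Fintype.equivFin κ).symm t))
              * gκ ((Fintype.equivFin κ).symm t') := by rw [hAc _ (hgA _) _ (heA o)]
        _ = e o o * e o o * (gκ ((Fintype.equivFin κ).symm t)
              * gκ ((Fintype.equivFin κ).symm t')) := by simp only [mul_assoc]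
        _ = 0 := by rw [hgorth _ _ hne, mul_zero]
    · rw [← Finset.mul_sum, Equiv.sum_comp (Fintype.equivFin κ).symm gκ, hgsum, mul_one]
    · have h := taskHFA2_fiber A hAc o e heA hstar hmul T p (fun l => (hp1 l).1) haA
        (c ((Fintype.equivFin κ).symm t)) (d ((Fintype.equivFin κ).symm t))
        (hc ((Fintype.equivFin κ).symm t)) (hd2 ((Fintype.equivFin κ).symm t))
      exact h.trans hη'2

end Vale.Agent.Lib.P078
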