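import Vale.Agent.Lib.P078.PauliDefs
import Vale.Agent.Lib.P078.Approx
import Vale.Agent.Lib.P078.Factor
import Vale.Agent.Lib.P078.Summary
import Vale.Agent.Lib.P078.AFDDefs

namespace Vale.Agent.Lib.P078

open scoped InnerProductSpace Matrix.Norms.L2Operator
open ContinuousLinearMap Filter Topology

variable {H : Type*} [NormedAddCommGroup H] [InnerProductSpace ℂ H] [CompleteSpace H]

/-! ### A3a : eigenvectors of Hermitian matrices -/

theorem exists_eigenvector_norm {m : ℕ} (hm : 0 < m) (B : Matrix (Fin m) (Fin m) ℂ)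
    (hB : B.IsHermitian) :
    ∃ (v : Fin m → ℂ) (μ : ℝ), ∑ i, ‖v i‖ ^ 2 = 1 ∧ |μ| = ‖B‖ ∧
      ∀ i, ∑ j, B i j * v j = (μ : ℂ) * v i := by
  have : Nonempty (Fin m) := ⟨⟨0, hm⟩⟩
  have hsa : IsSelfAdjoint B := hB
  have hrad : spectralRadius ℂ B = ‖B‖₊ := hsa.spectralRadius_eq_nnnorm
  have hne : (spectrum ℂ B).Nonempty := by
    rw [hB.spectrum_eq_image_range]
    exact (Set.range_nonempty _).image _
  obtain ⟨k, hk, hkr⟩ := spectrum.exists_nnnorm_eq_spectralRadius_of_nonempty hne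
  rw [hB.spectrum_eq_image_range] at hk
  obtain ⟨μ, ⟨j, rfl⟩, rfl⟩ := hk
  refine ⟨⇑(hB.eigenvectorBasis j), hB.eigenvalues j, ?_, ?_, ?_⟩
  · have h1 : ‖hB.eigenvectorBasis j‖ = 1 := hB.eigenvectorBasis.orthonormal.1 j
    have h2 := EuclideanSpace.norm_sq_eq (hB.eigenvectorBasis j)
    rw [h1] at h2
    rw [← h2]
    norm_num
  · rw [hrad] at hkr
    have h3 := ENNReal.coe_inj.1 hkr
    have h4 := congrArg (fun t : NNReal => (t : ℝ)) h3
    simp only [coe_nnnorm] at h4
    rw [← h4]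
    exact (RCLike.norm_ofReal _).symm
  · intro i
    have h := congrFun (hB.mulVec_eigenvectorBasis j) i
    simp only [Matrix.mulVec, dotProduct, Pi.smul_apply, Complex.real_smul] at h
    exact h

end Vale.Agent.Lib.P078
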