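import Vale.Agent.Lib.P078.PauliDefs
import Vale.Agent.Lib.P078.Approx
import Vale.Agent.Lib.P078.Factor
import Vale.Agent.Lib.P078.Summary
import Vale.Agent.Lib.P078.AFDDefs

namespace Vale.Agent.Lib.P078

open scoped InnerProductSpace Matrix.Norms.L2Operator
open ContinuousLinearMap Filter Topology

variable {H : Type*} [NormedAddCommGroup H] [InnerProductSpace ℂ H] [CompleteSpace H]

/-! ### A3b : trace vectors and right multiplication -/

theorem trace_norm_mul_le (M : VonNeumannAlgebra H) {Ω : H} (hΩ : IsTraceVector M Ω)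
    {z w : H →L[ℂ] H} (hz : z ∈ M) (hw : w ∈ M) : ‖z (w Ω)‖ ≤ ‖w‖ * ‖z Ω‖ := by
  have hzw : z * w ∈ M := mul_mem hz hw
  have h0 : z (w Ω) = (z * w) Ω := rfl
  have h1 : ‖z (w Ω)‖ = ‖(star (z * w)) Ω‖ := by
    rw [trace_norm_star M hΩ hzw, h0]
  have h2 : (star (z * w)) Ω = (star w) ((star z) Ω) := by
    rw [star_mul]
    rfl
  rw [h1, h2]
  calc ‖(star w) ((star z) Ω)‖ ≤ ‖star w‖ * ‖(star z) Ω‖ := (star w).le_opNorm _
    _ = ‖w‖ * ‖z Ω‖ := by rw [norm_star, trace_norm_star M hΩ hz]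

end Vale.Agent.Lib.P078
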