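import Vale.Agent.Lib.P078.PauliDefs
import Vale.Agent.Lib.P078.Approx
import Vale.Agent.Lib.P078.Factor
import Vale.Agent.Lib.P078.Summary
import Vale.Agent.Lib.P078.AFDDefs
import Vale.Agent.Lib.P078.HF.A1
import Vale.Agent.Lib.P078.HF.A2
import Vale.Agent.Lib.P078.HF.A3a
import Vale.Agent.Lib.P078.HF.A3b

namespace Vale.Agent.Lib.P078

open scoped InnerProductSpace Matrix.Norms.L2Operator
open ContinuousLinearMap Filter Topology

variable {H : Type*} [NormedAddCommGroup H] [InnerProductSpace ℂ H] [CompleteSpace H]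

/-! ### A3c : the main estimate -/

omit [CompleteSpace H] in
/-- The quadratic form of an operator on a sum of vectors without cross terms. -/
lemma taskHFA3c_quad_expand {s : ℕ} (y : H →L[ℂ] H) (ξ : Fin s → H) (S : Finset (Fin s))
    (h2 : ∀ t t', t ≠ t' → ⟪ξ t', y (ξ t)⟫_ℂ = 0) :
    ⟪∑ t ∈ S, ξ t, y (∑ t ∈ S, ξ t)⟫_ℂ = ∑ t ∈ S, ⟪ξ t, y (ξ t)⟫_ℂ := by
  rw [map_sum, sum_inner]
  apply Finset.sum_congr rfl
  intro t' ht'
  rw [inner_sum]
  exact Finset.sum_eq_single t' (fun t _ ht => h2 t t' ht) (fun h => absurd ht' h)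

omit [CompleteSpace H] in
/-- The quadratic form on an approximate eigenvector. -/
lemma taskHFA3c_one (y : H →L[ℂ] H) (ξ ρ : H) (μ η₁ sg : ℝ) (hsg : sg = 1 ∨ sg = -1)
    (h3 : y ξ = (μ : ℂ) • ξ + ρ) (hρ : ‖ρ‖ ≤ η₁ * ‖ξ‖) :
    (sg * μ - η₁) * ‖ξ‖ ^ 2 ≤ sg * (⟪ξ, y ξ⟫_ℂ).re := by
  have h1 : (⟪ξ, y ξ⟫_ℂ).re = μ * ‖ξ‖ ^ 2 + (⟪ξ, ρ⟫_ℂ).re := by
    rw [h3, inner_add_right, inner_smul_right, Complex.add_re, Complex.re_ofReal_mul]
    congr 1
    congr 1
    exact inner_self_eq_norm_sq (𝕜 := ℂ) ξ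
  have h4 : |(⟪ξ, ρ⟫_ℂ).re| ≤ η₁ * ‖ξ‖ ^ 2 := by
    calc |(⟪ξ, ρ⟫_ℂ).re| ≤ ‖⟪ξ, ρ⟫_ℂ‖ := Complex.abs_re_le_norm _
      _ ≤ ‖ξ‖ * ‖ρ‖ := norm_inner_le_norm _ _
      _ ≤ ‖ξ‖ * (η₁ * ‖ξ‖) := mul_le_mul_of_nonneg_left hρ (norm_nonneg _)
      _ = η₁ * ‖ξ‖ ^ 2 := by ring
  rw [h1]
  have h5 := abs_le.mp h4
  rcases hsg with h | h
  · rw [h]
    linarith [h5.1]
  · rw [h]
    linarith [h5.2]

omit [CompleteSpace H] in
/-- The quadratic form on a sum of pairwise orthogonal approximate eigenvectors whose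
eigenvalues have the same sign and are large. -/
lemma taskHFA3c_quad {s : ℕ} (y : H →L[ℂ] H) (ξ ρ : Fin s → H) (μ : Fin s → ℝ)
    (η₁ κ sg : ℝ) (hsg : sg = 1 ∨ sg = -1) (S : Finset (Fin s))
    (h1 : ∀ t t', t ≠ t' → ⟪ξ t', ξ t⟫_ℂ = 0)
    (h2 : ∀ t t', t ≠ t' → ⟪ξ t', y (ξ t)⟫_ℂ = 0)
    (h3 : ∀ t, y (ξ t) = (μ t : ℂ) • ξ t + ρ t) (hρ : ∀ t, ‖ρ t‖ ≤ η₁ * ‖ξ t‖)
    (hμ : ∀ t ∈ S, κ ≤ sg * μ t) :
    (κ - η₁) * ‖∑ t ∈ S, ξ t‖ ^ 2 ≤ ‖⟪∑ t ∈ S, ξ t, y (∑ t ∈ S, ξ t)⟫_ℂ‖ := by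
  have hpyth : ‖∑ t ∈ S, ξ t‖ ^ 2 = ∑ t ∈ S, ‖ξ t‖ ^ 2 :=
    taskL8_norm_sq_sum S ξ (fun k _ l _ hkl => h1 l k (Ne.symm hkl))
  have hexp := taskHFA3c_quad_expand y ξ S h2
  have hlow : (κ - η₁) * ∑ t ∈ S, ‖ξ t‖ ^ 2 ≤ sg * (∑ t ∈ S, ⟪ξ t, y (ξ t)⟫_ℂ).re := by
    rw [Complex.re_sum, Finset.mul_sum, Finset.mul_sum]
    apply Finset.sum_le_sum
    intro t ht
    have h5 := taskHFA3c_one y (ξ t) (ρ t) (μ t) η₁ sg hsg (h3 t) (hρ t)
    have h6 : (κ - η₁) * ‖ξ t‖ ^ 2 ≤ (sg * μ t - η₁) * ‖ξ t‖ ^ 2 :=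
      mul_le_mul_of_nonneg_right (by linarith [hμ t ht]) (sq_nonneg _)
    linarith
  rw [hpyth, hexp]
  have h7 : sg * (∑ t ∈ S, ⟪ξ t, y (ξ t)⟫_ℂ).re ≤ ‖∑ t ∈ S, ⟪ξ t, y (ξ t)⟫_ℂ‖ := by
    have h8 := Complex.abs_re_le_norm (∑ t ∈ S, ⟪ξ t, y (ξ t)⟫_ℂ)
    have h9 := abs_le.mp h8
    rcases hsg with h | h
    · rw [h]
      linarith [h9.2]
    · rw [h]
      linarith [h9.1]
  linarith

/-- Compression of the quadratic form by a projection that almost fixes the vector. -/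
lemma taskHFA3c_compress (y q : H →L[ℂ] H) (hq : IsStarProjection q) (ζ : H) (D δ K : ℝ)
    (hD : ‖y‖ ≤ D) (hK : ‖q * y * q‖ ≤ K) (hζ : ‖ζ‖ ≤ 1) (hδ : ‖(1 - q) ζ‖ ≤ δ) :
    ‖⟪ζ, y ζ⟫_ℂ‖ ≤ K * ‖ζ‖ ^ 2 + 2 * D * δ := by
  have hD0 : 0 ≤ D := le_trans (norm_nonneg _) hD
  have hδ0 : 0 ≤ δ := le_trans (norm_nonneg _) hδ
  have hsplit : ζ = q ζ + (1 - q) ζ := by
    rw [_root_.sub_apply, _root_.one_apply_eq_self]
    abel
  have hqn : ‖q ζ‖ ≤ 1 := by
    calc ‖q ζ‖ ≤ ‖q‖ * ‖ζ‖ := q.le_opNorm ζ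
      _ ≤ 1 * 1 := mul_le_mul hq.norm_le hζ (norm_nonneg _) zero_le_one
      _ = 1 := one_mul 1
  have h1 : ⟪ζ, y ζ⟫_ℂ = ⟪q ζ, y (q ζ)⟫_ℂ + ⟪q ζ, y ((1 - q) ζ)⟫_ℂ + ⟪(1 - q) ζ, y ζ⟫_ℂ := by
    have e1 : ⟪ζ, y ζ⟫_ℂ = ⟪q ζ, y ζ⟫_ℂ + ⟪(1 - q) ζ, y ζ⟫_ℂ := by
      rw [← inner_add_left, ← hsplit]
    have e2 : ⟪q ζ, y ζ⟫_ℂ = ⟪q ζ, y (q ζ)⟫_ℂ + ⟪q ζ, y ((1 - q) ζ)⟫_ℂ := by
      rw [← inner_add_right, ← map_add, ← hsplit]
    rw [e1, e2]
  have h2 : ⟪q ζ, y (q ζ)⟫_ℂ = ⟪ζ, (q * y * q) ζ⟫_ℂ := by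
    have hqs : adjoint q = q := by
      rw [← star_eq_adjoint]
      exact hq.isSelfAdjoint.star_eq
    rw [_root_.mul_apply_eq_comp, _root_.mul_apply_eq_comp]
    calc ⟪q ζ, y (q ζ)⟫_ℂ = ⟪ζ, adjoint q (y (q ζ))⟫_ℂ :=
          (adjoint_inner_right q ζ (y (q ζ))).symm
      _ = ⟪ζ, q (y (q ζ))⟫_ℂ := by rw [hqs]
  have b1 : ‖⟪q ζ, y (q ζ)⟫_ℂ‖ ≤ K * ‖ζ‖ ^ 2 := by
    rw [h2]
    calc ‖⟪ζ, (q * y * q) ζ⟫_ℂ‖ ≤ ‖ζ‖ * ‖(q * y * q) ζ‖ := norm_inner_le_norm _ _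
      _ ≤ ‖ζ‖ * (‖q * y * q‖ * ‖ζ‖) :=
          mul_le_mul_of_nonneg_left ((q * y * q).le_opNorm ζ) (norm_nonneg _)
      _ ≤ ‖ζ‖ * (K * ‖ζ‖) :=
          mul_le_mul_of_nonneg_left (mul_le_mul_of_nonneg_right hK (norm_nonneg _))
            (norm_nonneg _)
      _ = K * ‖ζ‖ ^ 2 := by ring
  have b2 : ‖⟪q ζ, y ((1 - q) ζ)⟫_ℂ‖ ≤ D * δ := by
    calc ‖⟪q ζ, y ((1 - q) ζ)⟫_ℂ‖ ≤ ‖q ζ‖ * ‖y ((1 - q) ζ)‖ := norm_inner_le_norm _ _
      _ ≤ 1 * (‖y‖ * ‖(1 - q) ζ‖) :=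
          mul_le_mul hqn (y.le_opNorm _) (norm_nonneg _) zero_le_one
      _ ≤ 1 * (D * δ) :=
          mul_le_mul_of_nonneg_left (mul_le_mul hD hδ (norm_nonneg _) hD0) zero_le_one
      _ = D * δ := one_mul _
  have b3 : ‖⟪(1 - q) ζ, y ζ⟫_ℂ‖ ≤ D * δ := by
    calc ‖⟪(1 - q) ζ, y ζ⟫_ℂ‖ ≤ ‖(1 - q) ζ‖ * ‖y ζ‖ := norm_inner_le_norm _ _
      _ ≤ δ * (‖y‖ * ‖ζ‖) := mul_le_mul hδ (y.le_opNorm _) (norm_nonneg _) hδ0
      _ ≤ δ * (D * 1) :=
          mul_le_mul_of_nonneg_left (mul_le_mul hD hζ (norm_nonneg _) hD0) hδ0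
      _ = D * δ := by ring
  rw [h1]
  calc ‖⟪q ζ, y (q ζ)⟫_ℂ + ⟪q ζ, y ((1 - q) ζ)⟫_ℂ + ⟪(1 - q) ζ, y ζ⟫_ℂ‖
      ≤ ‖⟪q ζ, y (q ζ)⟫_ℂ‖ + ‖⟪q ζ, y ((1 - q) ζ)⟫_ℂ‖ + ‖⟪(1 - q) ζ, y ζ⟫_ℂ‖ :=
        norm_add₃_le
    _ ≤ K * ‖ζ‖ ^ 2 + 2 * D * δ := by linarith


/-- The paved matrix of a Hermitian matrix with a real diagonal correction is Hermitian. -/
lemma taskHFA3c_paved_hermitian {m r : ℕ} (T : Matrix (Fin m) (Fin m) ℂ) (hT : T.IsHermitian)
    (c : Fin m → Fin r) (d : Fin m → ℝ) : (pavedMatrix T c d).IsHermitian := by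
  apply Matrix.IsHermitian.ext
  intro i j
  have h1 : star (T j i) = T i j := hT.apply i j
  have h2 : star ((d j : ℝ) : ℂ) = ((d j : ℝ) : ℂ) := Complex.conj_ofReal (d j)
  simp only [pavedMatrix, Matrix.of_apply, star_sub]
  congr 1
  · by_cases hc : c j = c i
    · rw [if_pos hc, if_pos hc.symm, h1]
    · rw [if_neg hc, if_neg (fun h => hc h.symm), star_zero]
  · by_cases hij : j = i
    · subst hij
      rw [if_pos rfl, h2]
    · rw [if_neg hij, if_neg (fun h => hij h.symm), star_zero]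

/-- Products of the operators `e i z * g`. -/
lemma taskHFA3c_u_star_mul {m : ℕ} (e : Fin m → Fin m → H →L[ℂ] H)
    (hstar : ∀ i j, star (e i j) = e j i)
    (hmul : ∀ i j k l, e i j * e k l = if j = k then e i l else 0)
    (z : Fin m) (g g' : H →L[ℂ] H) (hg : e z z * g = g) (hg' : star g' = g') (i j : Fin m) :
    star (e i z * g') * (e j z * g) = if i = j then g' * g else 0 := by
  rw [star_mul, hstar, hg']
  calc g' * e z i * (e j z * g) = g' * (e z i * e j z) * g := by simp only [mul_assoc]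
    _ = if i = j then g' * g else 0 := by
      rw [hmul]
      by_cases hij : i = j
      · rw [if_pos hij, if_pos hij, mul_assoc, hg]
      · rw [if_neg hij, if_neg hij, mul_zero, zero_mul]

omit [CompleteSpace H] in
/-- A matrix unit of the corner `g` applied to an operator `e j z * g`. -/
lemma taskHFA3c_sandwich_u {m : ℕ} (e : Fin m → Fin m → H →L[ℂ] H)
    (hmul : ∀ i j k l, e i j * e k l = if j = k then e i l else 0)
    (z : Fin m) (g : H →L[ℂ] H) (hg : e z z * g = g) (hgg : g * g = g) (k l j : Fin m) :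
    (e k z * g * e z l) * (e j z * g) = if l = j then e k z * g else 0 := by
  calc (e k z * g * e z l) * (e j z * g) = e k z * g * (e z l * e j z) * g := by
        simp only [mul_assoc]
    _ = if l = j then e k z * g else 0 := by
      rw [hmul]
      by_cases hlj : l = j
      · rw [if_pos hlj, if_pos hlj, mul_assoc, mul_assoc, hg, hgg]
      · rw [if_neg hlj, if_neg hlj, mul_zero, zero_mul]

omit [CompleteSpace H] in
/-- The amplified projection fixes the operators `e j z * g`. -/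
lemma taskHFA3c_G_mul_u {m : ℕ} (e : Fin m → Fin m → H →L[ℂ] H)
    (hmul : ∀ i j k l, e i j * e k l = if j = k then e i l else 0)
    (z : Fin m) (g : H →L[ℂ] H) (hg : e z z * g = g) (hgg : g * g = g) (j : Fin m) :
    (∑ k, e k z * g * e z k) * (e j z * g) = e j z * g := by
  rw [Finset.sum_mul, Finset.sum_eq_single j]
  · rw [taskHFA3c_sandwich_u e hmul z g hg hgg, if_pos rfl]
  · intro k _ hk
    rw [taskHFA3c_sandwich_u e hmul z g hg hgg, if_neg hk]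
  · intro h
    exact absurd (Finset.mem_univ j) h

omit [CompleteSpace H] in
/-- The amplified projection fixes the operators `w`. -/
lemma taskHFA3c_G_mul_w {m : ℕ} (e : Fin m → Fin m → H →L[ℂ] H)
    (hmul : ∀ i j k l, e i j * e k l = if j = k then e i l else 0)
    (z : Fin m) (g : H →L[ℂ] H) (hg : e z z * g = g) (hgg : g * g = g) (v : Fin m → ℂ) :
    (∑ k, e k z * g * e z k) * (∑ i, v i • (e i z * g)) = ∑ i, v i • (e i z * g) := by
  rw [Finset.mul_sum]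
  apply Finset.sum_congr rfl
  intro i _
  rw [mul_smul_comm, taskHFA3c_G_mul_u e hmul z g hg hgg]

omit [CompleteSpace H] in
/-- The matrix `B` in the corner acts on `w` through its action on the coefficient vector. -/
lemma taskHFA3c_B_mul_w {m : ℕ} (e : Fin m → Fin m → H →L[ℂ] H)
    (hmul : ∀ i j k l, e i j * e k l = if j = k then e i l else 0)
    (z : Fin m) (g : H →L[ℂ] H) (hg : e z z * g = g) (hgg : g * g = g)
    (B : Matrix (Fin m) (Fin m) ℂ) (v : Fin m → ℂ) (μ : ℂ)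
    (hev : ∀ i, ∑ j, B i j * v j = μ * v i) :
    (∑ i, ∑ j, B i j • (e i z * g * e z j)) * (∑ l, v l • (e l z * g))
      = μ • ∑ i, v i • (e i z * g) := by
  rw [Finset.sum_mul, Finset.smul_sum]
  apply Finset.sum_congr rfl
  intro i _
  rw [Finset.sum_mul]
  have h1 : ∀ j, (B i j • (e i z * g * e z j)) * (∑ l, v l • (e l z * g))
      = (B i j * v j) • (e i z * g) := by
    intro j
    rw [Finset.mul_sum, Finset.sum_eq_single j]
    · rw [smul_mul_smul_comm, taskHFA3c_sandwich_u e hmul z g hg hgg, if_pos rfl]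
    · intro l _ hl
      rw [smul_mul_smul_comm, taskHFA3c_sandwich_u e hmul z g hg hgg, if_neg (Ne.symm hl),
        smul_zero]
    · intro h
      exact absurd (Finset.mem_univ j) h
  rw [Finset.sum_congr rfl (fun j _ => h1 j), ← Finset.sum_smul, hev, mul_smul]

/-- The product `star w' * w`. -/
lemma taskHFA3c_w_star_mul {m : ℕ} (e : Fin m → Fin m → H →L[ℂ] H)
    (hstar : ∀ i j, star (e i j) = e j i)
    (hmul : ∀ i j k l, e i j * e k l = if j = k then e i l else 0)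
    (z : Fin m) (g g' : H →L[ℂ] H) (hg : e z z * g = g) (hg' : star g' = g')
    (v v' : Fin m → ℂ) :
    star (∑ i, v' i • (e i z * g')) * (∑ j, v j • (e j z * g))
      = (∑ i, star (v' i) * v i) • (g' * g) := by
  rw [star_sum, Finset.sum_mul, Finset.sum_smul]
  apply Finset.sum_congr rfl
  intro i _
  rw [star_smul, Finset.mul_sum, Finset.sum_eq_single i]
  · rw [smul_mul_smul_comm, taskHFA3c_u_star_mul e hstar hmul z g g' hg hg', if_pos rfl]
  · intro j _ hj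
    rw [smul_mul_smul_comm, taskHFA3c_u_star_mul e hstar hmul z g g' hg hg',
      if_neg (Ne.symm hj), smul_zero]
  · intro h
    exact absurd (Finset.mem_univ i) h

/-- A unit vector has `∑ conj (v i) * v i = 1`. -/
lemma taskHFA3c_conj_sum {m : ℕ} (v : Fin m → ℂ) (hv : ∑ i, ‖v i‖ ^ 2 = 1) :
    ∑ i, star (v i) * v i = 1 := by
  have h1 : ∀ i, star (v i) * v i = ((‖v i‖ ^ 2 : ℝ) : ℂ) := by
    intro i
    rw [Complex.ofReal_pow]
    exact Complex.conj_mul' (v i)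
  rw [Finset.sum_congr rfl (fun i _ => h1 i), ← Complex.ofReal_sum, hv, Complex.ofReal_one]

/-- The amplified projection is self-adjoint. -/
lemma taskHFA3c_G_star {m : ℕ} (e : Fin m → Fin m → H →L[ℂ] H)
    (hstar : ∀ i j, star (e i j) = e j i) (z : Fin m) (g : H →L[ℂ] H) (hgs : star g = g) :
    star (∑ k, e k z * g * e z k) = ∑ k, e k z * g * e z k := by
  rw [star_sum]
  apply Finset.sum_congr rfl
  intro k _
  rw [star_mul, star_mul, hstar, hstar, hgs, ← mul_assoc]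

omit [CompleteSpace H] in
/-- Amplified projections of orthogonal corners are orthogonal. -/
lemma taskHFA3c_G_mul_G {m : ℕ} (e : Fin m → Fin m → H →L[ℂ] H)
    (hmul : ∀ i j k l, e i j * e k l = if j = k then e i l else 0)
    (z : Fin m) (g g' : H →L[ℂ] H) (hg : e z z * g = g) (hgg' : g' * g = 0) :
    (∑ k, e k z * g' * e z k) * (∑ l, e l z * g * e z l) = 0 := by
  rw [Finset.sum_mul]
  apply Finset.sum_eq_zero
  intro k _
  rw [Finset.mul_sum]
  apply Finset.sum_eq_zero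
  intro l _
  calc e k z * g' * e z k * (e l z * g * e z l)
      = e k z * g' * (e z k * e l z) * g * e z l := by simp only [mul_assoc]
    _ = 0 := by
      rw [hmul]
      by_cases hkl : k = l
      · rw [if_pos hkl]
        calc e k z * g' * e z z * g * e z l = e k z * (g' * (e z z * g)) * e z l := by
              simp only [mul_assoc]
          _ = 0 := by rw [hg, hgg', mul_zero, zero_mul]
      · rw [if_neg hkl, mul_zero, zero_mul, zero_mul]

omit [CompleteSpace H] in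
/-- The matrix units commute with the amplified projection. -/
lemma taskHFA3c_unit_comm {m : ℕ} (e : Fin m → Fin m → H →L[ℂ] H)
    (hmul : ∀ i j k l, e i j * e k l = if j = k then e i l else 0)
    (z : Fin m) (g : H →L[ℂ] H) (i j : Fin m) :
    e i j * (∑ k, e k z * g * e z k) = (∑ k, e k z * g * e z k) * e i j := by
  rw [Finset.mul_sum, Finset.sum_mul]
  have hL : ∑ k, e i j * (e k z * g * e z k) = e i z * g * e z j := by
    rw [Finset.sum_eq_single j]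
    · have h1 : e i j * (e j z * g * e z j) = (e i j * e j z) * g * e z j := by
        simp only [mul_assoc]
      rw [h1, hmul, if_pos rfl]
    · intro k _ hk
      have h1 : e i j * (e k z * g * e z k) = (e i j * e k z) * g * e z k := by
        simp only [mul_assoc]
      rw [h1, hmul, if_neg (Ne.symm hk), zero_mul, zero_mul]
    · intro h
      exact absurd (Finset.mem_univ j) h
  have hR : ∑ k, e k z * g * e z k * e i j = e i z * g * e z j := by
    rw [Finset.sum_eq_single i]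
    · have h2 : e i z * g * e z i * e i j = e i z * g * (e z i * e i j) := by
        simp only [mul_assoc]
      rw [h2, hmul, if_pos rfl]
    · intro k _ hk
      have h2 : e k z * g * e z k * e i j = e k z * g * (e z k * e i j) := by
        simp only [mul_assoc]
      rw [h2, hmul, if_neg hk, mul_zero]
    · intro h
      exact absurd (Finset.mem_univ i) h
  rw [hL, hR]

omit [CompleteSpace H] in
/-- The operator `∑ T i j • e i j` commutes with the amplified projection. -/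
lemma taskHFA3c_x_comm {m : ℕ} (e : Fin m → Fin m → H →L[ℂ] H)
    (hmul : ∀ i j k l, e i j * e k l = if j = k then e i l else 0)
    (z : Fin m) (g : H →L[ℂ] H) (T : Matrix (Fin m) (Fin m) ℂ) :
    (∑ i, ∑ j, T i j • e i j) * (∑ k, e k z * g * e z k)
      = (∑ k, e k z * g * e z k) * (∑ i, ∑ j, T i j • e i j) := by
  rw [Finset.sum_mul, Finset.mul_sum]
  apply Finset.sum_congr rfl
  intro i _
  rw [Finset.sum_mul, Finset.mul_sum]
  apply Finset.sum_congr rfl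
  intro j _
  rw [smul_mul_assoc, mul_smul_comm, taskHFA3c_unit_comm e hmul z g i j]

/-- The pinched operator minus `a` commutes with an element of `A` commuting with `x`. -/
lemma taskHFA3c_y_comm (A : VonNeumannAlgebra H) (hAc : ∀ a ∈ A, ∀ b ∈ A, a * b = b * a)
    {r : ℕ} (p : Fin r → H →L[ℂ] H) (hp : ∀ i, p i ∈ A) (a x G : H →L[ℂ] H) (ha : a ∈ A)
    (hG : G ∈ A) (hx : x * G = G * x) :
    (pinching p x - a) * G = G * (pinching p x - a) := by
  rw [sub_mul, mul_sub, hAc a ha G hG]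
  congr 1
  unfold pinching
  rw [Finset.sum_mul, Finset.mul_sum]
  apply Finset.sum_congr rfl
  intro i _
  have h1 := hAc (p i) (hp i) G hG
  calc p i * x * p i * G = p i * x * (p i * G) := by rw [mul_assoc]
    _ = p i * x * (G * p i) := by rw [h1]
    _ = p i * (x * G) * p i := by simp only [mul_assoc]
    _ = p i * (G * x) * p i := by rw [hx]
    _ = (p i * G) * x * p i := by simp only [mul_assoc]
    _ = G * p i * x * p i := by rw [h1]
    _ = G * (p i * x * p i) := by simp only [mul_assoc]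

/-- A sum of pairwise orthogonal projections is a projection. -/
lemma taskHFA3c_sum_proj {s : ℕ} (g : Fin s → H →L[ℂ] H) (hg : ∀ t, IsStarProjection (g t))
    (hgo : ∀ t t', t ≠ t' → g t * g t' = 0) (S : Finset (Fin s)) :
    IsStarProjection (∑ t ∈ S, g t) := by
  refine ⟨?_, ?_⟩
  · unfold IsIdempotentElem
    rw [Finset.sum_mul]
    apply Finset.sum_congr rfl
    intro t ht
    rw [Finset.mul_sum, Finset.sum_eq_single t]
    · exact (hg t).isIdempotentElem.eq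
    · intro t' _ ht'
      exact hgo t t' (Ne.symm ht')
    · intro h
      exact absurd ht h
  · unfold IsSelfAdjoint
    rw [star_sum]
    exact Finset.sum_congr rfl (fun t _ => (hg t).isSelfAdjoint.star_eq)

/-- The sum of the operators `w t` over a set of indices is a contraction. -/
lemma taskHFA3c_W_norm {s : ℕ} (w g : Fin s → H →L[ℂ] H) (hg : ∀ t, IsStarProjection (g t))
    (hgo : ∀ t t', t ≠ t' → g t * g t' = 0)
    (hww : ∀ t t', star (w t') * w t = if t = t' then g t else 0) (S : Finset (Fin s)) :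
    ‖∑ t ∈ S, w t‖ ≤ 1 := by
  have h1 : star (∑ t ∈ S, w t) * (∑ t ∈ S, w t) = ∑ t ∈ S, g t := by
    rw [star_sum, Finset.sum_mul]
    apply Finset.sum_congr rfl
    intro t' ht'
    rw [Finset.mul_sum, Finset.sum_eq_single t']
    · rw [hww, if_pos rfl]
    · intro t _ ht
      rw [hww, if_neg ht]
    · intro h
      exact absurd ht' h
  have h2 : ‖∑ t ∈ S, g t‖ ≤ 1 := IsStarProjection.norm_le _ (taskHFA3c_sum_proj g hg hgo S)
  have h3 : ‖∑ t ∈ S, w t‖ * ‖∑ t ∈ S, w t‖ ≤ 1 := by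
    rw [← CStarRing.norm_star_mul_self, h1]
    exact h2
  by_contra h
  push Not at h
  nlinarith [norm_nonneg (∑ t ∈ S, w t)]

/-- The total mass of the vectors `w t Ω`. -/
lemma taskHFA3c_mass {s : ℕ} (Ω : H) (w g : Fin s → H →L[ℂ] H) (P : H →L[ℂ] H)
    (hP : IsStarProjection P) (hww : ∀ t, star (w t) * w t = g t) (hsum : ∑ t, g t = P) :
    ∑ t, ‖w t Ω‖ ^ 2 = ‖P Ω‖ ^ 2 := by
  have h1 : ∀ t, ‖w t Ω‖ ^ 2 = RCLike.re (taskL4_tau Ω (g t)) := by
    intro t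
    rw [← hww t, taskL4_re_tau_star_mul]
  have h2 : ‖P Ω‖ ^ 2 = RCLike.re (taskL4_tau Ω P) := by
    rw [← taskL4_re_tau_star_mul, hP.isSelfAdjoint.star_eq, hP.isIdempotentElem.eq]
  rw [h2, ← hsum, taskL4_tau_sum, map_sum]
  exact Finset.sum_congr rfl (fun t _ => h1 t)

/-- Ranges of a self-adjoint operator and of an operator it annihilates are orthogonal. -/
lemma taskHFA3c_inner_sa_zero (P Q : H →L[ℂ] H) (hP : star P = P) (hPQ : P * Q = 0) (u w : H) :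
    ⟪P u, Q w⟫_ℂ = 0 := by
  have h1 : ⟪P u, Q w⟫_ℂ = ⟪u, adjoint P (Q w)⟫_ℂ := (adjoint_inner_right P u (Q w)).symm
  have h2 : adjoint P (Q w) = (P * Q) w := by
    rw [← star_eq_adjoint, hP]
    rfl
  rw [h1, h2, hPQ, _root_.zero_apply, inner_zero_right]

/-- The abstract core of the main estimate: approximate eigenvectors `w t Ω` of `y` with large
eigenvalues, living in orthogonal reducing subspaces, cannot carry mass if `y` is small on
a projection `q` almost fixing the trace vector. -/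
lemma taskHFA3c_core (M : VonNeumannAlgebra H) {Ω : H} (hΩ : IsTraceVector M Ω) {s : ℕ}
    (y q : H →L[ℂ] H) (hqM : q ∈ M) (hq : IsStarProjection q)
    (w g G E : Fin s → H →L[ℂ] H) (μ : Fin s → ℝ)
    (hwM : ∀ t, w t ∈ M)
    (hg : ∀ t, IsStarProjection (g t)) (hgo : ∀ t t', t ≠ t' → g t * g t' = 0)
    (hww : ∀ t t', star (w t') * w t = if t = t' then g t else 0)
    (hGw : ∀ t, G t * w t = w t) (hGs : ∀ t, star (G t) = G t)
    (hGG : ∀ t t', t ≠ t' → G t' * G t = 0) (hyG : ∀ t, y * G t = G t * y)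
    (hyw : ∀ t, y * w t = (μ t : ℂ) • w t + E t * w t)
    (D δ K κ η₁ mass : ℝ) (hD : ‖y‖ ≤ D) (hK : ‖q * y * q‖ ≤ K) (hδ : ‖(1 - q) Ω‖ ≤ δ)
    (hE : ∀ t, ‖E t‖ ≤ η₁) (hμ : ∀ t, κ < |μ t|)
    (hmass : ∑ t, ‖w t Ω‖ ^ 2 = mass) (hmass1 : mass ≤ 1) :
    (κ - η₁ - K) * mass ≤ 4 * D * δ := by
  classical
  have h1 : ∀ t t', t ≠ t' → ⟪w t' Ω, w t Ω⟫_ℂ = 0 := by
    intro t t' htt'
    rw [taskL5_inner_eq, hww t t', if_neg htt', _root_.zero_apply, inner_zero_right]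
  have h2 : ∀ t t', t ≠ t' → ⟪w t' Ω, y (w t Ω)⟫_ℂ = 0 := by
    intro t t' htt'
    have e1 : w t' Ω = G t' (w t' Ω) := by
      have : G t' (w t' Ω) = (G t' * w t') Ω := rfl
      rw [this, hGw]
    have e2 : y (w t Ω) = G t (y (w t Ω)) := by
      calc y (w t Ω) = (y * (G t * w t)) Ω := by
            rw [hGw]
            rfl
        _ = ((y * G t) * w t) Ω := by rw [mul_assoc]
        _ = ((G t * y) * w t) Ω := by rw [hyG]
        _ = G t (y (w t Ω)) := rfl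
    rw [e1, e2]
    exact taskHFA3c_inner_sa_zero (G t') (G t) (hGs t') (hGG t t' htt') _ _
  have h3 : ∀ t, y (w t Ω) = (μ t : ℂ) • w t Ω + E t (w t Ω) := by
    intro t
    calc y (w t Ω) = (y * w t) Ω := rfl
      _ = ((μ t : ℂ) • w t + E t * w t) Ω := by rw [hyw]
      _ = (μ t : ℂ) • w t Ω + E t (w t Ω) := rfl
  have hρ : ∀ t, ‖E t (w t Ω)‖ ≤ η₁ * ‖w t Ω‖ := by
    intro t
    exact le_trans ((E t).le_opNorm _) (mul_le_mul_of_nonneg_right (hE t) (norm_nonneg _))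
  have hD0 : 0 ≤ D := le_trans (norm_nonneg _) hD
  have hδ0 : 0 ≤ δ := le_trans (norm_nonneg _) hδ
  have hpart : ∀ (S : Finset (Fin s)) (sg : ℝ), (sg = 1 ∨ sg = -1) →
      (∀ t ∈ S, κ ≤ sg * μ t) →
      (κ - η₁) * (∑ t ∈ S, ‖w t Ω‖ ^ 2) ≤ K * (∑ t ∈ S, ‖w t Ω‖ ^ 2) + 2 * D * δ := by
    intro S sg hsg hS
    have hpyth : ‖∑ t ∈ S, w t Ω‖ ^ 2 = ∑ t ∈ S, ‖w t Ω‖ ^ 2 :=
      taskL8_norm_sq_sum S (fun t => w t Ω) (fun k _ l _ hkl => h1 l k (Ne.symm hkl))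
    have hq1 := taskHFA3c_quad y (fun t => w t Ω) (fun t => E t (w t Ω)) μ η₁ κ sg hsg S
      h1 h2 h3 hρ hS
    have hle : ∑ t ∈ S, ‖w t Ω‖ ^ 2 ≤ mass := by
      rw [← hmass]
      exact Finset.sum_le_sum_of_subset_of_nonneg (Finset.subset_univ S)
        (fun t _ _ => sq_nonneg _)
    have hζ1 : ‖∑ t ∈ S, w t Ω‖ ≤ 1 := by
      have h5 : ‖∑ t ∈ S, w t Ω‖ ^ 2 ≤ 1 := by
        rw [hpyth]
        exact le_trans hle hmass1
      by_contra h
      push Not at h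
      nlinarith [norm_nonneg (∑ t ∈ S, w t Ω)]
    have hWΩ : ∑ t ∈ S, w t Ω = (∑ t ∈ S, w t) Ω := by
      rw [_root_.sum_apply]
    have hWM : ∑ t ∈ S, w t ∈ M := sum_mem (fun t _ => hwM t)
    have h1q : (1 - q) ∈ M := sub_mem (one_mem M) hqM
    have hζδ : ‖(1 - q) (∑ t ∈ S, w t Ω)‖ ≤ δ := by
      rw [hWΩ]
      calc ‖(1 - q) ((∑ t ∈ S, w t) Ω)‖ ≤ ‖∑ t ∈ S, w t‖ * ‖(1 - q) Ω‖ :=
            trace_norm_mul_le M hΩ h1q hWM
        _ ≤ 1 * δ := mul_le_mul (taskHFA3c_W_norm w g hg hgo hww S) hδ (norm_nonneg _)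
            zero_le_one
        _ = δ := one_mul δ
    have hq2 := taskHFA3c_compress y q hq (∑ t ∈ S, w t Ω) D δ K hD hK hζ1 hζδ
    rw [hpyth] at hq1 hq2
    linarith
  have hplus := hpart (Finset.univ.filter (fun t => 0 < μ t)) 1 (Or.inl rfl) (by
    intro t ht
    have h5 : 0 < μ t := (Finset.mem_filter.mp ht).2
    have h6 := hμ t
    rw [abs_of_pos h5] at h6
    linarith)
  have hminus := hpart (Finset.univ.filter (fun t => ¬ 0 < μ t)) (-1) (Or.inr rfl) (by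
    intro t ht
    have h5 : ¬ 0 < μ t := (Finset.mem_filter.mp ht).2
    have h6 := hμ t
    rw [abs_of_nonpos (not_lt.mp h5)] at h6
    linarith)
  have hsplit : (∑ t ∈ Finset.univ.filter (fun t => 0 < μ t), ‖w t Ω‖ ^ 2)
      + (∑ t ∈ Finset.univ.filter (fun t => ¬ 0 < μ t), ‖w t Ω‖ ^ 2) = mass := by
    rw [Finset.sum_filter_add_sum_filter_not, hmass]
  rw [← hsplit]
  linarith

theorem paved_of_soPavable_matrix_units (A M : VonNeumannAlgebra H)
    (hAc : ∀ a ∈ A, ∀ b ∈ A, a * b = b * a) (hAM : A ≤ M) {Ω : H} (hΩ : IsTraceVector M Ω)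
    {m : ℕ} (e : Fin m → Fin m → H →L[ℂ] H) (he : IsMatrixUnitsOver A M e)
    (hnorm : ∀ i j, ∀ a ∈ A, e i j * a * e j i ∈ A)
    (T : Matrix (Fin m) (Fin m) ℂ) (hT : T.IsHermitian) {ε : ℝ} (hε : 0 ≤ ε) {r : ℕ}
    (hpav : SoPavable A M (∑ i, ∑ j, T i j • e i j) ε r) {η : ℝ} (hη : 0 < η) :
    ∃ (c : Fin m → Fin r) (d : Fin m → ℝ),
      (∀ j, |d j| ≤ ‖T‖) ∧ ‖pavedMatrix T c d‖ ≤ ε * ‖T‖ + η := by
  have he' := he
  obtain ⟨heM, heA, hstar, hmul, hsum⟩ := he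
  have hT0 : 0 ≤ ‖T‖ := norm_nonneg T
  rcases Nat.eq_zero_or_pos m with hm0 | hm
  · subst hm0
    refine ⟨fun i => i.elim0, fun _ => 0, fun j => j.elim0, ?_⟩
    have h0 : pavedMatrix T (fun i => i.elim0 : Fin 0 → Fin r) (fun _ => (0 : ℝ)) = 0 :=
      Subsingleton.elim _ _
    rw [h0, norm_zero]
    have := mul_nonneg hε hT0
    linarith
  · by_contra hcon
    push Not at hcon
    have hxT : ‖∑ i, ∑ j, T i j • e i j‖ ≤ ‖T‖ :=
      norm_matrix_units_sum_le e hstar hmul hsum T hT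
    obtain ⟨D, hD⟩ : ∃ D : ℝ, D = ((r : ℝ) + 1) * ‖T‖ + 1 := ⟨_, rfl⟩
    have hDpos : 0 < D := by
      rw [hD]
      positivity
    have hmpos : (0 : ℝ) < (m : ℝ) := Nat.cast_pos.mpr hm
    obtain ⟨δ, hδ⟩ : ∃ δ : ℝ, δ = η / (16 * (m : ℝ) * D) := ⟨_, rfl⟩
    have hδpos : 0 < δ := by
      rw [hδ]
      positivity
    obtain ⟨p, a, q, hp, haA, hasa, hax, hqM, hq, hqF, hqy⟩ := hpav {Ω} δ hδpos
    have hqΩ : ‖(1 - q) Ω‖ ≤ δ := le_of_lt (hqF Ω (Finset.mem_singleton_self Ω))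
    have hyD : ‖pinching p (∑ i, ∑ j, T i j • e i j) - a‖ ≤ D := by
      have h1 : ‖pinching p (∑ i, ∑ j, T i j • e i j)‖
          ≤ (r : ℝ) * ‖∑ i, ∑ j, T i j • e i j‖ :=
        taskT2_norm_pinching_le p (fun i => (hp.1 i).2) _
      have h2 : ‖pinching p (∑ i, ∑ j, T i j • e i j) - a‖
          ≤ ‖pinching p (∑ i, ∑ j, T i j • e i j)‖ + ‖a‖ := norm_sub_le _ _
      have h3 : (r : ℝ) * ‖∑ i, ∑ j, T i j • e i j‖ ≤ (r : ℝ) * ‖T‖ :=
        mul_le_mul_of_nonneg_left hxT (Nat.cast_nonneg r)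
      rw [hD]
      linarith
    have hyK : ‖q * (pinching p (∑ i, ∑ j, T i j • e i j) - a) * q‖ ≤ ε * ‖T‖ :=
      le_trans hqy (mul_le_mul_of_nonneg_left hxT hε)
    have hη2 : 0 < η / 2 := by positivity
    obtain ⟨s, g, c, d, hg, hgo, hgs, hd, hE⟩ :=
      exists_fiber_decomposition A hAc hm e heA hstar hmul hsum hnorm T p hp haA hasa hη2
    generalize (⟨0, hm⟩ : Fin m) = z at hg hgs hE
    have hB : ∀ t, (pavedMatrix T (c t) (d t)).IsHermitian :=
      fun t => taskHFA3c_paved_hermitian T hT (c t) (d t)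
    choose v μ hv hμ hev using
      fun t => exists_eigenvector_norm hm (pavedMatrix T (c t) (d t)) (hB t)
    have hμbig : ∀ t, ε * ‖T‖ + η < |μ t| := by
      intro t
      rw [hμ t]
      apply hcon
      intro j
      exact le_trans (hd t j) (le_trans hax hxT)
    have hgp : ∀ t, IsStarProjection (g t) := fun t => (hg t).2.1
    have hgz : ∀ t, e z z * g t = g t := fun t => (hg t).2.2
    have hgg : ∀ t, g t * g t = g t := fun t => (hgp t).isIdempotentElem.eq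
    have hgsa : ∀ t, star (g t) = g t := fun t => (hgp t).isSelfAdjoint.star_eq
    have hGA : ∀ t, (∑ k, e k z * g t * e z k) ∈ A :=
      fun t => sum_mem (fun k _ => hnorm k z (g t) (hg t).1)
    have hwM : ∀ t, (∑ i, v t i • (e i z * g t)) ∈ M :=
      fun t => sum_mem (fun i _ =>
        M.toStarSubalgebra.smul_mem (mul_mem (heM i z) (hAM (hg t).1)) (v t i))
    have hww : ∀ t t', star (∑ i, v t' i • (e i z * g t')) * (∑ i, v t i • (e i z * g t))
        = if t = t' then g t else 0 := by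
      intro t t'
      rw [taskHFA3c_w_star_mul e hstar hmul z (g t) (g t') (hgz t) (hgsa t') (v t) (v t')]
      by_cases htt' : t = t'
      · subst htt'
        rw [taskHFA3c_conj_sum (v t) (hv t), one_smul, hgg, if_pos rfl]
      · rw [hgo t' t (Ne.symm htt'), smul_zero, if_neg htt']
    have hGw : ∀ t, (∑ k, e k z * g t * e z k) * (∑ i, v t i • (e i z * g t))
        = ∑ i, v t i • (e i z * g t) :=
      fun t => taskHFA3c_G_mul_w e hmul z (g t) (hgz t) (hgg t) (v t)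
    have hGs : ∀ t, star (∑ k, e k z * g t * e z k) = ∑ k, e k z * g t * e z k :=
      fun t => taskHFA3c_G_star e hstar z (g t) (hgsa t)
    have hGG : ∀ t t', t ≠ t' →
        (∑ k, e k z * g t' * e z k) * (∑ k, e k z * g t * e z k) = 0 :=
      fun t t' htt' => taskHFA3c_G_mul_G e hmul z (g t) (g t') (hgz t)
        (hgo t' t (Ne.symm htt'))
    have hyG : ∀ t, (pinching p (∑ i, ∑ j, T i j • e i j) - a) * (∑ k, e k z * g t * e z k)
        = (∑ k, e k z * g t * e z k) * (pinching p (∑ i, ∑ j, T i j • e i j) - a) :=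
      fun t => taskHFA3c_y_comm A hAc p (fun i => (hp.1 i).1) a _ _ haA (hGA t)
        (taskHFA3c_x_comm e hmul z (g t) T)
    have hyw : ∀ t, (pinching p (∑ i, ∑ j, T i j • e i j) - a) * (∑ i, v t i • (e i z * g t))
        = (μ t : ℂ) • (∑ i, v t i • (e i z * g t))
          + ((pinching p (∑ i, ∑ j, T i j • e i j) - a) * (∑ i, e i z * g t * e z i)
            - ∑ i, ∑ j, pavedMatrix T (c t) (d t) i j • (e i z * g t * e z j))
            * (∑ i, v t i • (e i z * g t)) := by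
      intro t
      rw [sub_mul (a := (pinching p (∑ i, ∑ j, T i j • e i j) - a) * (∑ i, e i z * g t * e z i)),
        mul_assoc, hGw t,
        taskHFA3c_B_mul_w e hmul z (g t) (hgz t) (hgg t) (pavedMatrix T (c t) (d t)) (v t)
          (μ t : ℂ) (hev t)]
      abel
    have hezz : IsStarProjection (e z z) := by
      refine ⟨?_, hstar z z⟩
      unfold IsIdempotentElem
      rw [hmul, if_pos rfl]
    have hmass : ∑ t, ‖(∑ i, v t i • (e i z * g t)) Ω‖ ^ 2 = 1 / (m : ℝ) := by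
      rw [taskHFA3c_mass Ω (fun t => ∑ i, v t i • (e i z * g t)) g (e z z) hezz
        (fun t => by rw [hww t t, if_pos rfl]) hgs]
      exact trace_matrix_unit_diag A M hΩ he' z
    have hmass1 : 1 / (m : ℝ) ≤ 1 := by
      rw [div_le_one hmpos]
      exact Nat.one_le_cast.mpr hm
    have key := taskHFA3c_core M hΩ (pinching p (∑ i, ∑ j, T i j • e i j) - a) q hqM hq
      (fun t => ∑ i, v t i • (e i z * g t)) g (fun t => ∑ k, e k z * g t * e z k)
      (fun t => (pinching p (∑ i, ∑ j, T i j • e i j) - a) * (∑ i, e i z * g t * e z i)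
            - ∑ i, ∑ j, pavedMatrix T (c t) (d t) i j • (e i z * g t * e z j)) μ
      hwM hgp hgo hww hGw hGs hGG hyG hyw D δ (ε * ‖T‖) (ε * ‖T‖ + η) (η / 2) (1 / (m : ℝ))
      hyD hyK hqΩ hE hμbig hmass hmass1
    have h4 : 4 * D * δ = η / (4 * (m : ℝ)) := by
      rw [hδ]
      field_simp
      ring
    have h5 : (ε * ‖T‖ + η - η / 2 - ε * ‖T‖) * (1 / (m : ℝ)) = η / (2 * (m : ℝ)) := by
      field_simp
      ring
    have h6 : η / (4 * (m : ℝ)) < η / (2 * (m : ℝ)) := by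
      apply div_lt_div_of_pos_left hη (by positivity)
      linarith
    rw [h4, h5] at key
    linarith

end Vale.Agent.Lib.P078
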