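import Vale.Agent.Lib.P078.PauliDefs
import Vale.Agent.Lib.P078.Approx
import Vale.Agent.Lib.P078.Factor
import Vale.Agent.Lib.P078.Summary
import Vale.Agent.Lib.P078.AFDDefs

namespace Vale.Agent.Lib.P078

open scoped InnerProductSpace Matrix.Norms.L2Operator
open ContinuousLinearMap Filter Topology

variable {H : Type*} [NormedAddCommGroup H] [InnerProductSpace ℂ H] [CompleteSpace H]

/-! ### A4 : padding a matrix by zeros -/

/-- the identity matrix has norm at most one (also in size zero) -/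
theorem taskHFA4_norm_one_le (n : ℕ) : ‖(1 : Matrix (Fin n) (Fin n) ℂ)‖ ≤ 1 := by
  have h := Matrix.l2_opNorm_conjTranspose_mul_self (1 : Matrix (Fin n) (Fin n) ℂ)
  rw [Matrix.conjTranspose_one, Matrix.one_mul] at h
  have h0 := norm_nonneg (1 : Matrix (Fin n) (Fin n) ℂ)
  have h1 : ‖(1 : Matrix (Fin n) (Fin n) ℂ)‖ * (‖(1 : Matrix (Fin n) (Fin n) ℂ)‖ - 1) = 0 := by
    linarith
  rcases mul_eq_zero.mp h1 with h2 | h2
  · linarith
  · linarith

/-- the matrix of the inclusion of the first `n` coordinates: an isometry that compresses a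
matrix to its upper left block -/
theorem taskHFA4_exists_isometry {n m : ℕ} (hnm : n ≤ m) :
    ∃ V : Matrix (Fin m) (Fin n) ℂ, V.conjTranspose * V = 1 ∧
      ∀ (S : Matrix (Fin m) (Fin m) ℂ) (i j : Fin n),
        (V.conjTranspose * S * V) i j = S (Fin.castLE hnm i) (Fin.castLE hnm j) := by
  have hentry : ∀ (S : Matrix (Fin m) (Fin m) ℂ) (i j : Fin n),
      (((1 : Matrix (Fin m) (Fin m) ℂ).submatrix (Equiv.refl (Fin m))
          (Fin.castLE hnm)).conjTranspose * S
        * (1 : Matrix (Fin m) (Fin m) ℂ).submatrix (Equiv.refl (Fin m)) (Fin.castLE hnm)) i j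
        = S (Fin.castLE hnm i) (Fin.castLE hnm j) := by
    intro S i j
    rw [Matrix.conjTranspose_submatrix, Matrix.conjTranspose_one, Matrix.one_submatrix_mul,
      Matrix.mul_submatrix_one]
    rfl
  refine ⟨(1 : Matrix (Fin m) (Fin m) ℂ).submatrix (Equiv.refl (Fin m)) (Fin.castLE hnm),
    ?_, hentry⟩
  ext i j
  have h := hentry 1 i j
  rw [Matrix.mul_one] at h
  rw [h, Matrix.one_apply, Matrix.one_apply]
  by_cases hij : i = j
  · rw [if_pos hij, if_pos (congrArg (Fin.castLE hnm) hij)]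
  · rw [if_neg hij, if_neg (fun h' => hij (Fin.castLE_injective hnm h'))]

/-- an isometry has norm at most one -/
theorem taskHFA4_norm_isometry_le {n m : ℕ} (V : Matrix (Fin m) (Fin n) ℂ)
    (hV : V.conjTranspose * V = 1) : ‖V‖ ≤ 1 := by
  have h := Matrix.l2_opNorm_conjTranspose_mul_self V
  rw [hV] at h
  have h1 := taskHFA4_norm_one_le n
  have h0 := norm_nonneg V
  nlinarith

/-- compression by an isometry does not increase the norm -/
theorem taskHFA4_norm_compress_le {n m : ℕ} (V : Matrix (Fin m) (Fin n) ℂ)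
    (hV : V.conjTranspose * V = 1) (S : Matrix (Fin m) (Fin m) ℂ) :
    ‖V.conjTranspose * S * V‖ ≤ ‖S‖ := by
  have hV1 := taskHFA4_norm_isometry_le V hV
  have hV2 : ‖V.conjTranspose‖ ≤ 1 := by
    rw [Matrix.l2_opNorm_conjTranspose]
    exact hV1
  have h1 := Matrix.l2_opNorm_mul (V.conjTranspose * S) V
  have h2 := Matrix.l2_opNorm_mul V.conjTranspose S
  have h3 := norm_nonneg S
  have h4 := norm_nonneg V
  have h5 := norm_nonneg V.conjTranspose
  have h6 := norm_nonneg (V.conjTranspose * S)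
  have h7 : ‖V.conjTranspose * S‖ ≤ ‖S‖ := by nlinarith
  nlinarith

/-- dilation by an isometry does not increase the norm -/
theorem taskHFA4_norm_dilate_le {n m : ℕ} (V : Matrix (Fin m) (Fin n) ℂ)
    (hV : V.conjTranspose * V = 1) (T : Matrix (Fin n) (Fin n) ℂ) :
    ‖V * T * V.conjTranspose‖ ≤ ‖T‖ := by
  have hV1 := taskHFA4_norm_isometry_le V hV
  have hV2 : ‖V.conjTranspose‖ ≤ 1 := by
    rw [Matrix.l2_opNorm_conjTranspose]
    exact hV1
  have h1 := Matrix.l2_opNorm_mul (V * T) V.conjTranspose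
  have h2 := Matrix.l2_opNorm_mul V T
  have h3 := norm_nonneg T
  have h4 := norm_nonneg V
  have h5 := norm_nonneg V.conjTranspose
  have h6 := norm_nonneg (V * T)
  have h7 : ‖V * T‖ ≤ ‖T‖ := by nlinarith
  nlinarith

theorem exists_padded_matrix {n m : ℕ} (hnm : n ≤ m) (T : Matrix (Fin n) (Fin n) ℂ)
    (hT : T.IsHermitian) :
    ∃ T' : Matrix (Fin m) (Fin m) ℂ, T'.IsHermitian ∧ ‖T'‖ = ‖T‖ ∧
      ∀ (r : ℕ) (C : ℝ), (∃ (c : Fin m → Fin r) (d : Fin m → ℝ), (∀ j, |d j| ≤ ‖T'‖) ∧
          ‖pavedMatrix T' c d‖ ≤ C) →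
        ∃ (c : Fin n → Fin r) (d : Fin n → ℝ), (∀ j, |d j| ≤ ‖T‖) ∧ ‖pavedMatrix T c d‖ ≤ C := by
  obtain ⟨V, hV, hentry⟩ := taskHFA4_exists_isometry hnm
  have hback : V.conjTranspose * (V * T * V.conjTranspose) * V = T := by
    calc V.conjTranspose * (V * T * V.conjTranspose) * V
        = (V.conjTranspose * V) * T * (V.conjTranspose * V) := by
          simp only [Matrix.mul_assoc]
      _ = T := by rw [hV, Matrix.one_mul, Matrix.mul_one]
  have hnorm : ‖V * T * V.conjTranspose‖ = ‖T‖ := by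
    apply le_antisymm (taskHFA4_norm_dilate_le V hV T)
    have h := taskHFA4_norm_compress_le V hV (V * T * V.conjTranspose)
    rw [hback] at h
    exact h
  have hT' : ∀ i j : Fin n,
      (V * T * V.conjTranspose) (Fin.castLE hnm i) (Fin.castLE hnm j) = T i j := by
    intro i j
    have h := hentry (V * T * V.conjTranspose) i j
    rw [hback] at h
    exact h.symm
  refine ⟨V * T * V.conjTranspose, Matrix.isHermitian_mul_mul_conjTranspose V hT, hnorm, ?_⟩
  rintro r C ⟨c, d, hd, hC⟩
  refine ⟨fun i => c (Fin.castLE hnm i), fun i => d (Fin.castLE hnm i), ?_, ?_⟩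
  · intro j
    rw [← hnorm]
    exact hd (Fin.castLE hnm j)
  · have hcomp : pavedMatrix T (fun i => c (Fin.castLE hnm i)) (fun i => d (Fin.castLE hnm i))
        = V.conjTranspose * pavedMatrix (V * T * V.conjTranspose) c d * V := by
      ext i j
      rw [hentry]
      unfold pavedMatrix
      rw [Matrix.of_apply, Matrix.of_apply, hT']
      by_cases hij : i = j
      · rw [if_pos hij, if_pos (congrArg (Fin.castLE hnm) hij)]
      · rw [if_neg hij, if_neg (fun h' => hij (Fin.castLE_injective hnm h'))]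
    rw [hcomp]
    exact le_trans (taskHFA4_norm_compress_le V hV _) hC

end Vale.Agent.Lib.P078
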