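import Vale.Agent.Lib.P078.PauliDefs
import Vale.Agent.Lib.P078.Approx
import Vale.Agent.Lib.P078.Factor
import Vale.Agent.Lib.P078.Summary
import Vale.Agent.Lib.P078.AFDDefs
import Vale.Agent.Lib.P078.HF.A3c
import Vale.Agent.Lib.P078.HF.A4

namespace Vale.Agent.Lib.P078

open scoped InnerProductSpace Matrix.Norms.L2Operator
open ContinuousLinearMap Filter Topology

variable {H : Type*} [NormedAddCommGroup H] [InnerProductSpace ℂ H] [CompleteSpace H]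

/-! ### A5 : comparison of the paving numbers -/

lemma taskHFA5_sum_mem (M : VonNeumannAlgebra H) {m : ℕ} (e : Fin m → Fin m → H →L[ℂ] H)
    (heM : ∀ i j, e i j ∈ M) (T : Matrix (Fin m) (Fin m) ℂ) :
    (∑ i, ∑ j, T i j • e i j) ∈ M :=
  sum_mem (fun i _ => sum_mem (fun j _ => M.toStarSubalgebra.smul_mem (heM i j) _))

lemma taskHFA5_sum_selfAdjoint {m : ℕ} (e : Fin m → Fin m → H →L[ℂ] H)
    (hstar : ∀ i j, star (e i j) = e j i) (T : Matrix (Fin m) (Fin m) ℂ) (hT : T.IsHermitian) :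
    IsSelfAdjoint (∑ i, ∑ j, T i j • e i j) := by
  unfold IsSelfAdjoint
  simp only [star_sum, star_smul, hstar]
  rw [Finset.sum_comm]
  refine Finset.sum_congr rfl (fun i _ => Finset.sum_congr rfl (fun j _ => ?_))
  rw [hT.apply i j]

theorem matrixPavable_of_soPavable_matrix_units (A M : VonNeumannAlgebra H) (hA : IsMASA A M)
    {Ω : H} (hΩ : IsTraceVector M Ω)
    (hunits : ∀ m₀ : ℕ, ∃ m, m₀ ≤ m ∧ ∃ e : Fin m → Fin m → (H →L[ℂ] H),
      IsMatrixUnitsOver A M e ∧ ∀ i j, ∀ a ∈ A, e i j * a * e j i ∈ A)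
    {ε : ℝ} (hε : 0 < ε) {r : ℕ}
    (h : ∀ x ∈ M, IsSelfAdjoint x → SoPavable A M x ε r) : MatrixPavable ε r := by
  intro n T hT
  obtain ⟨m, hnm, e, he, hnorm⟩ := hunits n
  obtain ⟨T', hT', hnT', htr⟩ := exists_padded_matrix hnm T hT
  have hxM : (∑ i, ∑ j, T' i j • e i j) ∈ M := taskHFA5_sum_mem M e he.1 T'
  have hxsa : IsSelfAdjoint (∑ i, ∑ j, T' i j • e i j) :=
    taskHFA5_sum_selfAdjoint e he.2.2.1 T' hT'
  have key : ∀ η : ℝ, 0 < η → ∃ (c : Fin m → Fin r) (d : Fin m → ℝ),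
      (∀ j, |d j| ≤ ‖T'‖) ∧ ‖pavedMatrix T' c d‖ ≤ ε * ‖T'‖ + η :=
    fun η hη => paved_of_soPavable_matrix_units A M hA.2.1 hA.1 hΩ e he hnorm T' hT' hε.le
      (h _ hxM hxsa) hη
  have hex := htr r (ε * ‖T'‖) (exists_paved_of_slack T' (ε * ‖T'‖) key)
  rw [hnT'] at hex
  exact hex

theorem matrixPavingNumber_le_soPavingNumber (A M : VonNeumannAlgebra H) (hA : IsMASA A M)
    {Ω : H} (hΩ : IsTraceVector M Ω)
    (hunits : ∀ m₀ : ℕ, ∃ m, m₀ ≤ m ∧ ∃ e : Fin m → Fin m → (H →L[ℂ] H),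
      IsMatrixUnitsOver A M e ∧ ∀ i j, ∀ a ∈ A, e i j * a * e j i ∈ A)
    {ε : ℝ} (hε : 0 < ε) : matrixPavingNumber ε ≤ soPavingNumber A M ε := by
  unfold soPavingNumber matrixPavingNumber
  refine le_iInf (fun r => le_iInf (fun hr => ?_))
  exact iInf₂_le r ⟨hr.1, matrixPavable_of_soPavable_matrix_units A M hA hΩ hunits hε hr.2⟩

end Vale.Agent.Lib.P078
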