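import Vale.Agent.Lib.P078.PauliDefs
import Vale.Agent.Lib.P078.Approx
import Vale.Agent.Lib.P078.Factor
import Vale.Agent.Lib.P078.Summary
import Vale.Agent.Lib.P078.AFDDefs

namespace Vale.Agent.Lib.P078

open scoped InnerProductSpace Matrix.Norms.L2Operator
open ContinuousLinearMap Filter Topology

variable {H : Type*} [NormedAddCommGroup H] [InnerProductSpace ℂ H] [CompleteSpace H]

/-! ### A6 : normalizing matrix units generate a type I algebra -/

/-- Left multiplication of the conjugation sum `∑ i, e i o * a * e o i` by a matrix unit. -/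
lemma taskHFA6_key_left {R : Type*} [Ring R] {m : ℕ} (e : Fin m → Fin m → R)
    (hemul : ∀ i j k l, e i j * e k l = if j = k then e i l else 0) (o k l : Fin m) (a : R) :
    e k l * ∑ i, e i o * a * e o i = e k o * a * e o l := by
  rw [Finset.mul_sum, Finset.sum_eq_single l]
  · rw [← mul_assoc, ← mul_assoc, hemul k l l o, if_pos rfl]
  · intro i _ hi
    rw [← mul_assoc, ← mul_assoc, hemul k l i o, if_neg (fun h => hi h.symm), zero_mul, zero_mul]
  · intro hl
    exact absurd (Finset.mem_univ l) hl

/-- Right multiplication of the conjugation sum `∑ i, e i o * a * e o i` by a matrix unit. -/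
lemma taskHFA6_key_right {R : Type*} [Ring R] {m : ℕ} (e : Fin m → Fin m → R)
    (hemul : ∀ i j k l, e i j * e k l = if j = k then e i l else 0) (o k l : Fin m) (a : R) :
    (∑ i, e i o * a * e o i) * e k l = e k o * a * e o l := by
  rw [Finset.sum_mul, Finset.sum_eq_single k]
  · rw [mul_assoc, hemul o k k l, if_pos rfl]
  · intro i _ hi
    rw [mul_assoc, hemul o i k l, if_neg hi, mul_zero]
  · intro hk
    exact absurd (Finset.mem_univ k) hk

theorem exists_typeOne_of_matrix_units (A M : VonNeumannAlgebra H) (hA : IsMASA A M) {m : ℕ}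
    (e : Fin m → Fin m → H →L[ℂ] H) (he : IsMatrixUnitsOver A M e)
    (hnorm : ∀ i j, ∀ a ∈ A, e i j * a * e j i ∈ A) :
    ∃ N : VonNeumannAlgebra H, A ≤ N ∧ N ≤ M ∧ IsTypeOne N ∧ ∀ i j, e i j ∈ N := by
  obtain ⟨heM, heA, hestar, hemul, hesum⟩ := he
  obtain ⟨hAM, hAcomm, hAmax⟩ := hA
  rcases Nat.eq_zero_or_pos m with hm | hm
  · subst hm
    have h10 : (1 : H →L[ℂ] H) = 0 := by
      rw [← hesum]
      simp
    have hall : ∀ x : H →L[ℂ] H, x = 0 := fun x => by rw [← mul_one x, h10, mul_zero]
    refine ⟨M, hAM, le_refl M, ⟨0, zero_mem M, ?_, ?_, ?_⟩, fun i j => heM i j⟩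
    · exact ⟨by simp [IsIdempotentElem], by simp [IsSelfAdjoint]⟩
    · intro a _ b _
      simp
    · intro z _ _ _ _
      exact hall z
  · obtain ⟨o, ho⟩ : ∃ o : Fin m, o = ⟨0, hm⟩ := ⟨_, rfl⟩
    obtain ⟨ζ, hζ⟩ : ∃ ζ : (H →L[ℂ] H) → (H →L[ℂ] H),
        ζ = fun a => ∑ i, e i o * a * e o i := ⟨_, rfl⟩
    have hζA : ∀ a ∈ A, ζ a ∈ A := by
      intro a ha
      rw [hζ]
      exact sum_mem fun i _ => hnorm i o a ha
    have hζstar : ∀ a, star (ζ a) = ζ (star a) := by
      intro a
      rw [hζ]
      show star (∑ i, e i o * a * e o i) = ∑ i, e i o * star a * e o i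
      rw [star_sum]
      refine Finset.sum_congr rfl fun i _ => ?_
      rw [star_mul, star_mul, hestar, hestar, mul_assoc]
    have hkl : ∀ k l a, e k l * ζ a = e k o * a * e o l := by
      intro k l a
      rw [hζ]
      exact taskHFA6_key_left e hemul o k l a
    have hkr : ∀ k l a, ζ a * e k l = e k o * a * e o l := by
      intro k l a
      rw [hζ]
      exact taskHFA6_key_right e hemul o k l a
    obtain ⟨N, hN⟩ : ∃ N : VonNeumannAlgebra H, N = taskG_centralizer
        ((M.commutant : Set (H →L[ℂ] H)) ∪ {z | ∃ a ∈ A, z = ζ a}) := ⟨_, rfl⟩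
    have hmemN : ∀ y, y ∈ N ↔ y ∈ M ∧ ∀ a ∈ A, ζ a * y = y * ζ a := by
      intro y
      rw [hN, taskG_mem_centralizer]
      constructor
      · intro h
        refine ⟨?_, fun a ha => (h (ζ a) (Or.inr ⟨a, ha, rfl⟩)).1⟩
        rw [← VonNeumannAlgebra.commutant_commutant M, VonNeumannAlgebra.mem_commutant_iff]
        intro g hg
        exact (h g (Or.inl hg)).1
      · rintro ⟨hyM, hy⟩ b (hb | ⟨a, ha, rfl⟩)
        · have hb' : b ∈ M.commutant := hb
          have hbs : star b ∈ M.commutant := star_mem hb'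
          rw [VonNeumannAlgebra.mem_commutant_iff] at hb' hbs
          exact ⟨(hb' y hyM).symm, (hbs y hyM).symm⟩
        · refine ⟨hy a ha, ?_⟩
          rw [hζstar]
          exact hy (star a) (star_mem ha)
    have hNM : N ≤ M := fun y hy => ((hmemN y).mp hy).1
    have hAN : A ≤ N := by
      intro a' ha'
      rw [hmemN]
      exact ⟨hAM ha', fun a ha => hAcomm (ζ a) (hζA a ha) a' ha'⟩
    have heN : ∀ k l, e k l ∈ N := by
      intro k l
      rw [hmemN]
      exact ⟨heM k l, fun a _ => by rw [hkl, hkr]⟩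
    have hff : e o o * e o o = e o o := by rw [hemul o o o o, if_pos rfl]
    have hfA : e o o ∈ A := heA o
    have hfN : e o o ∈ N := heN o o
    -- compressions by `f` lie in `A`
    have hcomp : ∀ x ∈ N, e o o * x * e o o ∈ A := by
      intro x hx
      have hxM : x ∈ M := hNM hx
      have hfxfN : e o o * x * e o o ∈ N := mul_mem (mul_mem hfN hx) hfN
      refine hAmax _ (hNM hfxfN) (fun a ha => ?_)
      have hfa : e o o * a = a * e o o := hAcomm _ hfA a ha
      have h1 : ζ a * e o o = a * e o o := by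
        rw [hkr, hfa, mul_assoc, hff]
      have h2 : e o o * ζ a = e o o * a := by
        rw [hkl, mul_assoc, ← hfa, ← mul_assoc, hff]
      have h3 : ζ a * (e o o * x * e o o) = (e o o * x * e o o) * ζ a :=
        ((hmemN _).mp hfxfN).2 a ha
      calc a * (e o o * x * e o o) = (a * e o o) * x * e o o := by
            simp only [mul_assoc]
        _ = ζ a * (e o o * x * e o o) := by
            rw [← h1]
            simp only [mul_assoc]
        _ = (e o o * x * e o o) * ζ a := h3
        _ = e o o * x * (e o o * ζ a) := by simp only [mul_assoc]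
        _ = e o o * x * e o o * a := by
            rw [h2]
            simp only [mul_assoc]
    refine ⟨N, hAN, hNM, ⟨e o o, hfN, ⟨hff, hestar o o⟩, ?_, ?_⟩, heN⟩
    · intro a ha b hb
      exact hAcomm _ (hcomp a ha) _ (hcomp b hb)
    · intro z _ hzc _ hzf
      rw [VonNeumannAlgebra.mem_commutant_iff] at hzc
      have hzi : ∀ i, z * e i i = 0 := by
        intro i
        have h1 : e i i = e i o * (e o o * e o i) := by
          rw [hemul o o o i, if_pos rfl, hemul i o o i, if_pos rfl]
        have h2 : e i o * z = z * e i o := hzc _ (heN i o)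
        rw [h1, ← mul_assoc, ← h2, mul_assoc, ← mul_assoc z, hzf, zero_mul, mul_zero]
      calc z = z * 1 := (mul_one z).symm
        _ = ∑ i, z * e i i := by rw [← hesum, Finset.mul_sum]
        _ = 0 := Finset.sum_eq_zero fun i _ => hzi i

end Vale.Agent.Lib.P078
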