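import Vale.Agent.Lib.P078.HF.Sum

/-!
# The so-paving number equals the matrix paving number off a countable set (P078)
-/

namespace Vale.Agent.Lib.P078

open scoped InnerProductSpace

variable {H : Type*} [NormedAddCommGroup H] [InnerProductSpace ℂ H] [CompleteSpace H]

/-- If `n ε' ≤ N ε` whenever `0 < ε < ε'`, then `n ε ≤ N ε` for all `ε > 0` outside a countable
set. -/
theorem countable_not_le_of_lt (n N : ℝ → ℕ∞)
    (h : ∀ ε ε' : ℝ, 0 < ε → ε < ε' → n ε' ≤ N ε) :
    {ε : ℝ | 0 < ε ∧ ¬ n ε ≤ N ε}.Countable := by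
  apply Set.countable_of_injective_of_countable_image (f := N) _ (Set.to_countable _)
  intro ε₀ h₀ ε₁ h₁ heq
  by_contra hne
  rcases lt_or_gt_of_ne hne with hlt | hlt
  · exact h₁.2 ((h ε₀ ε₁ h₀.1 hlt).trans heq.le)
  · exact h₀.2 ((h ε₁ ε₀ h₁.1 hlt).trans heq.ge)

/-- Under the sandwich `N ε' ≤ n ε' ≤ N ε` (`0 < ε < ε'`), `n ε = N ε` for all `ε > 0` outside
a countable set. -/
theorem countable_ne_of_sandwich (n N : ℝ → ℕ∞) (h1 : ∀ ε : ℝ, 0 < ε → N ε ≤ n ε)
    (h2 : ∀ ε ε' : ℝ, 0 < ε → ε < ε' → n ε' ≤ N ε) :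
    {ε : ℝ | 0 < ε ∧ n ε ≠ N ε}.Countable := by
  refine (countable_not_le_of_lt n N h2).mono ?_
  rintro ε ⟨hε, hne⟩
  exact ⟨hε, fun hle => hne (le_antisymm hle (h1 ε hε))⟩

/-- For an approximately finite-dimensional inclusion with a separating trace vector, the
so-paving number equals the paving number of finite matrices off a countable set. -/
theorem afd_countable (A M : VonNeumannAlgebra H) (hA : IsMASA A M) {Ω : H}
    (hΩ : IsTraceVector M Ω) (hsep : IsSeparating M Ω) (hafd : IsAFDOver A M Ω) :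
    {ε : ℝ | 0 < ε ∧ soPavingNumber A M ε ≠ matrixPavingNumber ε}.Countable :=
  countable_ne_of_sandwich (fun ε => soPavingNumber A M ε) matrixPavingNumber
    (fun ε hε => matrixPavingNumber_le_soPavingNumber A M hA hΩ
      (exists_units_of_isAFDOver A M Ω hafd) hε)
    (fun _ _ hε hεε' => (afd_sandwich A M hA hΩ hsep hafd hε hεε').2)

/-- For type I algebras the so-paving number is at most the paving number of finite matrices
off a countable set. -/
theorem typeOne_countable (A M : VonNeumannAlgebra H) (hA : IsMASA A M) (hM : IsTypeOne M) :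
    {ε : ℝ | 0 < ε ∧ ¬ soPavingNumber A M ε ≤ matrixPavingNumber ε}.Countable := by
  obtain ⟨f, hf, hfp, hfab, hcs⟩ := hM
  exact countable_not_le_of_lt (fun ε => soPavingNumber A M ε) matrixPavingNumber
    (fun _ _ _ hεε' =>
      soPavingNumber_le_matrixPavingNumber_of_type_one A M hA f hf hfp hfab hcs hεε')

end Vale.Agent.Lib.P078
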