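import Vale.Agent.Lib.P078.PauliDefs
import Vale.Agent.Lib.P078.Approx
import Vale.Agent.Lib.P078.Factor
import Vale.Agent.Lib.P078.Summary
import Vale.Agent.Lib.P078.AFDDefs

namespace Vale.Agent.Lib.P078

open scoped InnerProductSpace Matrix.Norms.L2Operator
open ContinuousLinearMap Filter Topology

variable {H : Type*} [NormedAddCommGroup H] [InnerProductSpace ℂ H] [CompleteSpace H]

/-! ### P0a : the pairing and the cocycle -/

lemma pPair_add_left (k k' h : ℕ →₀ ZMod 2) : pPair (k + k') h = pPair k h + pPair k' h := by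
  unfold pPair
  exact Finsupp.sum_add_index' (fun i => zero_mul _) (fun i a b => add_mul _ _ _)

lemma pPair_add_right (k h h' : ℕ →₀ ZMod 2) : pPair k (h + h') = pPair k h + pPair k h' := by
  unfold pPair
  rw [← Finsupp.sum_add]
  refine Finsupp.sum_congr fun i _ => ?_
  rw [Finsupp.add_apply, mul_add]

lemma pPair_zero_left (h : ℕ →₀ ZMod 2) : pPair 0 h = 0 := by
  unfold pPair
  exact Finsupp.sum_zero_index

lemma pPair_zero_right (k : ℕ →₀ ZMod 2) : pPair k 0 = 0 := by
  unfold pPair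
  rw [Finsupp.sum]
  refine Finset.sum_eq_zero fun i _ => ?_
  rw [Finsupp.zero_apply, mul_zero]

lemma pPair_single_left (i : ℕ) (h : ℕ →₀ ZMod 2) : pPair (Finsupp.single i 1) h = h i := by
  unfold pPair
  rw [Finsupp.sum_single_index (zero_mul _), one_mul]

lemma pPair_single_right (k : ℕ →₀ ZMod 2) (i : ℕ) : pPair k (Finsupp.single i 1) = k i := by
  unfold pPair
  rw [Finsupp.sum]
  by_cases hi : i ∈ k.support
  · rw [Finset.sum_eq_single i]
    · rw [Finsupp.single_eq_same, mul_one]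
    · intro j _ hji
      rw [Finsupp.single_apply, if_neg (Ne.symm hji), mul_zero]
    · intro h
      exact absurd hi h
  · rw [Finset.sum_eq_zero]
    · exact (Finsupp.notMem_support_iff.1 hi).symm
    · intro j hj
      have hji : i ≠ j := fun h => hi (h ▸ hj)
      rw [Finsupp.single_apply, if_neg hji, mul_zero]

lemma taskHFP0a_cases (z : ZMod 2) : z = 0 ∨ z = 1 := by
  revert z
  decide

lemma taskHFP0a_one_ne : (1 : ZMod 2) ≠ 0 := by decide

lemma taskHFP0a_two : (1 : ZMod 2) + 1 = 0 := by decide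

lemma pSgn_add_left (k k' h : ℕ →₀ ZMod 2) : pSgn (k + k') h = pSgn k h * pSgn k' h := by
  unfold pSgn
  rw [pPair_add_left]
  rcases taskHFP0a_cases (pPair k h) with h1 | h1 <;>
    rcases taskHFP0a_cases (pPair k' h) with h2 | h2 <;> rw [h1, h2]
  · rw [add_zero, if_pos rfl, one_mul]
  · rw [zero_add, if_pos rfl, one_mul]
  · rw [add_zero, if_pos rfl, mul_one]
  · rw [taskHFP0a_two, if_pos rfl, if_neg taskHFP0a_one_ne]
    norm_num

lemma pSgn_add_right (k h h' : ℕ →₀ ZMod 2) : pSgn k (h + h') = pSgn k h * pSgn k h' := by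
  unfold pSgn
  rw [pPair_add_right]
  rcases taskHFP0a_cases (pPair k h) with h1 | h1 <;>
    rcases taskHFP0a_cases (pPair k h') with h2 | h2 <;> rw [h1, h2]
  · rw [add_zero, if_pos rfl, one_mul]
  · rw [zero_add, if_pos rfl, one_mul]
  · rw [add_zero, if_pos rfl, mul_one]
  · rw [taskHFP0a_two, if_pos rfl, if_neg taskHFP0a_one_ne]
    norm_num

lemma pSgn_zero_left (h : ℕ →₀ ZMod 2) : pSgn 0 h = 1 := by
  unfold pSgn
  rw [pPair_zero_left, if_pos rfl]

lemma pSgn_zero_right (k : ℕ →₀ ZMod 2) : pSgn k 0 = 1 := by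
  unfold pSgn
  rw [pPair_zero_right, if_pos rfl]

lemma pSgn_mul_self (k h : ℕ →₀ ZMod 2) : pSgn k h * pSgn k h = 1 := by
  unfold pSgn
  split_ifs <;> norm_num

lemma pSgn_conj (k h : ℕ →₀ ZMod 2) : (starRingEnd ℂ) (pSgn k h) = pSgn k h := by
  unfold pSgn
  split_ifs <;> simp

lemma pSgn_single_left (i : ℕ) (h : ℕ →₀ ZMod 2) :
    pSgn (Finsupp.single i 1) h = if h i = 0 then 1 else -1 := by
  unfold pSgn
  rw [pPair_single_left]

lemma pSgn_single_right (k : ℕ →₀ ZMod 2) (i : ℕ) :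
    pSgn k (Finsupp.single i 1) = if k i = 0 then 1 else -1 := by
  unfold pSgn
  rw [pPair_single_right]

lemma pSgn_eq_one_of_disjoint (k h : ℕ →₀ ZMod 2) (hd : ∀ i, k i = 0 ∨ h i = 0) :
    pSgn k h = 1 := by
  have h0 : pPair k h = 0 := by
    unfold pPair
    rw [Finsupp.sum]
    refine Finset.sum_eq_zero fun i _ => ?_
    rcases hd i with h1 | h1
    · rw [h1, zero_mul]
    · rw [h1, mul_zero]
  unfold pSgn
  rw [h0, if_pos rfl]

lemma pIdx_add_self (g : PIdx) : g + g = 0 := by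
  refine Prod.ext ?_ ?_
  · refine Finsupp.ext fun i => ?_
    rw [Prod.fst_add, Finsupp.add_apply, CharTwo.add_self_eq_zero]
    rfl
  · refine Finsupp.ext fun i => ?_
    rw [Prod.snd_add, Finsupp.add_apply, CharTwo.add_self_eq_zero]
    rfl

lemma pCoc_add_left (a b c : PIdx) : pCoc (a + b) c = pCoc a c * pCoc b c := by
  unfold pCoc
  rw [Prod.snd_add, pSgn_add_left]

lemma pCoc_add_right (a b c : PIdx) : pCoc a (b + c) = pCoc a b * pCoc a c := by
  unfold pCoc
  rw [Prod.fst_add, pSgn_add_right]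

lemma pCoc_zero_left (c : PIdx) : pCoc 0 c = 1 := by
  unfold pCoc
  rw [Prod.snd_zero, pSgn_zero_left]

lemma pCoc_zero_right (a : PIdx) : pCoc a 0 = 1 := by
  unfold pCoc
  rw [Prod.fst_zero, pSgn_zero_right]

lemma pCoc_mul_self (a b : PIdx) : pCoc a b * pCoc a b = 1 := pSgn_mul_self _ _

lemma pCoc_conj (a b : PIdx) : (starRingEnd ℂ) (pCoc a b) = pCoc a b := pSgn_conj _ _

lemma exists_pCoc_ne (b : PIdx) (hb : b ≠ 0) : ∃ g : PIdx, pCoc g b ≠ pCoc b g := by
  by_cases h1 : b.1 = 0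
  · have h2 : b.2 ≠ 0 := fun h2 => hb (Prod.ext h1 h2)
    obtain ⟨i, hi⟩ := DFunLike.ne_iff.1 h2
    have hi1 : b.2 i = 1 := by
      rcases taskHFP0a_cases (b.2 i) with h | h
      · exact absurd h hi
      · exact h
    refine ⟨(Finsupp.single i 1, 0), ?_⟩
    show pSgn 0 b.1 ≠ pSgn b.2 (Finsupp.single i 1)
    rw [pSgn_zero_left, pSgn_single_right, hi1, if_neg taskHFP0a_one_ne]
    norm_num
  · obtain ⟨i, hi⟩ := DFunLike.ne_iff.1 h1
    have hi1 : b.1 i = 1 := by
      rcases taskHFP0a_cases (b.1 i) with h | h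
      · exact absurd h hi
      · exact h
    refine ⟨(0, Finsupp.single i 1), ?_⟩
    show pSgn (Finsupp.single i 1) b.1 ≠ pSgn b.2 0
    rw [pSgn_single_left, pSgn_zero_right, hi1, if_neg taskHFP0a_one_ne]
    norm_num

end Vale.Agent.Lib.P078
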