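import Vale.Agent.Lib.P078.PauliDefs
import Vale.Agent.Lib.P078.Approx
import Vale.Agent.Lib.P078.Factor
import Vale.Agent.Lib.P078.Summary
import Vale.Agent.Lib.P078.AFDDefs
import Vale.Agent.Lib.P078.HF.P0a

namespace Vale.Agent.Lib.P078

open scoped InnerProductSpace Matrix.Norms.L2Operator
open ContinuousLinearMap Filter Topology

variable {H : Type*} [NormedAddCommGroup H] [InnerProductSpace ℂ H] [CompleteSpace H]

/-! ### P0b : the operators `λ(g)`, `ρ(g)` -/

lemma pDelta_apply (g x : PIdx) : (pDelta g : PIdx → ℂ) x = if x = g then 1 else 0 := by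
  unfold pDelta
  rw [lp.single_apply, Pi.single_apply]

lemma pOmega_norm : ‖pOmega‖ = 1 := by
  unfold pOmega pDelta
  rw [lp.norm_single (by norm_num)]
  exact norm_one

lemma inner_pDelta (a : PIdx) (v : PHilb) : ⟪pDelta a, v⟫_ℂ = (v : PIdx → ℂ) a := by
  unfold pDelta
  rw [lp.inner_single_left]
  simp

lemma taskHFP0b_shift (g a x : PIdx) : x + g = a ↔ x = a + g := by
  constructor
  · intro h
    rw [← h, add_assoc, pIdx_add_self, add_zero]
  · intro h
    rw [h, add_assoc, pIdx_add_self, add_zero]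

lemma pLam_delta (g a : PIdx) : pLam g (pDelta a) = pCoc g a • pDelta (a + g) := by
  apply lp.ext
  funext x
  rw [pLam_apply, lp.coeFn_smul, Pi.smul_apply, pDelta_apply, pDelta_apply, smul_eq_mul]
  by_cases hx : x = a + g
  · have hx' : x + g = a := (taskHFP0b_shift g a x).2 hx
    rw [if_pos hx, if_pos hx', hx']
  · have hx' : ¬ (x + g = a) := fun h => hx ((taskHFP0b_shift g a x).1 h)
    rw [if_neg hx, if_neg hx', mul_zero, mul_zero]

lemma pRho_delta (g a : PIdx) : pRho g (pDelta a) = pCoc a g • pDelta (a + g) := by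
  apply lp.ext
  funext x
  rw [pRho_apply, lp.coeFn_smul, Pi.smul_apply, pDelta_apply, pDelta_apply, smul_eq_mul]
  by_cases hx : x = a + g
  · have hx' : x + g = a := (taskHFP0b_shift g a x).2 hx
    rw [if_pos hx, if_pos hx', hx']
  · have hx' : ¬ (x + g = a) := fun h => hx ((taskHFP0b_shift g a x).1 h)
    rw [if_neg hx, if_neg hx', mul_zero, mul_zero]

lemma taskHFP0b_single (g : PIdx) (c : ℂ) : lp.single 2 g c = c • pDelta g := by
  unfold pDelta
  rw [← lp.single_smul, smul_eq_mul, mul_one]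

lemma pOp_ext (x y : PHilb →L[ℂ] PHilb) (h : ∀ g, x (pDelta g) = y (pDelta g)) : x = y := by
  apply ContinuousLinearMap.ext
  intro v
  have hv : HasSum (fun g : PIdx => lp.single 2 g ((v : PIdx → ℂ) g)) v :=
    lp.hasSum_single (by norm_num) v
  have hx := x.hasSum hv
  have hy := y.hasSum hv
  have hxy : (fun g : PIdx => x (lp.single 2 g ((v : PIdx → ℂ) g)))
      = fun g : PIdx => y (lp.single 2 g ((v : PIdx → ℂ) g)) := by
    funext g
    rw [taskHFP0b_single, map_smul, map_smul, h g]
  rw [hxy] at hx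
  exact hx.unique hy

lemma pLam_zero : pLam 0 = 1 := by
  apply pOp_ext
  intro a
  rw [pLam_delta, pCoc_zero_left, one_smul, add_zero, one_apply_eq_self]

lemma pRho_zero : pRho 0 = 1 := by
  apply pOp_ext
  intro a
  rw [pRho_delta, pCoc_zero_right, one_smul, add_zero, one_apply_eq_self]

end Vale.Agent.Lib.P078
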