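import Vale.Agent.Lib.P078.PauliDefs
import Vale.Agent.Lib.P078.Approx
import Vale.Agent.Lib.P078.Factor
import Vale.Agent.Lib.P078.Summary
import Vale.Agent.Lib.P078.AFDDefs
import Vale.Agent.Lib.P078.HF.P0b

namespace Vale.Agent.Lib.P078

open scoped InnerProductSpace Matrix.Norms.L2Operator
open ContinuousLinearMap Filter Topology

variable {H : Type*} [NormedAddCommGroup H] [InnerProductSpace ℂ H] [CompleteSpace H]

/-! ### P0c : products, adjoints and the algebras -/

lemma pLam_mul (a b : PIdx) : pLam a * pLam b = pCoc a b • pLam (a + b) := by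
  apply pOp_ext
  intro c
  rw [mul_apply_eq_comp, pLam_delta, (pLam a).map_smul, pLam_delta,
    _root_.smul_apply, pLam_delta, smul_smul, smul_smul, pCoc_add_right a c b,
    pCoc_add_left a b c]
  have e : c + b + a = c + (a + b) := by abel
  rw [e]
  congr 1
  ring

lemma pRho_mul (a b : PIdx) : pRho a * pRho b = pCoc b a • pRho (a + b) := by
  apply pOp_ext
  intro c
  rw [mul_apply_eq_comp, pRho_delta, (pRho a).map_smul, pRho_delta,
    _root_.smul_apply, pRho_delta, smul_smul, smul_smul, pCoc_add_left c b a,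
    pCoc_add_right c a b]
  have e : c + b + a = c + (a + b) := by abel
  rw [e]
  congr 1
  ring

lemma pLam_comm_pRho (a b : PIdx) : pLam a * pRho b = pRho b * pLam a := by
  apply pOp_ext
  intro c
  rw [mul_apply_eq_comp, mul_apply_eq_comp, pRho_delta, pLam_delta,
    (pLam a).map_smul, (pRho b).map_smul, pLam_delta, pRho_delta, smul_smul, smul_smul,
    pCoc_add_right a c b, pCoc_add_left c a b]
  have e : c + b + a = c + a + b := by abel
  rw [e]
  congr 1
  ring

/-- the operators `λ(g)` are isometric -/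
lemma taskHFP0c_lam_norm (g : PIdx) (v : PHilb) : ‖pLam g v‖ = ‖v‖ :=
  pWlin_norm (fun x => pCoc g (x + g)) (fun _ => pCoc_norm _ _) g v

/-- the operators `ρ(g)` are isometric -/
lemma taskHFP0c_rho_norm (g : PIdx) (v : PHilb) : ‖pRho g v‖ = ‖v‖ :=
  pWlin_norm (fun x => pCoc (x + g) g) (fun _ => pCoc_norm _ _) g v

/-- an isometric operator whose square is a sign times the identity has that sign times itself
as adjoint -/
lemma taskHFP0c_star (u : PHilb →L[ℂ] PHilb) (s : ℂ) (hs : s * s = 1)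
    (hiso : ∀ v : PHilb, ‖u v‖ = ‖v‖) (hsq : u * u = s • (1 : PHilb →L[ℂ] PHilb)) :
    star u = s • u := by
  have h1 : star u * u = 1 := by
    rw [ContinuousLinearMap.star_eq_adjoint]
    exact (ContinuousLinearMap.norm_map_iff_adjoint_comp_self u).1 hiso
  calc star u = star u * ((s * s) • (1 : PHilb →L[ℂ] PHilb)) := by
        rw [hs, one_smul, mul_one]
    _ = s • (star u * (s • (1 : PHilb →L[ℂ] PHilb))) := by rw [mul_smul, mul_smul_comm]
    _ = s • (star u * (u * u)) := by rw [hsq]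
    _ = s • ((star u * u) * u) := by rw [mul_assoc]
    _ = s • u := by rw [h1, one_mul]

lemma pLam_star (g : PIdx) : star (pLam g) = pCoc g g • pLam g := by
  apply taskHFP0c_star (pLam g) (pCoc g g) (pCoc_mul_self g g) (taskHFP0c_lam_norm g)
  rw [pLam_mul, pIdx_add_self, pLam_zero]

lemma pRho_star (g : PIdx) : star (pRho g) = pCoc g g • pRho g := by
  apply taskHFP0c_star (pRho g) (pCoc g g) (pCoc_mul_self g g) (taskHFP0c_rho_norm g)
  rw [pRho_mul, pIdx_add_self, pRho_zero]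

lemma mem_pM_iff (x : PHilb →L[ℂ] PHilb) : x ∈ pM ↔ ∀ g, pRho g * x = x * pRho g := by
  unfold pM
  rw [taskG_mem_centralizer]
  constructor
  · intro h g
    exact (h (pRho g) (Set.mem_range_self g)).1
  · intro h b hb
    obtain ⟨g, rfl⟩ := hb
    refine ⟨h g, ?_⟩
    rw [pRho_star, smul_mul_assoc, mul_smul_comm, h g]

lemma mem_pA_iff (x : PHilb →L[ℂ] PHilb) :
    x ∈ pA ↔ x ∈ pM ∧ ∀ h : ℕ →₀ ZMod 2, pLam (h, 0) * x = x * pLam (h, 0) := by
  rw [mem_pM_iff]
  unfold pA
  rw [taskG_mem_centralizer]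
  constructor
  · intro h
    exact ⟨fun g => (h (pRho g) (Or.inl (Set.mem_range_self g))).1,
      fun k => (h (pLam (k, 0)) (Or.inr ⟨k, rfl⟩)).1⟩
  · rintro ⟨h1, h2⟩ b hb
    rcases hb with ⟨g, rfl⟩ | ⟨k, rfl⟩
    · refine ⟨h1 g, ?_⟩
      rw [pRho_star, smul_mul_assoc, mul_smul_comm, h1 g]
    · show pLam (k, 0) * x = x * pLam (k, 0) ∧ star (pLam (k, 0)) * x = x * star (pLam (k, 0))
      refine ⟨h2 k, ?_⟩
      rw [pLam_star, smul_mul_assoc, mul_smul_comm, h2 k]

lemma mem_pN_iff (n : ℕ) (x : PHilb →L[ℂ] PHilb) :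
    x ∈ pN n ↔ x ∈ pM ∧ ∀ h : ℕ →₀ ZMod 2, (∀ i < n, h i = 0) →
      pLam (h, 0) * x = x * pLam (h, 0) := by
  rw [mem_pM_iff]
  unfold pN
  rw [taskG_mem_centralizer]
  constructor
  · intro h
    exact ⟨fun g => (h (pRho g) (Or.inl (Set.mem_range_self g))).1,
      fun k hk => (h (pLam (k, 0)) (Or.inr ⟨k, hk, rfl⟩)).1⟩
  · rintro ⟨h1, h2⟩ b hb
    rcases hb with ⟨g, rfl⟩ | ⟨k, hk, rfl⟩
    · refine ⟨h1 g, ?_⟩
      rw [pRho_star, smul_mul_assoc, mul_smul_comm, h1 g]
    · show pLam (k, 0) * x = x * pLam (k, 0) ∧ star (pLam (k, 0)) * x = x * star (pLam (k, 0))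
      refine ⟨h2 k hk, ?_⟩
      rw [pLam_star, smul_mul_assoc, mul_smul_comm, h2 k hk]

lemma pLam_mem_pM (g : PIdx) : pLam g ∈ pM := by
  rw [mem_pM_iff]
  intro g'
  exact (pLam_comm_pRho g g').symm

end Vale.Agent.Lib.P078
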