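import Vale.Agent.Lib.P078.PauliDefs
import Vale.Agent.Lib.P078.Approx
import Vale.Agent.Lib.P078.Factor
import Vale.Agent.Lib.P078.Summary
import Vale.Agent.Lib.P078.AFDDefs
import Vale.Agent.Lib.P078.HF.P0c

namespace Vale.Agent.Lib.P078

open scoped InnerProductSpace Matrix.Norms.L2Operator
open ContinuousLinearMap Filter Topology

variable {H : Type*} [NormedAddCommGroup H] [InnerProductSpace ℂ H] [CompleteSpace H]

/-! ### P1 : coefficients of elements of `pM` -/

lemma pM_apply_delta {x : PHilb →L[ℂ] PHilb} (hx : x ∈ pM) (g : PIdx) :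
    x (pDelta g) = pRho g (x pOmega) := by
  have h1 : pDelta g = pRho g pOmega := by
    have h : pRho g (pDelta 0) = pCoc 0 g • pDelta (0 + g) := pRho_delta g 0
    rw [pCoc_zero_left, one_smul, zero_add] at h
    exact h.symm
  have h2 := (mem_pM_iff x).1 hx g
  have h3 : pRho g (x pOmega) = x (pRho g pOmega) :=
    congrArg (fun T : PHilb →L[ℂ] PHilb => T pOmega) h2
  rw [h1]
  exact h3.symm

lemma pM_coeff {x : PHilb →L[ℂ] PHilb} (hx : x ∈ pM) (g a : PIdx) :
    (x (pDelta g) : PIdx → ℂ) a = pCoc (a + g) g * (x pOmega : PIdx → ℂ) (a + g) := by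
  rw [pM_apply_delta hx g, pRho_apply]

theorem pM_separating : IsSeparating pM pOmega := by
  intro x hx h0
  apply pOp_ext
  intro g
  rw [pM_apply_delta hx g, h0, map_zero]
  rfl

lemma taskHFP1_single (v : PHilb) (g : PIdx) :
    lp.single 2 g ((v : PIdx → ℂ) g) = (v : PIdx → ℂ) g • pDelta g := by
  unfold pDelta
  rw [← lp.single_smul, smul_eq_mul, mul_one]

lemma pM_hasSum_apply {x : PHilb →L[ℂ] PHilb} (hx : x ∈ pM) (v : PHilb) (a : PIdx) :
    HasSum (fun g : PIdx => pCoc (a + g) g * (x pOmega : PIdx → ℂ) (a + g) * (v : PIdx → ℂ) g)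
      ((x v : PIdx → ℂ) a) := by
  have h1 : HasSum (fun g : PIdx => lp.single 2 g ((v : PIdx → ℂ) g)) v :=
    lp.hasSum_single (by norm_num) v
  have h2 := h1.mapL ((innerSL ℂ (pDelta a)).comp x)
  have h3 : ((innerSL ℂ (pDelta a)).comp x) v = (x v : PIdx → ℂ) a := inner_pDelta a (x v)
  have h4 : (fun g : PIdx => ((innerSL ℂ (pDelta a)).comp x) (lp.single 2 g ((v : PIdx → ℂ) g)))
      = fun g : PIdx => pCoc (a + g) g * (x pOmega : PIdx → ℂ) (a + g) * (v : PIdx → ℂ) g := by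
    funext g
    show ⟪pDelta a, x (lp.single 2 g ((v : PIdx → ℂ) g))⟫_ℂ = _
    rw [taskHFP1_single, map_smul, inner_smul_right, inner_pDelta, pM_coeff hx]
    ring
  rw [h3] at h2
  rw [← h4]
  exact h2

lemma pM_star_omega {x : PHilb →L[ℂ] PHilb} (hx : x ∈ pM) (g : PIdx) :
    (star x pOmega : PIdx → ℂ) g = pCoc g g * (starRingEnd ℂ) ((x pOmega : PIdx → ℂ) g) := by
  have h1 : ⟪pOmega, x (pDelta g)⟫_ℂ = (x (pDelta g) : PIdx → ℂ) 0 :=
    inner_pDelta 0 (x (pDelta g))
  rw [← inner_pDelta g (star x pOmega), ContinuousLinearMap.star_eq_adjoint,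
    ContinuousLinearMap.adjoint_inner_right, ← inner_conj_symm (x (pDelta g)) pOmega, h1,
    pM_coeff hx, zero_add, map_mul, pCoc_conj]

end Vale.Agent.Lib.P078
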