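import Vale.Agent.Lib.P078.PauliDefs
import Vale.Agent.Lib.P078.Approx
import Vale.Agent.Lib.P078.Factor
import Vale.Agent.Lib.P078.Summary
import Vale.Agent.Lib.P078.AFDDefs
import Vale.Agent.Lib.P078.HF.P1

namespace Vale.Agent.Lib.P078

open scoped InnerProductSpace Matrix.Norms.L2Operator
open ContinuousLinearMap Filter Topology

variable {H : Type*} [NormedAddCommGroup H] [InnerProductSpace ℂ H] [CompleteSpace H]

/-! ### P2 : the trace vector -/

theorem pM_trace : IsTraceVector pM pOmega := by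
  refine ⟨pOmega_norm, fun x hx y hy => ?_⟩
  have h1 : ⟪pOmega, x (y pOmega)⟫_ℂ = (x (y pOmega) : PIdx → ℂ) 0 := inner_pDelta 0 _
  have h2 : ⟪pOmega, y (x pOmega)⟫_ℂ = (y (x pOmega) : PIdx → ℂ) 0 := inner_pDelta 0 _
  rw [h1, h2]
  have hs1 := pM_hasSum_apply hx (y pOmega) 0
  have hs2 := pM_hasSum_apply hy (x pOmega) 0
  have hfun : (fun g : PIdx => pCoc (0 + g) g * (x pOmega : PIdx → ℂ) (0 + g) *
        (y pOmega : PIdx → ℂ) g) =
      (fun g : PIdx => pCoc (0 + g) g * (y pOmega : PIdx → ℂ) (0 + g) *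
        (x pOmega : PIdx → ℂ) g) := by
    funext g
    rw [zero_add]
    ring
  rw [hfun] at hs1
  exact hs1.unique hs2

end Vale.Agent.Lib.P078
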