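import Vale.Agent.Lib.P078.PauliDefs
import Vale.Agent.Lib.P078.Approx
import Vale.Agent.Lib.P078.Factor
import Vale.Agent.Lib.P078.Summary
import Vale.Agent.Lib.P078.AFDDefs
import Vale.Agent.Lib.P078.HF.P1

namespace Vale.Agent.Lib.P078

open scoped InnerProductSpace Matrix.Norms.L2Operator
open ContinuousLinearMap Filter Topology

variable {H : Type*} [NormedAddCommGroup H] [InnerProductSpace ℂ H] [CompleteSpace H]

/-! ### P3 : `pM` is a factor -/

theorem pM_factor : IsFactor pM := by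
  intro z hz hcomm
  obtain ⟨ζ, hζ⟩ : ∃ ζ : PHilb, ζ = z pOmega := ⟨_, rfl⟩
  have h1 : ∀ g : PIdx, z (pDelta g) = pLam g ζ := by
    intro g
    have h := hcomm (pLam g) (pLam_mem_pM g)
    have h2' : (z * pLam g) pOmega = (pLam g * z) pOmega := by rw [h]
    have h2 : z (pLam g pOmega) = pLam g (z pOmega) := h2'
    have h3 : pLam g pOmega = pDelta g := by
      unfold pOmega
      rw [pLam_delta, pCoc_zero_right, one_smul, zero_add]
    rw [h3] at h2
    rw [h2, hζ]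
  have h2 : ∀ g : PIdx, z (pDelta g) = pRho g ζ := by
    intro g
    rw [pM_apply_delta hz g, hζ]
  have h3 : ∀ b : PIdx, b ≠ 0 → (ζ : PIdx → ℂ) b = 0 := by
    intro b hb
    obtain ⟨g, hg⟩ := exists_pCoc_ne b hb
    have h4 : pLam g ζ = pRho g ζ := by rw [← h1 g, h2 g]
    have h5 : (pLam g ζ : PIdx → ℂ) (b + g) = (pRho g ζ : PIdx → ℂ) (b + g) := by rw [h4]
    rw [pLam_apply, pRho_apply] at h5
    have h6 : b + g + g = b := by rw [add_assoc, pIdx_add_self, add_zero]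
    rw [h6] at h5
    have h7 : (pCoc g b - pCoc b g) * (ζ : PIdx → ℂ) b = 0 := by rw [sub_mul, h5, sub_self]
    rcases mul_eq_zero.1 h7 with h8 | h8
    · exact absurd (sub_eq_zero.1 h8) hg
    · exact h8
  have h4 : ζ = (ζ : PIdx → ℂ) 0 • pOmega := by
    apply lp.ext
    funext b
    rw [lp.coeFn_smul, Pi.smul_apply, smul_eq_mul]
    unfold pOmega
    rw [pDelta_apply]
    by_cases hb : b = 0
    · rw [if_pos hb, mul_one, hb]
    · rw [if_neg hb, mul_zero]
      exact h3 b hb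
  refine ⟨(ζ : PIdx → ℂ) 0, ?_⟩
  have h5 : z - (ζ : PIdx → ℂ) 0 • (1 : PHilb →L[ℂ] PHilb) ∈ pM :=
    sub_mem hz (pM.toStarSubalgebra.smul_mem pM.one_mem _)
  have h6 : (z - (ζ : PIdx → ℂ) 0 • (1 : PHilb →L[ℂ] PHilb)) pOmega = 0 := by
    show z pOmega - (ζ : PIdx → ℂ) 0 • pOmega = 0
    rw [← hζ]
    exact sub_eq_zero.2 h4
  exact sub_eq_zero.1 (pM_separating _ h5 h6)

end Vale.Agent.Lib.P078
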