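import Vale.Agent.Lib.P078.PauliDefs
import Vale.Agent.Lib.P078.Approx
import Vale.Agent.Lib.P078.Factor
import Vale.Agent.Lib.P078.Summary
import Vale.Agent.Lib.P078.AFDDefs
import Vale.Agent.Lib.P078.HF.P1

namespace Vale.Agent.Lib.P078

open scoped InnerProductSpace Matrix.Norms.L2Operator
open ContinuousLinearMap Filter Topology

variable {H : Type*} [NormedAddCommGroup H] [InnerProductSpace ℂ H] [CompleteSpace H]

/-! ### P4 : `pA` is a MASA of `pM` -/

lemma pLam_h_mem_pA (h : ℕ →₀ ZMod 2) : pLam (h, 0) ∈ pA := by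
  rw [mem_pA_iff]
  refine ⟨pLam_mem_pM _, fun h' => ?_⟩
  rw [pLam_mul, pLam_mul]
  have e1 : pCoc ((h', 0) : PIdx) (h, 0) = 1 := pSgn_zero_left h
  have e2 : pCoc ((h, 0) : PIdx) (h', 0) = 1 := pSgn_zero_left h'
  rw [e1, e2, add_comm]

lemma pA_omega_support {x : PHilb →L[ℂ] PHilb} (hx : x ∈ pA) (g : PIdx) (hg : g.2 ≠ 0) :
    (x pOmega : PIdx → ℂ) g = 0 := by
  rw [mem_pA_iff] at hx
  obtain ⟨i, hi⟩ := DFunLike.ne_iff.mp hg
  have hi' : g.2 i ≠ 0 := hi
  have key : pLam ((Finsupp.single i 1, 0) : PIdx) (x pOmega)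
      = pRho ((Finsupp.single i 1, 0) : PIdx) (x pOmega) := by
    have h1 := congrArg (fun T : PHilb →L[ℂ] PHilb => T pOmega) (hx.2 (Finsupp.single i 1))
    simp only [mul_apply_eq_comp] at h1
    rw [h1]
    have h2 : pLam ((Finsupp.single i 1, 0) : PIdx) pOmega
        = pDelta ((Finsupp.single i 1, 0) : PIdx) := by
      unfold pOmega
      rw [pLam_delta, pCoc_zero_right, one_smul, zero_add]
    rw [h2, pM_apply_delta hx.1]
  have h3 := congrArg
    (fun v : PHilb => (v : PIdx → ℂ) (g + ((Finsupp.single i 1, 0) : PIdx))) key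
  simp only [pLam_apply, pRho_apply] at h3
  rw [add_assoc, pIdx_add_self, add_zero] at h3
  have e1 : pCoc ((Finsupp.single i 1, 0) : PIdx) g = 1 := pSgn_zero_left g.1
  have e2 : pCoc g ((Finsupp.single i 1, 0) : PIdx) = -1 := by
    show pSgn g.2 (Finsupp.single i 1) = -1
    rw [pSgn_single_right, if_neg hi']
  rw [e1, e2] at h3
  have h4 : (2 : ℂ) * (x pOmega : PIdx → ℂ) g = 0 := by linear_combination h3
  exact (mul_eq_zero.mp h4).resolve_left two_ne_zero

lemma taskHFP4_comm_apply {a b : PHilb →L[ℂ] PHilb} (ha : a ∈ pA) (hb : b ∈ pA) :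
    a (b pOmega) = b (a pOmega) := by
  have haM := ((mem_pA_iff a).mp ha).1
  have hbM := ((mem_pA_iff b).mp hb).1
  apply lp.ext
  funext c
  have h1 := pM_hasSum_apply haM (b pOmega) c
  have h2 := (Equiv.addLeft c).hasSum_iff.mpr (pM_hasSum_apply hbM (a pOmega) c)
  have e : (fun g : PIdx => pCoc (c + g) g * (b pOmega : PIdx → ℂ) (c + g)
        * (a pOmega : PIdx → ℂ) g) ∘ (Equiv.addLeft c)
      = fun g : PIdx => pCoc (c + g) g * (a pOmega : PIdx → ℂ) (c + g)
        * (b pOmega : PIdx → ℂ) g := by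
    funext g
    simp only [Function.comp_apply, Equiv.coe_addLeft]
    have hcc : c + (c + g) = g := by rw [← add_assoc, pIdx_add_self, zero_add]
    rw [hcc]
    by_cases hg1 : (c + g).2 = 0
    · by_cases hg2 : g.2 = 0
      · have e1 : pCoc g (c + g) = 1 := by
          show pSgn g.2 (c + g).1 = 1
          rw [hg2, pSgn_zero_left]
        have e2 : pCoc (c + g) g = 1 := by
          show pSgn (c + g).2 g.1 = 1
          rw [hg1, pSgn_zero_left]
        rw [e1, e2]
        ring
      · rw [pA_omega_support hb g hg2]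
        ring
    · rw [pA_omega_support ha (c + g) hg1]
      ring
  rw [e] at h2
  exact h1.unique h2

theorem pA_masa : IsMASA pA pM := by
  refine ⟨fun x hx => ((mem_pA_iff x).mp hx).1, ?_, ?_⟩
  · intro a ha b hb
    have haM := ((mem_pA_iff a).mp ha).1
    have hbM := ((mem_pA_iff b).mp hb).1
    have hmem : a * b - b * a ∈ pM := sub_mem (mul_mem haM hbM) (mul_mem hbM haM)
    have h0 : (a * b - b * a) pOmega = 0 := by
      show a (b pOmega) - b (a pOmega) = 0
      rw [taskHFP4_comm_apply ha hb, sub_self]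
    exact sub_eq_zero.mp (pM_separating _ hmem h0)
  · intro x hx hcomm
    rw [mem_pA_iff]
    exact ⟨hx, fun h => hcomm _ (pLam_h_mem_pA h)⟩

end Vale.Agent.Lib.P078
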