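import Vale.Agent.Lib.P078.PauliDefs
import Vale.Agent.Lib.P078.Approx
import Vale.Agent.Lib.P078.Factor
import Vale.Agent.Lib.P078.Summary
import Vale.Agent.Lib.P078.AFDDefs
import Vale.Agent.Lib.P078.HF.P4

namespace Vale.Agent.Lib.P078

open scoped InnerProductSpace Matrix.Norms.L2Operator
open ContinuousLinearMap Filter Topology

variable {H : Type*} [NormedAddCommGroup H] [InnerProductSpace ℂ H] [CompleteSpace H]

/-! ### P5a : the Pauli generators and the projections `pF n` -/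

lemma taskHFP5a_lam_h_mul (a b : ℕ →₀ ZMod 2) :
    pLam (a, (0 : ℕ →₀ ZMod 2)) * pLam (b, (0 : ℕ →₀ ZMod 2))
      = pLam (a + b, (0 : ℕ →₀ ZMod 2)) := by
  rw [pLam_mul]
  have h : pCoc (a, (0 : ℕ →₀ ZMod 2)) (b, (0 : ℕ →₀ ZMod 2)) = 1 := pSgn_zero_left _
  rw [h, one_smul, Prod.mk_add_mk, add_zero]

lemma taskHFP5a_lam_zero : pLam ((0 : ℕ →₀ ZMod 2), (0 : ℕ →₀ ZMod 2)) = 1 := pLam_zero

lemma taskHFP5a_coc_eps (i : ℕ) :
    pCoc ((Finsupp.single i 1 : ℕ →₀ ZMod 2), (0 : ℕ →₀ ZMod 2))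
      ((Finsupp.single i 1 : ℕ →₀ ZMod 2), (0 : ℕ →₀ ZMod 2)) = 1 := pSgn_zero_left _

lemma taskHFP5a_coc_chi (i : ℕ) :
    pCoc ((0 : ℕ →₀ ZMod 2), (Finsupp.single i 1 : ℕ →₀ ZMod 2))
      ((0 : ℕ →₀ ZMod 2), (Finsupp.single i 1 : ℕ →₀ ZMod 2)) = 1 := pSgn_zero_right _

lemma pZ_mul_self (i : ℕ) : pZ i * pZ i = 1 := by
  unfold pZ
  rw [pLam_mul, pIdx_add_self, pLam_zero, taskHFP5a_coc_eps, one_smul]

lemma pZ_comm (i j : ℕ) : pZ i * pZ j = pZ j * pZ i := by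
  unfold pZ
  rw [taskHFP5a_lam_h_mul, taskHFP5a_lam_h_mul, add_comm]

lemma pZ_star (i : ℕ) : star (pZ i) = pZ i := by
  unfold pZ
  rw [pLam_star, taskHFP5a_coc_eps, one_smul]

lemma pZ_mem_pA (i : ℕ) : pZ i ∈ pA := pLam_h_mem_pA _

lemma pX_mul_self (i : ℕ) : pX i * pX i = 1 := by
  unfold pX
  rw [pLam_mul, pIdx_add_self, pLam_zero, taskHFP5a_coc_chi, one_smul]

lemma pX_star (i : ℕ) : star (pX i) = pX i := by
  unfold pX
  rw [pLam_star, taskHFP5a_coc_chi, one_smul]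

lemma pX_mem_pM (i : ℕ) : pX i ∈ pM := pLam_mem_pM _

lemma pX_pZ_anti (i : ℕ) : pX i * pZ i = -(pZ i * pX i) := by
  unfold pX pZ
  rw [pLam_mul, pLam_mul]
  have h1 : pCoc ((0 : ℕ →₀ ZMod 2), (Finsupp.single i 1 : ℕ →₀ ZMod 2))
      ((Finsupp.single i 1 : ℕ →₀ ZMod 2), (0 : ℕ →₀ ZMod 2)) = -1 := by
    show pSgn (Finsupp.single i 1) (Finsupp.single i 1) = -1
    rw [pSgn_single_left, Finsupp.single_eq_same]
    exact if_neg (by decide)
  have h2 : pCoc ((Finsupp.single i 1 : ℕ →₀ ZMod 2), (0 : ℕ →₀ ZMod 2))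
      ((0 : ℕ →₀ ZMod 2), (Finsupp.single i 1 : ℕ →₀ ZMod 2)) = 1 := pSgn_zero_left _
  rw [h1, h2, one_smul, neg_one_smul, add_comm]

lemma taskHFP5a_pX_comm_lam (i : ℕ) (h : ℕ →₀ ZMod 2) (hi : h i = 0) :
    pX i * pLam (h, (0 : ℕ →₀ ZMod 2)) = pLam (h, (0 : ℕ →₀ ZMod 2)) * pX i := by
  unfold pX
  rw [pLam_mul, pLam_mul]
  have h1 : pCoc ((0 : ℕ →₀ ZMod 2), (Finsupp.single i 1 : ℕ →₀ ZMod 2))
      (h, (0 : ℕ →₀ ZMod 2)) = 1 := by
    show pSgn (Finsupp.single i 1) h = 1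
    rw [pSgn_single_left]
    exact if_pos hi
  have h2 : pCoc (h, (0 : ℕ →₀ ZMod 2))
      ((0 : ℕ →₀ ZMod 2), (Finsupp.single i 1 : ℕ →₀ ZMod 2)) = 1 := pSgn_zero_left _
  rw [h1, h2, add_comm]

lemma pX_pZ_comm (i j : ℕ) (hij : i ≠ j) : pX i * pZ j = pZ j * pX i := by
  unfold pZ
  refine taskHFP5a_pX_comm_lam i (Finsupp.single j 1) ?_
  rw [Finsupp.single_apply]
  exact if_neg (Ne.symm hij)

lemma pX_comm_lam (i : ℕ) (h : ℕ →₀ ZMod 2) (hi : h i = 0) :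
    pX i * pLam (h, 0) = pLam (h, 0) * pX i :=
  taskHFP5a_pX_comm_lam i h hi

lemma taskHFP5a_E_sq (n : ℕ) :
    ((1 / 2 : ℂ) • (1 + pZ n)) * ((1 / 2 : ℂ) • (1 + pZ n)) = (1 / 2 : ℂ) • (1 + pZ n) := by
  have h1 : (1 + pZ n) * (1 + pZ n) = (2 : ℂ) • (1 + pZ n) := by
    have h2 : (1 + pZ n) * (1 + pZ n) = 1 + pZ n + (pZ n + pZ n * pZ n) := by
      rw [add_mul, one_mul, mul_add, mul_one]
    rw [h2, pZ_mul_self, two_smul]
    abel
  rw [smul_mul_smul_comm, h1, smul_smul]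
  norm_num

lemma taskHFP5a_E_proj (n : ℕ) : IsStarProjection ((1 / 2 : ℂ) • (1 + pZ n)) := by
  refine ⟨taskHFP5a_E_sq n, ?_⟩
  show star ((1 / 2 : ℂ) • (1 + pZ n)) = (1 / 2 : ℂ) • (1 + pZ n)
  rw [star_smul, star_add, star_one, pZ_star]
  congr 1
  simp

lemma taskHFP5a_E_comm_pZ (n i : ℕ) :
    ((1 / 2 : ℂ) • (1 + pZ n)) * pZ i = pZ i * ((1 / 2 : ℂ) • (1 + pZ n)) := by
  rw [smul_mul_assoc, mul_smul_comm, add_mul, mul_add, one_mul, mul_one, pZ_comm n i]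

lemma taskHFP5a_pF_comm_pZ (n i : ℕ) : pF n * pZ i = pZ i * pF n := by
  induction n with
  | zero =>
    show (1 : PHilb →L[ℂ] PHilb) * pZ i = pZ i * 1
    rw [one_mul, mul_one]
  | succ n ih =>
    show pF n * ((1 / 2 : ℂ) • (1 + pZ n)) * pZ i = pZ i * (pF n * ((1 / 2 : ℂ) • (1 + pZ n)))
    rw [mul_assoc, taskHFP5a_E_comm_pZ, ← mul_assoc, ih, mul_assoc]

lemma pF_mem_pA (n : ℕ) : pF n ∈ pA := by
  induction n with
  | zero =>
    show (1 : PHilb →L[ℂ] PHilb) ∈ pA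
    exact one_mem pA
  | succ n ih =>
    show pF n * ((1 / 2 : ℂ) • (1 + pZ n)) ∈ pA
    exact mul_mem ih (pA.toStarSubalgebra.smul_mem (add_mem (one_mem pA) (pZ_mem_pA n)) _)

lemma pF_proj (n : ℕ) : IsStarProjection (pF n) := by
  induction n with
  | zero =>
    show IsStarProjection (1 : PHilb →L[ℂ] PHilb)
    exact IsStarProjection.one _
  | succ n ih =>
    show IsStarProjection (pF n * ((1 / 2 : ℂ) • (1 + pZ n)))
    refine taskC2_proj_mul ih (taskHFP5a_E_proj n) ?_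
    rw [mul_smul_comm, smul_mul_assoc, mul_add, add_mul, mul_one, one_mul,
      taskHFP5a_pF_comm_pZ]

lemma pF_comm_pZ (n i : ℕ) : pF n * pZ i = pZ i * pF n :=
  taskHFP5a_pF_comm_pZ n i

lemma pF_absorb (n i : ℕ) (hi : i < n) : pF n * pZ i = pF n := by
  induction n with
  | zero => exact absurd hi (Nat.not_lt_zero i)
  | succ n ih =>
    show pF n * ((1 / 2 : ℂ) • (1 + pZ n)) * pZ i = pF n * ((1 / 2 : ℂ) • (1 + pZ n))
    rcases Nat.lt_succ_iff_lt_or_eq.1 hi with h | h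
    · rw [mul_assoc, taskHFP5a_E_comm_pZ, ← mul_assoc, ih h]
    · subst h
      rw [mul_assoc]
      congr 1
      rw [smul_mul_assoc, add_mul, one_mul, pZ_mul_self, add_comm]

lemma taskHFP5a_absorb_finset (n : ℕ) (s : Finset ℕ) (hs : ∀ i ∈ s, i < n) :
    pF n * pLam (∑ i ∈ s, Finsupp.single i (1 : ZMod 2), (0 : ℕ →₀ ZMod 2)) = pF n := by
  classical
  induction s using Finset.induction_on with
  | empty =>
    rw [Finset.sum_empty, taskHFP5a_lam_zero, mul_one]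
  | insert a s ha ih =>
    rw [Finset.sum_insert ha, ← taskHFP5a_lam_h_mul, ← mul_assoc]
    have h1 : pF n * pLam (Finsupp.single a (1 : ZMod 2), (0 : ℕ →₀ ZMod 2)) = pF n :=
      pF_absorb n a (hs a (Finset.mem_insert_self a s))
    rw [h1]
    exact ih (fun i hi => hs i (Finset.mem_insert_of_mem hi))

lemma pF_lam_absorb (n : ℕ) (h : ℕ →₀ ZMod 2) (hh : ∀ i, n ≤ i → h i = 0) :
    pF n * pLam (h, 0) = pF n := by
  have hsum : ∑ i ∈ h.support, Finsupp.single i (1 : ZMod 2) = h := by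
    have h0 : ∑ i ∈ h.support, Finsupp.single i (h i) = h := Finsupp.sum_single h
    have h1 : ∑ i ∈ h.support, Finsupp.single i (1 : ZMod 2)
        = ∑ i ∈ h.support, Finsupp.single i (h i) := by
      refine Finset.sum_congr rfl fun i hi => ?_
      have h2 : h i ≠ 0 := Finsupp.mem_support_iff.1 hi
      have h3 : ∀ a : ZMod 2, a ≠ 0 → a = 1 := by decide
      rw [h3 _ h2]
    rw [h1, h0]
  have key := taskHFP5a_absorb_finset n h.support (fun i hi => by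
    by_contra hlt
    exact (Finsupp.mem_support_iff.1 hi) (hh i (Nat.le_of_not_gt hlt)))
  rw [hsum] at key
  exact key

lemma pF_comm_pX (n i : ℕ) (hi : n ≤ i) : pF n * pX i = pX i * pF n := by
  induction n with
  | zero =>
    show (1 : PHilb →L[ℂ] PHilb) * pX i = pX i * 1
    rw [one_mul, mul_one]
  | succ n ih =>
    show pF n * ((1 / 2 : ℂ) • (1 + pZ n)) * pX i = pX i * (pF n * ((1 / 2 : ℂ) • (1 + pZ n)))
    have hne : i ≠ n := by omega
    have hE : ((1 / 2 : ℂ) • (1 + pZ n)) * pX i = pX i * ((1 / 2 : ℂ) • (1 + pZ n)) := by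
      rw [smul_mul_assoc, mul_smul_comm, add_mul, mul_add, one_mul, mul_one,
        pX_pZ_comm i n hne]
    rw [mul_assoc, hE, ← mul_assoc, ih (by omega), mul_assoc]

end Vale.Agent.Lib.P078
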