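import Vale.Agent.Lib.P078.PauliDefs
import Vale.Agent.Lib.P078.Approx
import Vale.Agent.Lib.P078.Factor
import Vale.Agent.Lib.P078.Summary
import Vale.Agent.Lib.P078.AFDDefs
import Vale.Agent.Lib.P078.HF.P5a

namespace Vale.Agent.Lib.P078

open scoped InnerProductSpace Matrix.Norms.L2Operator
open ContinuousLinearMap Filter Topology

variable {H : Type*} [NormedAddCommGroup H] [InnerProductSpace ℂ H] [CompleteSpace H]

/-! ### P5b : the trace of `pF n` -/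

lemma taskHFP5b_step (n : ℕ) (g : PIdx) :
    (pF (n + 1) pOmega : PIdx → ℂ) g = (1 / 2 : ℂ) * ((pF n pOmega : PIdx → ℂ) g +
      pCoc (g + (Finsupp.single n 1, 0)) (Finsupp.single n 1, 0) *
        (pF n pOmega : PIdx → ℂ) (g + (Finsupp.single n 1, 0))) := by
  have hM : pF n ∈ pM := ((mem_pA_iff (pF n)).1 (pF_mem_pA n)).1
  have h2 : pZ n pOmega = pDelta (Finsupp.single n 1, 0) := by
    show pLam (Finsupp.single n 1, 0) (pDelta 0) = pDelta (Finsupp.single n 1, 0)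
    rw [pLam_delta, pCoc_zero_right, one_smul, zero_add]
  have h1 : pF (n + 1) pOmega =
      (1 / 2 : ℂ) • (pF n pOmega + pRho (Finsupp.single n 1, 0) (pF n pOmega)) := by
    show (pF n * ((1 / 2 : ℂ) • (1 + pZ n))) pOmega = _
    rw [mul_apply_eq_comp, _root_.smul_apply, _root_.add_apply, one_apply_eq_self, map_smul,
      map_add, h2, pM_apply_delta hM]
  rw [h1, lp.coeFn_smul, Pi.smul_apply, lp.coeFn_add, Pi.add_apply, pRho_apply, smul_eq_mul]

lemma pF_omega_support (n : ℕ) (g : PIdx) (hg : ¬ (g.2 = 0 ∧ ∀ i, n ≤ i → g.1 i = 0)) :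
    (pF n pOmega : PIdx → ℂ) g = 0 := by
  induction n generalizing g with
  | zero =>
    have h1 : (pF 0 pOmega : PIdx → ℂ) g = (pDelta 0 : PIdx → ℂ) g := rfl
    rw [h1, pDelta_apply]
    have hne : g ≠ 0 := by
      intro h0
      apply hg
      rw [h0]
      exact ⟨rfl, fun i _ => rfl⟩
    rw [if_neg hne]
  | succ n ih =>
    have hA : ¬ (g.2 = 0 ∧ ∀ i, n ≤ i → g.1 i = 0) := by
      rintro ⟨h2, h1⟩
      exact hg ⟨h2, fun i hi => h1 i (by omega)⟩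
    have hB : ¬ ((g + ((Finsupp.single n 1 : ℕ →₀ ZMod 2), (0 : ℕ →₀ ZMod 2))).2 = 0 ∧
        ∀ i, n ≤ i → (g + ((Finsupp.single n 1 : ℕ →₀ ZMod 2), (0 : ℕ →₀ ZMod 2))).1 i = 0) := by
      rintro ⟨h2, h1⟩
      apply hg
      refine ⟨?_, fun i hi => ?_⟩
      · have e : (g + ((Finsupp.single n 1 : ℕ →₀ ZMod 2), (0 : ℕ →₀ ZMod 2))).2 = g.2 := by
          show g.2 + 0 = g.2
          rw [add_zero]
        rw [← e]
        exact h2
      · have h3 := h1 i (by omega)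
        have e : (g + ((Finsupp.single n 1 : ℕ →₀ ZMod 2), (0 : ℕ →₀ ZMod 2))).1 i = g.1 i := by
          show ((g.1 + Finsupp.single n 1 : ℕ →₀ ZMod 2)) i = g.1 i
          rw [Finsupp.add_apply, Finsupp.single_apply, if_neg (by omega), add_zero]
        rw [← e]
        exact h3
    rw [taskHFP5b_step, ih g hA, ih _ hB, mul_zero, add_zero, mul_zero]

lemma taskHFP5b_at_zero (n : ℕ) : (pF n pOmega : PIdx → ℂ) 0 = (1 / 2 : ℂ) ^ n := by
  induction n with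
  | zero =>
    have h1 : (pF 0 pOmega : PIdx → ℂ) 0 = (pDelta 0 : PIdx → ℂ) 0 := rfl
    rw [h1, pDelta_apply, if_pos rfl, pow_zero]
  | succ n ih =>
    have hB : ¬ (((0 : PIdx) + ((Finsupp.single n 1 : ℕ →₀ ZMod 2), (0 : ℕ →₀ ZMod 2))).2 = 0 ∧
        ∀ i, n ≤ i →
          ((0 : PIdx) + ((Finsupp.single n 1 : ℕ →₀ ZMod 2), (0 : ℕ →₀ ZMod 2))).1 i = 0) := by
      rintro ⟨-, h1⟩
      have h3 := h1 n le_rfl
      have e : ((0 : PIdx) + ((Finsupp.single n 1 : ℕ →₀ ZMod 2), (0 : ℕ →₀ ZMod 2))).1 n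
          = 1 := by
        show (((0 : ℕ →₀ ZMod 2) + Finsupp.single n 1 : ℕ →₀ ZMod 2)) n = 1
        rw [zero_add, Finsupp.single_apply, if_pos rfl]
      rw [e] at h3
      exact one_ne_zero h3
    rw [taskHFP5b_step, pF_omega_support n _ hB, mul_zero, add_zero, ih, pow_succ]
    ring

lemma pF_trace (n : ℕ) : ⟪pOmega, pF n pOmega⟫_ℂ = (1 / 2 : ℂ) ^ n := by
  have h1 : ⟪pOmega, pF n pOmega⟫_ℂ = (pF n pOmega : PIdx → ℂ) 0 := inner_pDelta 0 _
  rw [h1, taskHFP5b_at_zero]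

lemma pF_norm_sq (n : ℕ) : ‖pF n pOmega‖ ^ 2 = (1 / 2 : ℝ) ^ n := by
  have hp := pF_proj n
  have hsa : star (pF n) = pF n := hp.isSelfAdjoint
  have hid : pF n * pF n = pF n := hp.isIdempotentElem
  have h1 : ⟪pF n pOmega, pF n pOmega⟫_ℂ = ⟪pOmega, pF n pOmega⟫_ℂ := by
    have h2 : ⟪pF n pOmega, pF n pOmega⟫_ℂ =
        ⟪pOmega, (ContinuousLinearMap.adjoint (pF n)) (pF n pOmega)⟫_ℂ :=
      (ContinuousLinearMap.adjoint_inner_right (pF n) pOmega (pF n pOmega)).symm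
    rw [h2, ← ContinuousLinearMap.star_eq_adjoint, hsa, ← mul_apply_eq_comp, hid]
  have h3 : ‖pF n pOmega‖ ^ 2 = RCLike.re ⟪pF n pOmega, pF n pOmega⟫_ℂ :=
    norm_sq_eq_re_inner (𝕜 := ℂ) _
  have h4 : ((1 / 2 : ℂ)) ^ n = (((1 / 2 : ℝ) ^ n : ℝ) : ℂ) := by
    push_cast
    ring
  rw [h3, h1, pF_trace, h4]
  exact Complex.ofReal_re _

end Vale.Agent.Lib.P078
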