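import Vale.Agent.Lib.P078.PauliDefs
import Vale.Agent.Lib.P078.Approx
import Vale.Agent.Lib.P078.Factor
import Vale.Agent.Lib.P078.Summary
import Vale.Agent.Lib.P078.AFDDefs
import Vale.Agent.Lib.P078.HF.P5b
import Vale.Agent.Lib.P078.HF.P2
import Vale.Agent.Lib.P078.HF.P3

namespace Vale.Agent.Lib.P078

open scoped InnerProductSpace Matrix.Norms.L2Operator
open ContinuousLinearMap Filter Topology

variable {H : Type*} [NormedAddCommGroup H] [InnerProductSpace ℂ H] [CompleteSpace H]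

/-! ### P5c : factors with small projections are diffuse -/

lemma taskHFP5c_norm_proj_apply {w : H →L[ℂ] H} (hwp : IsStarProjection (star w * w)) (Ω : H) :
    ‖(star w * w) Ω‖ ^ 2 = ‖w Ω‖ ^ 2 := by
  have hsa : star (star w * w) = star w * w := hwp.isSelfAdjoint.star_eq
  have hid : (star w * w) * (star w * w) = star w * w := hwp.isIdempotentElem.eq
  have hq : ⟪(star w * w) Ω, (star w * w) Ω⟫_ℂ = ⟪w Ω, w Ω⟫_ℂ := by
    have e1 : ⟪(star w * w) Ω, (star w * w) Ω⟫_ℂ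
        = ⟪Ω, (adjoint (star w * w)) ((star w * w) Ω)⟫_ℂ :=
      (adjoint_inner_right (star w * w) Ω ((star w * w) Ω)).symm
    have e2 : adjoint (star w * w) = star w * w := by
      rw [← star_eq_adjoint]
      exact hsa
    have e3 : ⟪Ω, (star w * w) ((star w * w) Ω)⟫_ℂ = ⟪Ω, (star w) (w Ω)⟫_ℂ := by
      have e4 : (star w * w) ((star w * w) Ω) = ((star w * w) * (star w * w)) Ω := rfl
      rw [e4, hid]
      rfl
    have e5 : ⟪Ω, (adjoint w) (w Ω)⟫_ℂ = ⟪w Ω, w Ω⟫_ℂ := adjoint_inner_right w Ω (w Ω)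
    rw [e1, e2, e3]
    exact e5
  rw [norm_sq_eq_re_inner (𝕜 := ℂ) ((star w * w) Ω), norm_sq_eq_re_inner (𝕜 := ℂ) (w Ω), hq]

theorem isDiffuse_of_small_projections (M : VonNeumannAlgebra H) (hF : IsFactor M) {Ω : H}
    (hΩ : IsTraceVector M Ω) (hsep : IsSeparating M Ω)
    (hsmall : ∀ t : ℝ, 0 < t → ∃ e ∈ M, IsStarProjection e ∧ e ≠ 0 ∧ ‖e Ω‖ ^ 2 < t) :
    IsDiffuse M := by
  intro p hpM hp hp0
  have hpΩ : p Ω ≠ 0 := fun h => hp0 (hsep p hpM h)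
  have ht : 0 < ‖p Ω‖ ^ 2 := pow_pos (norm_pos_iff.mpr hpΩ) 2
  obtain ⟨e, heM, he, he0, het⟩ := hsmall _ ht
  obtain ⟨w, hwM, hw0, hwp, hpw, hew⟩ :=
    factor_exists_partial_isometry M hF hpM heM hp he hp0 he0
  have hsw : star w ∈ M := star_mem hwM
  have hqM : star w * w ∈ M := M.mul_mem hsw hwM
  refine ⟨star w * w, hqM, hwp, ?_, ?_, hpw⟩
  · intro h
    exact hw0 ((CStarRing.star_mul_self_eq_zero_iff w).mp h)
  · intro h
    have h1 : ‖(star w * w) Ω‖ ^ 2 = ‖w Ω‖ ^ 2 := taskHFP5c_norm_proj_apply hwp Ω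
    have h2 : ‖(star w) Ω‖ = ‖w Ω‖ := trace_norm_star M hΩ hwM
    have h3 : star w = star w * e := by
      have h4 := congrArg star hew
      rw [star_mul, he.isSelfAdjoint.star_eq] at h4
      exact h4.symm
    have h5 : ‖w‖ ≤ 1 := taskC4b_norm_le_one hwp
    have h6 : ‖(star w) Ω‖ ≤ ‖e Ω‖ := by
      calc ‖(star w) Ω‖ = ‖(star w * e) Ω‖ := by rw [← h3]
        _ = ‖(star w) (e Ω)‖ := rfl
        _ ≤ ‖star w‖ * ‖e Ω‖ := ContinuousLinearMap.le_opNorm _ _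
        _ = ‖w‖ * ‖e Ω‖ := by rw [norm_star]
        _ ≤ 1 * ‖e Ω‖ := mul_le_mul_of_nonneg_right h5 (norm_nonneg _)
        _ = ‖e Ω‖ := one_mul _
    have h7 : ‖w Ω‖ ^ 2 ≤ ‖e Ω‖ ^ 2 := by
      rw [← h2]
      exact pow_le_pow_left₀ (norm_nonneg _) h6 2
    rw [h] at h1
    linarith

theorem pM_diffuse : IsDiffuse pM := by
  apply isDiffuse_of_small_projections pM pM_factor pM_trace pM_separating
  intro t ht
  obtain ⟨n, hn⟩ := exists_pow_lt_of_lt_one ht (by norm_num : (1 / 2 : ℝ) < 1)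
  have hnorm : ‖pF n pOmega‖ ^ 2 = (1 / 2 : ℝ) ^ n := pF_norm_sq n
  refine ⟨pF n, ((mem_pA_iff (pF n)).mp (pF_mem_pA n)).1, pF_proj n, ?_, ?_⟩
  · intro h
    have hpos : (0 : ℝ) < (1 / 2 : ℝ) ^ n := by positivity
    rw [h, zero_apply, norm_zero] at hnorm
    have h0 : (0 : ℝ) ^ 2 = 0 := by norm_num
    rw [h0] at hnorm
    linarith
  · rw [hnorm]
    exact hn

end Vale.Agent.Lib.P078
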