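import Vale.Agent.Lib.P078.PauliDefs
import Vale.Agent.Lib.P078.Approx
import Vale.Agent.Lib.P078.Factor
import Vale.Agent.Lib.P078.Summary
import Vale.Agent.Lib.P078.AFDDefs
import Vale.Agent.Lib.P078.HF.P5a

namespace Vale.Agent.Lib.P078

open scoped InnerProductSpace Matrix.Norms.L2Operator
open ContinuousLinearMap Filter Topology

variable {H : Type*} [NormedAddCommGroup H] [InnerProductSpace ℂ H] [CompleteSpace H]

/-! ### P6 : the algebras `pN n` are of type I -/

lemma pA_le_pN (n : ℕ) : pA ≤ pN n := by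
  intro x hx
  rw [mem_pA_iff] at hx
  rw [mem_pN_iff]
  exact ⟨hx.1, fun h _ => hx.2 h⟩

lemma pN_le_pM (n : ℕ) : pN n ≤ pM := by
  intro x hx
  rw [mem_pN_iff] at hx
  exact hx.1

/-- The compression of an element of `pN n` by `pF n` lies in the diagonal algebra. -/
lemma taskHFP6_compress_mem (n : ℕ) {x : PHilb →L[ℂ] PHilb} (hx : x ∈ pN n) :
    pF n * x * pF n ∈ pA := by
  have hfA := (mem_pA_iff (pF n)).mp (pF_mem_pA n)
  have hxN := (mem_pN_iff n x).mp hx
  rw [mem_pA_iff]
  refine ⟨mul_mem (mul_mem hfA.1 hxN.1) hfA.1, fun h => ?_⟩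
  obtain ⟨h₁, hh₁⟩ : ∃ h₁ : ℕ →₀ ZMod 2, h₁ = h.filter (fun i => i < n) := ⟨_, rfl⟩
  obtain ⟨h₂, hh₂⟩ : ∃ h₂ : ℕ →₀ ZMod 2, h₂ = h.filter (fun i => ¬ i < n) := ⟨_, rfl⟩
  have hsum : h₁ + h₂ = h := by
    rw [hh₁, hh₂]
    exact Finsupp.filter_add_filter_not h _
  have h1z : ∀ i, n ≤ i → h₁ i = 0 := by
    intro i hi
    rw [hh₁]
    exact Finsupp.filter_apply_neg _ _ (not_lt.mpr hi)
  have h2z : ∀ i < n, h₂ i = 0 := by
    intro i hi
    rw [hh₂]
    exact Finsupp.filter_apply_neg _ _ (not_not.mpr hi)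
  have hL : pLam (h, 0) = pLam (h₁, 0) * pLam (h₂, 0) := by
    have hc : pCoc (h₁, 0) (h₂, 0) = 1 := pSgn_zero_left h₂
    rw [pLam_mul, hc, one_smul, Prod.mk_add_mk, add_zero, hsum]
  have e1 : pF n * pLam (h₁, 0) = pF n := pF_lam_absorb n h₁ h1z
  have e2 : pLam (h₁, 0) * pF n = pF n := by rw [hfA.2 h₁, e1]
  have e3 : pLam (h₂, 0) * pF n = pF n * pLam (h₂, 0) := hfA.2 h₂
  have e4 : pLam (h₂, 0) * x = x * pLam (h₂, 0) := hxN.2 h₂ h2z
  rw [hL]
  calc pLam (h₁, 0) * pLam (h₂, 0) * (pF n * x * pF n)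
      = pLam (h₁, 0) * (pLam (h₂, 0) * pF n) * x * pF n := by simp only [mul_assoc]
    _ = (pLam (h₁, 0) * pF n) * (pLam (h₂, 0) * x) * pF n := by
        rw [e3]
        simp only [mul_assoc]
    _ = pF n * x * (pLam (h₂, 0) * pF n) := by
        rw [e2, e4]
        simp only [mul_assoc]
    _ = pF n * x * (pF n * pLam (h₁, 0)) * pLam (h₂, 0) := by
        rw [e3, e1]
        simp only [mul_assoc]
    _ = pF n * x * pF n * (pLam (h₁, 0) * pLam (h₂, 0)) := by simp only [mul_assoc]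

/-- `pF j` is the sum of `pF (j + 1)` and its conjugate by the Pauli generator `pX j`. -/
lemma taskHFP6_pF_split (j : ℕ) : pF (j + 1) + pX j * pF (j + 1) * pX j = pF j := by
  have h1 : pF (j + 1) = pF j * ((1 / 2 : ℂ) • (1 + pZ j)) := rfl
  have hc : pF j * pX j = pX j * pF j := pF_comm_pX j j le_rfl
  have hxx : pX j * pX j = 1 := pX_mul_self j
  have hxz : pX j * pZ j = -(pZ j * pX j) := pX_pZ_anti j
  have h2 : pX j * pF (j + 1) * pX j = pF j * ((1 / 2 : ℂ) • (1 - pZ j)) := by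
    rw [h1]
    calc pX j * (pF j * ((1 / 2 : ℂ) • (1 + pZ j))) * pX j
        = (pX j * pF j) * ((1 / 2 : ℂ) • (1 + pZ j)) * pX j := by simp only [mul_assoc]
      _ = pF j * (pX j * ((1 / 2 : ℂ) • (1 + pZ j)) * pX j) := by
          rw [← hc]
          simp only [mul_assoc]
      _ = pF j * ((1 / 2 : ℂ) • (pX j * pX j + pX j * pZ j * pX j)) := by
          rw [mul_smul_comm, smul_mul_assoc, mul_add, add_mul, mul_one]
      _ = pF j * ((1 / 2 : ℂ) • (1 - pZ j)) := by
          rw [hxx, hxz, neg_mul, mul_assoc, hxx, mul_one, sub_eq_add_neg]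
  have h3 : (1 + pZ j) + (1 - pZ j) = (2 : ℂ) • (1 : PHilb →L[ℂ] PHilb) := by
    rw [two_smul]
    abel
  rw [h2, h1, ← mul_add, ← smul_add, h3, smul_smul]
  norm_num

theorem pN_typeOne (n : ℕ) : IsTypeOne (pN n) := by
  refine ⟨pF n, pA_le_pN n (pF_mem_pA n), pF_proj n, ?_, ?_⟩
  · intro a ha b hb
    exact pA_masa.2.1 _ (taskHFP6_compress_mem n ha) _ (taskHFP6_compress_mem n hb)
  · intro z _ hzc _ hzf
    rw [VonNeumannAlgebra.mem_commutant_iff] at hzc
    have hkey : ∀ k, k ≤ n → z * pF (n - k) = 0 := by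
      intro k
      induction k with
      | zero =>
        intro _
        rw [Nat.sub_zero]
        exact hzf
      | succ k ih =>
        intro hk
        have ih' := ih (by omega)
        obtain ⟨j, hj⟩ : ∃ j, n - (k + 1) = j := ⟨_, rfl⟩
        have hj1 : n - k = j + 1 := by omega
        have hjn : j < n := by omega
        rw [hj]
        rw [hj1] at ih'
        have hu : pX j ∈ pN n := by
          rw [mem_pN_iff]
          exact ⟨pX_mem_pM j, fun h hh => (pX_comm_lam j h (hh j hjn)).symm⟩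
        have hcomm : pX j * z = z * pX j := hzc (pX j) hu
        calc z * pF j = z * (pF (j + 1) + pX j * pF (j + 1) * pX j) := by
              rw [taskHFP6_pF_split]
          _ = z * pF (j + 1) + (z * pX j) * pF (j + 1) * pX j := by
              rw [mul_add]
              simp only [mul_assoc]
          _ = z * pF (j + 1) + pX j * (z * pF (j + 1)) * pX j := by
              rw [← hcomm]
              simp only [mul_assoc]
          _ = 0 := by
              rw [ih']
              simp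
    have h0 := hkey n le_rfl
    rw [Nat.sub_self] at h0
    have hF0 : pF 0 = 1 := rfl
    rw [hF0, mul_one] at h0
    exact h0

end Vale.Agent.Lib.P078
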