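import Vale.Agent.Lib.P078.PauliDefs
import Vale.Agent.Lib.P078.Approx
import Vale.Agent.Lib.P078.Factor
import Vale.Agent.Lib.P078.Summary
import Vale.Agent.Lib.P078.AFDDefs
import Vale.Agent.Lib.P078.HF.P0b

namespace Vale.Agent.Lib.P078

open scoped InnerProductSpace Matrix.Norms.L2Operator
open ContinuousLinearMap Filter Topology

variable {H : Type*} [NormedAddCommGroup H] [InnerProductSpace ℂ H] [CompleteSpace H]

/-! ### P7a : fibrewise pinchings are contractive -/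

lemma taskHFP7a_hasSum (w : PHilb) :
    HasSum (fun a => ‖(w : PIdx → ℂ) a‖ ^ 2) (‖w‖ ^ 2) := by
  have h2 : (0 : ℝ) < (2 : ENNReal).toReal := by norm_num
  have h := lp.hasSum_norm h2 w
  have e : (2 : ENNReal).toReal = 2 := by norm_num
  rw [e] at h
  simpa only [Real.rpow_two] using h

lemma taskHFP7a_sum_le (w : PHilb) (S : Finset PIdx) :
    ∑ a ∈ S, ‖(w : PIdx → ℂ) a‖ ^ 2 ≤ ‖w‖ ^ 2 :=
  sum_le_hasSum S (fun _ _ => sq_nonneg _) (taskHFP7a_hasSum w)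

lemma taskHFP7a_mem (κ : PIdx → PIdx) (c : PIdx) (v : PHilb) :
    Memℓp (fun a => if κ a = c then (v : PIdx → ℂ) a else 0) 2 := by
  have h2 : (0 : ℝ) < (2 : ENNReal).toReal := by norm_num
  have e : (2 : ENNReal).toReal = 2 := by norm_num
  refine (memℓp_gen_iff h2).2 ?_
  rw [e]
  simp only [Real.rpow_two]
  refine Summable.of_nonneg_of_le (fun a => sq_nonneg _) (fun a => ?_) (taskHFP7a_hasSum v).summable
  split_ifs
  · exact le_rfl
  · rw [norm_zero]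
    nlinarith [sq_nonneg ‖(v : PIdx → ℂ) a‖]

/-- The coordinate projection onto the fibre of `κ` over `c`, as a linear map. -/
noncomputable def taskHFP7a_Qlin (κ : PIdx → PIdx) (c : PIdx) : PHilb →ₗ[ℂ] PHilb where
  toFun v := ⟨fun a => if κ a = c then (v : PIdx → ℂ) a else 0, taskHFP7a_mem κ c v⟩
  map_add' v w := by
    apply lp.ext
    funext a
    show (if κ a = c then ((v + w : PHilb) : PIdx → ℂ) a else 0)
      = (if κ a = c then (v : PIdx → ℂ) a else 0) + (if κ a = c then (w : PIdx → ℂ) a else 0)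
    rw [lp.coeFn_add, Pi.add_apply]
    split_ifs
    · rfl
    · rw [add_zero]
  map_smul' r v := by
    apply lp.ext
    funext a
    show (if κ a = c then ((r • v : PHilb) : PIdx → ℂ) a else 0)
      = r • (if κ a = c then (v : PIdx → ℂ) a else 0)
    rw [lp.coeFn_smul, Pi.smul_apply]
    split_ifs
    · rfl
    · rw [smul_zero]

lemma taskHFP7a_Qlin_apply (κ : PIdx → PIdx) (c : PIdx) (v : PHilb) (a : PIdx) :
    (taskHFP7a_Qlin κ c v : PIdx → ℂ) a = if κ a = c then (v : PIdx → ℂ) a else 0 := rfl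

lemma taskHFP7a_Qlin_sq (κ : PIdx → PIdx) (c : PIdx) (v : PHilb) :
    HasSum (fun a => if κ a = c then ‖(v : PIdx → ℂ) a‖ ^ 2 else 0) (‖taskHFP7a_Qlin κ c v‖ ^ 2) := by
  have h := taskHFP7a_hasSum (taskHFP7a_Qlin κ c v)
  have e : (fun a => ‖(taskHFP7a_Qlin κ c v : PIdx → ℂ) a‖ ^ 2)
      = fun a => if κ a = c then ‖(v : PIdx → ℂ) a‖ ^ 2 else 0 := by
    funext a
    rw [taskHFP7a_Qlin_apply]
    split_ifs
    · rfl
    · rw [norm_zero]
      ring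
  rw [e] at h
  exact h

lemma taskHFP7a_Qlin_norm (κ : PIdx → PIdx) (c : PIdx) (v : PHilb) :
    ‖taskHFP7a_Qlin κ c v‖ ≤ 1 * ‖v‖ := by
  have h1 := taskHFP7a_Qlin_sq κ c v
  have h2 := taskHFP7a_hasSum v
  have h3 : ‖taskHFP7a_Qlin κ c v‖ ^ 2 ≤ ‖v‖ ^ 2 := by
    refine hasSum_le (fun a => ?_) h1 h2
    split_ifs
    · exact le_rfl
    · exact sq_nonneg _
  rw [one_mul]
  exact (sq_le_sq₀ (norm_nonneg _) (norm_nonneg _)).1 h3

/-- The coordinate projection onto the fibre of `κ` over `c`. -/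
noncomputable def taskHFP7a_Q (κ : PIdx → PIdx) (c : PIdx) : PHilb →L[ℂ] PHilb :=
  (taskHFP7a_Qlin κ c).mkContinuous 1 (taskHFP7a_Qlin_norm κ c)

lemma taskHFP7a_Q_apply (κ : PIdx → PIdx) (c : PIdx) (v : PHilb) (a : PIdx) :
    (taskHFP7a_Q κ c v : PIdx → ℂ) a = if κ a = c then (v : PIdx → ℂ) a else 0 := rfl

lemma taskHFP7a_Q_sq (κ : PIdx → PIdx) (c : PIdx) (v : PHilb) :
    HasSum (fun a => if κ a = c then ‖(v : PIdx → ℂ) a‖ ^ 2 else 0) (‖taskHFP7a_Q κ c v‖ ^ 2) :=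
  taskHFP7a_Qlin_sq κ c v

lemma taskHFP7a_Q_delta (κ : PIdx → PIdx) (c s : PIdx) :
    taskHFP7a_Q κ c (pDelta s) = if κ s = c then pDelta s else 0 := by
  apply lp.ext
  funext a
  rw [taskHFP7a_Q_apply, pDelta_apply]
  by_cases hs : κ s = c
  · rw [if_pos hs, pDelta_apply]
    by_cases ha : a = s
    · rw [if_pos ha, ha, if_pos hs]
    · rw [if_neg ha]
      split_ifs <;> rfl
  · rw [if_neg hs]
    by_cases ha : a = s
    · rw [ha, if_neg hs]
      rfl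
    · rw [if_neg ha]
      split_ifs <;> rfl

lemma taskHFP7a_comm (κ : PIdx → PIdx) (x y : PHilb →L[ℂ] PHilb)
    (h : ∀ s a : PIdx, (y (pDelta s) : PIdx → ℂ) a
      = if κ a = κ s then (x (pDelta s) : PIdx → ℂ) a else 0) (c : PIdx) :
    taskHFP7a_Q κ c * y = taskHFP7a_Q κ c * x * taskHFP7a_Q κ c := by
  apply pOp_ext
  intro s
  apply lp.ext
  funext a
  rw [mul_apply_eq_comp, mul_apply_eq_comp, mul_apply_eq_comp, taskHFP7a_Q_apply, taskHFP7a_Q_apply, taskHFP7a_Q_delta, h]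
  by_cases ha : κ a = c
  · rw [if_pos ha, if_pos ha]
    by_cases hs : κ s = c
    · rw [if_pos hs, if_pos (ha.trans hs.symm)]
    · rw [if_neg hs, if_neg (fun e => hs (e.symm.trans ha)), map_zero]
      rfl
  · rw [if_neg ha, if_neg ha]

lemma taskHFP7a_coord (κ : PIdx → PIdx) (x y : PHilb →L[ℂ] PHilb)
    (h : ∀ s a : PIdx, (y (pDelta s) : PIdx → ℂ) a
      = if κ a = κ s then (x (pDelta s) : PIdx → ℂ) a else 0) (v : PHilb) (a : PIdx) :
    (y v : PIdx → ℂ) a = (x (taskHFP7a_Q κ (κ a) v) : PIdx → ℂ) a := by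
  have h1 := congrArg (fun z : PHilb →L[ℂ] PHilb => (z v : PIdx → ℂ) a) (taskHFP7a_comm κ x y h (κ a))
  simp only [mul_apply_eq_comp, taskHFP7a_Q_apply, if_true] at h1
  exact h1

lemma taskHFP7a_pieces (κ : PIdx → PIdx) (v : PHilb) (T : Finset PIdx) :
    ∑ c ∈ T, ‖taskHFP7a_Q κ c v‖ ^ 2 ≤ ‖v‖ ^ 2 := by
  have h1 : HasSum (fun a => ∑ c ∈ T, if κ a = c then ‖(v : PIdx → ℂ) a‖ ^ 2 else 0)
      (∑ c ∈ T, ‖taskHFP7a_Q κ c v‖ ^ 2) :=
    hasSum_sum (fun c _ => taskHFP7a_Q_sq κ c v)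
  refine hasSum_le (fun a => ?_) h1 (taskHFP7a_hasSum v)
  rw [Finset.sum_ite_eq]
  split_ifs
  · exact le_rfl
  · exact sq_nonneg _

theorem norm_le_of_fiber_pinch (κ : PIdx → PIdx) (x y : PHilb →L[ℂ] PHilb)
    (h : ∀ s a : PIdx, (y (pDelta s) : PIdx → ℂ) a
      = if κ a = κ s then (x (pDelta s) : PIdx → ℂ) a else 0) : ‖y‖ ≤ ‖x‖ := by
  refine ContinuousLinearMap.opNorm_le_bound y (norm_nonneg x) (fun v => ?_)
  have hb : ‖y v‖ ^ 2 ≤ (‖x‖ * ‖v‖) ^ 2 := by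
    refine hasSum_le_of_sum_le (taskHFP7a_hasSum (y v)) (fun S => ?_)
    have e1 : ∑ a ∈ S, ‖(y v : PIdx → ℂ) a‖ ^ 2
        = ∑ c ∈ S.image κ, ∑ a ∈ S with κ a = c,
            ‖(x (taskHFP7a_Q κ c v) : PIdx → ℂ) a‖ ^ 2 := by
      rw [← Finset.sum_fiberwise_of_maps_to (g := κ) (t := S.image κ)
        (fun a ha => Finset.mem_image_of_mem κ ha)]
      refine Finset.sum_congr rfl (fun c _ => ?_)
      refine Finset.sum_congr rfl (fun a ha => ?_)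
      rw [taskHFP7a_coord κ x y h v a, (Finset.mem_filter.1 ha).2]
    rw [e1]
    calc ∑ c ∈ S.image κ, ∑ a ∈ S with κ a = c, ‖(x (taskHFP7a_Q κ c v) : PIdx → ℂ) a‖ ^ 2
        ≤ ∑ c ∈ S.image κ, ‖x‖ ^ 2 * ‖taskHFP7a_Q κ c v‖ ^ 2 := by
          refine Finset.sum_le_sum (fun c _ => ?_)
          refine (taskHFP7a_sum_le _ _).trans ?_
          rw [← mul_pow]
          exact pow_le_pow_left₀ (norm_nonneg _) (x.le_opNorm _) 2
      _ = ‖x‖ ^ 2 * ∑ c ∈ S.image κ, ‖taskHFP7a_Q κ c v‖ ^ 2 := by rw [Finset.mul_sum]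
      _ ≤ ‖x‖ ^ 2 * ‖v‖ ^ 2 :=
          mul_le_mul_of_nonneg_left (taskHFP7a_pieces κ v _) (sq_nonneg _)
      _ = (‖x‖ * ‖v‖) ^ 2 := by rw [mul_pow]
  exact (sq_le_sq₀ (norm_nonneg _) (mul_nonneg (norm_nonneg _) (norm_nonneg _))).1 hb

end Vale.Agent.Lib.P078
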