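import Vale.Agent.Lib.P078.PauliDefs
import Vale.Agent.Lib.P078.Approx
import Vale.Agent.Lib.P078.Factor
import Vale.Agent.Lib.P078.Summary
import Vale.Agent.Lib.P078.AFDDefs
import Vale.Agent.Lib.P078.HF.P7a
import Vale.Agent.Lib.P078.HF.P1

namespace Vale.Agent.Lib.P078

open scoped InnerProductSpace Matrix.Norms.L2Operator
open ContinuousLinearMap Filter Topology

variable {H : Type*} [NormedAddCommGroup H] [InnerProductSpace ℂ H] [CompleteSpace H]

/-! ### P7b : truncations -/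

/-- Membership in the set of finitely supported functions supported below `n`. -/
lemma taskHFP7b_mem_finsupp (n : ℕ) (f : ℕ →₀ ZMod 2) :
    f ∈ (Finset.range n).finsupp (fun _ => (Finset.univ : Finset (ZMod 2)))
      ↔ ∀ i, n ≤ i → f i = 0 := by
  rw [Finset.mem_finsupp_iff]
  constructor
  · rintro ⟨h, -⟩ i hi
    by_contra hne
    have h1 := h (Finsupp.mem_support_iff.mpr hne)
    exact absurd (Finset.mem_range.mp h1) (not_lt.mpr hi)
  · intro h
    refine ⟨fun i hi => ?_, fun i _ => Finset.mem_univ _⟩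
    rw [Finset.mem_range]
    by_contra hlt
    exact (Finsupp.mem_support_iff.mp hi) (h i (not_lt.mp hlt))

lemma mem_pG (n : ℕ) (g : PIdx) :
    g ∈ pG n ↔ (∀ i, n ≤ i → g.1 i = 0) ∧ (∀ i, n ≤ i → g.2 i = 0) := by
  unfold pG
  rw [Finset.mem_product, taskHFP7b_mem_finsupp, taskHFP7b_mem_finsupp]

/-- The operators `λ(g)` with `g` in `pG n` lie in `pN n`. -/
lemma taskHFP7b_pLam_mem_pN (n : ℕ) (g : PIdx) (hg : g ∈ pG n) : pLam g ∈ pN n := by
  rw [mem_pN_iff]
  refine ⟨pLam_mem_pM g, fun h hh => ?_⟩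
  rw [pLam_mul, pLam_mul]
  have h1 : pCoc ((h, 0) : PIdx) g = 1 := pSgn_zero_left _
  have h2 : pCoc g ((h, 0) : PIdx) = 1 := by
    refine pSgn_eq_one_of_disjoint g.2 h (fun i => ?_)
    by_cases hi : i < n
    · exact Or.inr (hh i hi)
    · exact Or.inl (((mem_pG n g).mp hg).2 i (not_lt.mp hi))
  rw [h1, h2, add_comm]

lemma pTrunc_mem_pN (n : ℕ) (x : PHilb →L[ℂ] PHilb) : pTrunc n x ∈ pN n := by
  unfold pTrunc
  exact sum_mem (fun g hg => (pN n).toStarSubalgebra.smul_mem (taskHFP7b_pLam_mem_pN n g hg) _)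

/-- In the index group, `a = s + g` if and only if `g = a + s`. -/
lemma taskHFP7b_eq_add_iff (a s g : PIdx) : a = s + g ↔ g = a + s := by
  constructor
  · intro h
    rw [h, add_comm s g, add_assoc, pIdx_add_self, add_zero]
  · intro h
    rw [h, add_comm a s, ← add_assoc, pIdx_add_self, zero_add]

lemma pTrunc_delta {x : PHilb →L[ℂ] PHilb} (hx : x ∈ pM) (n : ℕ) (s a : PIdx) :
    (pTrunc n x (pDelta s) : PIdx → ℂ) a
      = if a + s ∈ pG n then (x (pDelta s) : PIdx → ℂ) a else 0 := by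
  have h1 : pTrunc n x (pDelta s)
      = ∑ g ∈ pG n, ((x pOmega : PIdx → ℂ) g * pCoc g s) • pDelta (s + g) := by
    unfold pTrunc
    rw [sum_apply]
    refine Finset.sum_congr rfl (fun g _ => ?_)
    rw [smul_apply, pLam_delta, smul_smul]
  have h2 : ∀ v : PHilb, (v : PIdx → ℂ) a = ⟪pDelta a, v⟫_ℂ := fun v => (inner_pDelta a v).symm
  rw [h2, h1, inner_sum]
  have h3 : ∀ g ∈ pG n, ⟪pDelta a, ((x pOmega : PIdx → ℂ) g * pCoc g s) • pDelta (s + g)⟫_ℂ
      = if g = a + s then (x pOmega : PIdx → ℂ) g * pCoc g s else 0 := by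
    intro g _
    rw [inner_smul_right, inner_pDelta, pDelta_apply]
    by_cases hg : g = a + s
    · rw [if_pos ((taskHFP7b_eq_add_iff a s g).mpr hg), if_pos hg, mul_one]
    · rw [if_neg (fun h => hg ((taskHFP7b_eq_add_iff a s g).mp h)), if_neg hg, mul_zero]
  rw [Finset.sum_congr rfl h3, Finset.sum_ite_eq']
  by_cases hmem : a + s ∈ pG n
  · rw [if_pos hmem, if_pos hmem, pM_coeff hx s a, mul_comm]
  · rw [if_neg hmem, if_neg hmem]

/-- Two finitely supported functions agree outside `{0, …, n - 1}` if and only if their sum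
vanishes there. -/
lemma taskHFP7b_filter_iff (n : ℕ) (f f' : ℕ →₀ ZMod 2) :
    (∀ i, n ≤ i → (f + f') i = 0)
      ↔ f.filter (fun i => n ≤ i) = f'.filter (fun i => n ≤ i) := by
  constructor
  · intro h
    ext i
    rw [Finsupp.filter_apply, Finsupp.filter_apply]
    by_cases hi : n ≤ i
    · rw [if_pos hi, if_pos hi]
      have h1 := h i hi
      rw [Finsupp.add_apply] at h1
      exact CharTwo.add_eq_zero.mp h1
    · rw [if_neg hi, if_neg hi]
  · intro h i hi
    have h1 := DFunLike.congr_fun h i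
    rw [Finsupp.filter_apply, Finsupp.filter_apply, if_pos hi, if_pos hi] at h1
    rw [Finsupp.add_apply, h1]
    exact CharTwo.add_self_eq_zero _

lemma pTrunc_norm_le {x : PHilb →L[ℂ] PHilb} (hx : x ∈ pM) (n : ℕ) : ‖pTrunc n x‖ ≤ ‖x‖ := by
  refine norm_le_of_fiber_pinch
    (fun g => (g.1.filter (fun i => n ≤ i), g.2.filter (fun i => n ≤ i))) x (pTrunc n x)
    (fun s a => ?_)
  rw [pTrunc_delta hx n s a]
  refine if_congr ?_ rfl rfl
  rw [mem_pG, Prod.mk.injEq, ← taskHFP7b_filter_iff, ← taskHFP7b_filter_iff]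
  rfl

lemma pTrunc_selfAdjoint {x : PHilb →L[ℂ] PHilb} (hx : x ∈ pM) (hsa : IsSelfAdjoint x) (n : ℕ) :
    IsSelfAdjoint (pTrunc n x) := by
  have hcoef : ∀ g : PIdx, (starRingEnd ℂ) ((x pOmega : PIdx → ℂ) g) * pCoc g g
      = (x pOmega : PIdx → ℂ) g := by
    intro g
    have h1 := pM_star_omega hx g
    rw [hsa.star_eq] at h1
    rw [mul_comm]
    exact h1.symm
  unfold IsSelfAdjoint pTrunc
  rw [star_sum]
  refine Finset.sum_congr rfl (fun g _ => ?_)
  rw [star_smul, pLam_star, smul_smul]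
  have h2 : star ((x pOmega : PIdx → ℂ) g) = (starRingEnd ℂ) ((x pOmega : PIdx → ℂ) g) := rfl
  rw [h2, hcoef g]

end Vale.Agent.Lib.P078
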