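import Vale.Agent.Lib.P078.PauliDefs
import Vale.Agent.Lib.P078.Approx
import Vale.Agent.Lib.P078.Factor
import Vale.Agent.Lib.P078.Summary
import Vale.Agent.Lib.P078.AFDDefs
import Vale.Agent.Lib.P078.HF.P7b
import Vale.Agent.Lib.P078.HF.P6

namespace Vale.Agent.Lib.P078

open scoped InnerProductSpace Matrix.Norms.L2Operator
open ContinuousLinearMap Filter Topology

variable {H : Type*} [NormedAddCommGroup H] [InnerProductSpace ℂ H] [CompleteSpace H]

/-! ### P7c : convergence of the truncations -/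

lemma taskHFP7c_pG_mono {n m : ℕ} (hnm : n ≤ m) {g : PIdx} (hg : g ∈ pG n) : g ∈ pG m := by
  rw [mem_pG] at hg ⊢
  exact ⟨fun i hi => hg.1 i (hnm.trans hi), fun i hi => hg.2 i (hnm.trans hi)⟩

lemma taskHFP7c_mem_pG_some (g : PIdx) : ∃ m, g ∈ pG m := by
  refine ⟨(g.1.support ∪ g.2.support).sup id + 1, ?_⟩
  rw [mem_pG]
  constructor
  · intro i hi
    by_contra h
    have h1 : i ∈ g.1.support ∪ g.2.support :=
      Finset.mem_union_left _ (Finsupp.mem_support_iff.2 h)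
    have h2 : id i ≤ (g.1.support ∪ g.2.support).sup id := Finset.le_sup h1
    simp only [id] at h2
    omega
  · intro i hi
    by_contra h
    have h1 : i ∈ g.1.support ∪ g.2.support :=
      Finset.mem_union_right _ (Finsupp.mem_support_iff.2 h)
    have h2 : id i ≤ (g.1.support ∪ g.2.support).sup id := Finset.le_sup h1
    simp only [id] at h2
    omega

lemma taskHFP7c_subset_pG (S : Finset PIdx) : ∃ n, S ⊆ pG n := by
  classical
  induction S using Finset.induction_on with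
  | empty => exact ⟨0, Finset.empty_subset _⟩
  | insert g S _ ih =>
    obtain ⟨n, hn⟩ := ih
    obtain ⟨m, hm⟩ := taskHFP7c_mem_pG_some g
    refine ⟨max n m, ?_⟩
    intro a ha
    rcases Finset.mem_insert.1 ha with rfl | ha
    · exact taskHFP7c_pG_mono (le_max_right _ _) hm
    · exact taskHFP7c_pG_mono (le_max_left _ _) (hn ha)

lemma pTrunc_tendsto {x : PHilb →L[ℂ] PHilb} (hx : x ∈ pM) {η : ℝ} (hη : 0 < η) :
    ∃ n, ‖(x - pTrunc n x) pOmega‖ ≤ η := by
  classical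
  obtain ⟨ξ, hξ⟩ : ∃ ξ : PHilb, ξ = x pOmega := ⟨_, rfl⟩
  have h2 : (0 : ℝ) < (2 : ENNReal).toReal := by norm_num
  have h2' : (2 : ENNReal).toReal = (2 : ℕ) := by norm_num
  obtain ⟨f, hf⟩ : ∃ f : PIdx → ℝ, f = fun a => ‖(ξ : PIdx → ℂ) a‖ ^ (2 : ℕ) := ⟨_, rfl⟩
  have hsum : Summable f := by
    have h := (memℓp_gen_iff h2).1 (lp.memℓp ξ)
    rw [h2'] at h
    rw [hf]
    refine h.congr (fun a => ?_)
    rw [Real.rpow_natCast]
  have hη2 : 0 < η ^ 2 := by positivity
  have hev : ∀ᶠ s : Finset PIdx in atTop, ∑' a : {a // a ∉ s}, f a < η ^ 2 :=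
    (tendsto_tsum_compl_atTop_zero f).eventually (gt_mem_nhds hη2)
  obtain ⟨S, hS⟩ := Filter.eventually_atTop.1 hev
  obtain ⟨n, hn⟩ := taskHFP7c_subset_pG S
  refine ⟨n, ?_⟩
  have htail : ∑' a : {a // a ∉ pG n}, f a < η ^ 2 := hS (pG n) hn
  have hsplit : ∑ a ∈ pG n, f a + ∑' a : {a // a ∉ pG n}, f a = ∑' a, f a :=
    hsum.sum_add_tsum_compl
  obtain ⟨w, hw⟩ : ∃ w : PHilb, w = (x - pTrunc n x) pOmega := ⟨_, rfl⟩
  have hwa : ∀ a : PIdx, (w : PIdx → ℂ) a = if a ∈ pG n then 0 else (ξ : PIdx → ℂ) a := by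
    intro a
    have h1 : (pTrunc n x pOmega : PIdx → ℂ) a
        = if a ∈ pG n then (ξ : PIdx → ℂ) a else 0 := by
      have := pTrunc_delta hx n 0 a
      rw [add_zero] at this
      rw [hξ]
      exact this
    rw [hw]
    show ((x pOmega - pTrunc n x pOmega : PHilb) : PIdx → ℂ) a = _
    rw [lp.coeFn_sub, Pi.sub_apply, h1, ← hξ]
    split_ifs
    · ring
    · ring
  obtain ⟨g, hg⟩ : ∃ g : PIdx → ℝ, g = fun a => if a ∈ pG n then f a else 0 := ⟨_, rfl⟩
  obtain ⟨h, hh⟩ : ∃ h : PIdx → ℝ, h = fun a => if a ∈ pG n then 0 else f a := ⟨_, rfl⟩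
  have hgsum : Summable g := by
    refine summable_of_ne_finset_zero (s := pG n) (fun a ha => ?_)
    rw [hg]
    exact if_neg ha
  have hfgh : f = fun a => g a + h a := by
    funext a
    rw [hg, hh]
    by_cases ha : a ∈ pG n
    · simp [ha]
    · simp [ha]
  have hhsum : Summable h := by
    have : h = fun a => f a - g a := by
      funext a
      rw [hfgh]
      ring
    rw [this]
    exact hsum.sub hgsum
  have hgt : ∑' a, g a = ∑ a ∈ pG n, f a := by
    rw [tsum_eq_sum (s := pG n) (fun a ha => by rw [hg]; exact if_neg ha)]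
    refine Finset.sum_congr rfl (fun a ha => ?_)
    rw [hg]
    exact if_pos ha
  have hft : ∑' a, f a = ∑' a, g a + ∑' a, h a := by
    rw [← hgsum.tsum_add hhsum, hfgh]
  have hnorm : ‖w‖ ^ (2 : ℕ) = ∑' a, h a := by
    have h1 := lp.norm_rpow_eq_tsum h2 w
    rw [h2', Real.rpow_natCast] at h1
    rw [h1]
    refine tsum_congr (fun a => ?_)
    rw [Real.rpow_natCast, hwa a, hh, hf]
    by_cases ha : a ∈ pG n
    · simp [ha]
    · simp [ha]
  have hle : ‖w‖ ^ (2 : ℕ) ≤ η ^ 2 := by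
    rw [hnorm]
    linarith
  rw [← hw]
  exact (sq_le_sq₀ (norm_nonneg _) hη.le).1 hle

theorem pA_approxTypeOne : IsApproxTypeOne pA pM pOmega := by
  intro x hx hsa η hη
  obtain ⟨n, hn⟩ := pTrunc_tendsto hx hη
  exact ⟨pN n, pA_le_pN n, pN_le_pM n, pN_typeOne n, pTrunc n x, pTrunc_mem_pN n x,
    pTrunc_selfAdjoint hx hsa n, pTrunc_norm_le hx n, hn⟩

end Vale.Agent.Lib.P078
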