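import Vale.Agent.Lib.P078.PauliDefs
import Vale.Agent.Lib.P078.Approx
import Vale.Agent.Lib.P078.Factor
import Vale.Agent.Lib.P078.Summary
import Vale.Agent.Lib.P078.AFDDefs
import Vale.Agent.Lib.P078.HF.P5a

namespace Vale.Agent.Lib.P078

open scoped InnerProductSpace Matrix.Norms.L2Operator
open ContinuousLinearMap Filter Topology

variable {H : Type*} [NormedAddCommGroup H] [InnerProductSpace ℂ H] [CompleteSpace H]

/-! ### P8a : normalizers of `pA` -/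

lemma taskHFP8a_star (k : ℕ →₀ ZMod 2) :
    star (pLam ((0 : ℕ →₀ ZMod 2), k)) = pLam (0, k) := by
  have h1 : pCoc ((0 : ℕ →₀ ZMod 2), k) (0, k) = 1 := pSgn_zero_right k
  rw [pLam_star, h1, one_smul]

lemma taskHFP8a_comm (h k : ℕ →₀ ZMod 2) :
    pLam (h, (0 : ℕ →₀ ZMod 2)) * pLam ((0 : ℕ →₀ ZMod 2), k)
      = pSgn k h • (pLam ((0 : ℕ →₀ ZMod 2), k) * pLam (h, (0 : ℕ →₀ ZMod 2))) := by
  have e1 : ((h, 0) : PIdx) + (0, k) = (h, k) := by
    rw [Prod.mk_add_mk, add_zero, zero_add]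
  have e2 : ((0, k) : PIdx) + (h, 0) = (h, k) := by
    rw [Prod.mk_add_mk, zero_add, add_zero]
  have c1 : pCoc ((h, 0) : PIdx) (0, k) = 1 := pSgn_zero_left 0
  have c2 : pCoc ((0, k) : PIdx) (h, 0) = pSgn k h := rfl
  rw [pLam_mul, pLam_mul, e1, e2, c1, c2, one_smul, smul_smul, pSgn_mul_self, one_smul]

lemma pLam_k_normalizes (k : ℕ →₀ ZMod 2) {a : PHilb →L[ℂ] PHilb} (ha : a ∈ pA) :
    pLam (0, k) * a * star (pLam (0, k)) ∈ pA := by
  rw [taskHFP8a_star]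
  have haM : a ∈ pM := ((mem_pA_iff a).mp ha).1
  have huM : pLam ((0 : ℕ →₀ ZMod 2), k) ∈ pM := pLam_mem_pM _
  refine (mem_pA_iff _).mpr ⟨mul_mem (mul_mem huM haM) huM, fun h => ?_⟩
  have hvu := taskHFP8a_comm h k
  have hav : pLam (h, (0 : ℕ →₀ ZMod 2)) * a = a * pLam (h, (0 : ℕ →₀ ZMod 2)) :=
    ((mem_pA_iff a).mp ha).2 h
  obtain ⟨u, hu⟩ : ∃ u : PHilb →L[ℂ] PHilb, u = pLam ((0 : ℕ →₀ ZMod 2), k) := ⟨_, rfl⟩
  obtain ⟨v, hv⟩ : ∃ v : PHilb →L[ℂ] PHilb, v = pLam (h, (0 : ℕ →₀ ZMod 2)) := ⟨_, rfl⟩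
  obtain ⟨s, hs⟩ : ∃ s : ℂ, s = pSgn k h := ⟨_, rfl⟩
  have hss : s * s = 1 := by
    rw [hs]
    exact pSgn_mul_self k h
  rw [← hu, ← hv, ← hs] at hvu
  rw [← hv] at hav
  rw [← hu, ← hv]
  calc v * (u * a * u) = (v * u) * a * u := by simp only [mul_assoc]
    _ = (s • (u * v)) * a * u := by rw [hvu]
    _ = s • (u * (v * a) * u) := by simp only [smul_mul_assoc, mul_assoc]
    _ = s • (u * (a * v) * u) := by rw [hav]
    _ = s • (u * a * (v * u)) := by simp only [mul_assoc]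
    _ = s • (u * a * (s • (u * v))) := by rw [hvu]
    _ = (s * s) • (u * a * u * v) := by simp only [mul_smul_comm, smul_smul, mul_assoc]
    _ = u * a * u * v := by rw [hss, one_smul]

lemma taskHFP8a_anti (k : ℕ →₀ ZMod 2) (i : ℕ) (hi : k i ≠ 0) :
    pLam ((0 : ℕ →₀ ZMod 2), k) * pZ i = -(pZ i * pLam ((0 : ℕ →₀ ZMod 2), k)) := by
  have e1 : ((0, k) : PIdx) + (Finsupp.single i 1, 0) = (Finsupp.single i 1, k) := by
    rw [Prod.mk_add_mk, zero_add, add_zero]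
  have e2 : ((Finsupp.single i 1, 0) : PIdx) + (0, k) = (Finsupp.single i 1, k) := by
    rw [Prod.mk_add_mk, add_zero, zero_add]
  have c1 : pCoc ((0, k) : PIdx) (Finsupp.single i 1, 0) = -1 := by
    have h := pSgn_single_right k i
    rw [if_neg hi] at h
    exact h
  have c2 : pCoc ((Finsupp.single i 1, 0) : PIdx) (0, k) = 1 := pSgn_zero_left 0
  unfold pZ
  rw [pLam_mul, pLam_mul, e1, e2, c1, c2, one_smul, neg_one_smul]

lemma pF_lam_k_pF (n : ℕ) (k : ℕ →₀ ZMod 2) (hk : k ≠ 0) (hsupp : ∀ i, n ≤ i → k i = 0) :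
    pF n * pLam (0, k) * pF n = 0 := by
  obtain ⟨i, hi⟩ := DFunLike.ne_iff.mp hk
  have hi0 : k i ≠ 0 := hi
  have hin : i < n := by
    by_contra hc
    exact hi0 (hsupp i (not_lt.mp hc))
  have hanti := taskHFP8a_anti k i hi0
  have h1 : pF n * pZ i = pF n := pF_absorb n i hin
  have h2 : pZ i * pF n = pF n := by
    rw [← pF_comm_pZ n i]
    exact h1
  have hY : pF n * pLam ((0 : ℕ →₀ ZMod 2), k) * pF n
      = -(pF n * pLam ((0 : ℕ →₀ ZMod 2), k) * pF n) := by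
    calc pF n * pLam ((0 : ℕ →₀ ZMod 2), k) * pF n
        = pF n * pLam ((0 : ℕ →₀ ZMod 2), k) * (pZ i * pF n) := by rw [h2]
      _ = pF n * (pLam ((0 : ℕ →₀ ZMod 2), k) * pZ i) * pF n := by simp only [mul_assoc]
      _ = pF n * (-(pZ i * pLam ((0 : ℕ →₀ ZMod 2), k))) * pF n := by rw [hanti]
      _ = -((pF n * pZ i) * pLam ((0 : ℕ →₀ ZMod 2), k) * pF n) := by
          simp only [mul_neg, neg_mul, mul_assoc]
      _ = -(pF n * pLam ((0 : ℕ →₀ ZMod 2), k) * pF n) := by rw [h1]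
  have h3 : (2 : ℂ) • (pF n * pLam ((0 : ℕ →₀ ZMod 2), k) * pF n) = 0 := by
    rw [two_smul]
    nth_rewrite 2 [hY]
    exact add_neg_cancel _
  exact (smul_eq_zero.mp h3).resolve_left two_ne_zero

end Vale.Agent.Lib.P078
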