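import Vale.Agent.Lib.P078.PauliDefs
import Vale.Agent.Lib.P078.Approx
import Vale.Agent.Lib.P078.Factor
import Vale.Agent.Lib.P078.Summary
import Vale.Agent.Lib.P078.AFDDefs
import Vale.Agent.Lib.P078.HF.P8a
import Vale.Agent.Lib.P078.HF.P5b
import Vale.Agent.Lib.P078.HF.P2

namespace Vale.Agent.Lib.P078

open scoped InnerProductSpace Matrix.Norms.L2Operator
open ContinuousLinearMap Filter Topology

variable {H : Type*} [NormedAddCommGroup H] [InnerProductSpace ℂ H] [CompleteSpace H]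

/-! ### P8b : the conjugates of `pF n` sum to one -/

lemma taskHFP8b_mem_K (n : ℕ) (k : ℕ →₀ ZMod 2) :
    k ∈ (Finset.range n).finsupp (fun _ => (Finset.univ : Finset (ZMod 2))) ↔
      ∀ i, n ≤ i → k i = 0 := by
  rw [Finset.mem_finsupp_iff]
  constructor
  · rintro ⟨h1, -⟩ i hi
    by_contra h
    have h2 : i ∈ k.support := Finsupp.mem_support_iff.2 h
    have h3 := h1 h2
    rw [Finset.mem_range] at h3
    omega
  · intro h
    refine ⟨?_, fun i _ => Finset.mem_univ _⟩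
    intro i hi
    rw [Finset.mem_range]
    by_contra h2
    exact (Finsupp.mem_support_iff.1 hi) (h i (by omega))

lemma taskHFP8b_card_K (n : ℕ) :
    ((Finset.range n).finsupp (fun _ => (Finset.univ : Finset (ZMod 2)))).card = 2 ^ n := by
  rw [Finset.card_finsupp, Finset.prod_const, Finset.card_range, Finset.card_univ, ZMod.card]

lemma taskHFP8b_coc (k l : ℕ →₀ ZMod 2) : pCoc (0, k) (0, l) = 1 := pSgn_zero_right k

lemma taskHFP8b_u_star (k : ℕ →₀ ZMod 2) : star (pLam (0, k)) = pLam (0, k) := by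
  rw [pLam_star, taskHFP8b_coc, one_smul]

lemma taskHFP8b_u_mul (k l : ℕ →₀ ZMod 2) : pLam (0, k) * pLam (0, l) = pLam (0, k + l) := by
  rw [pLam_mul, taskHFP8b_coc, one_smul, Prod.mk_add_mk, add_zero]

lemma taskHFP8b_add_self (k : ℕ →₀ ZMod 2) : k + k = 0 :=
  congrArg Prod.snd (pIdx_add_self (0, k))

lemma taskHFP8b_u_sq (k : ℕ →₀ ZMod 2) : pLam (0, k) * pLam (0, k) = 1 := by
  rw [taskHFP8b_u_mul, taskHFP8b_add_self]
  exact pLam_zero

lemma sum_conj_pF (n : ℕ) :
    ∑ k ∈ (Finset.range n).finsupp (fun _ => (Finset.univ : Finset (ZMod 2))),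
      pLam (0, k) * pF n * star (pLam (0, k)) = 1 := by
  classical
  obtain ⟨K, hK⟩ : ∃ K, K = (Finset.range n).finsupp (fun _ => (Finset.univ : Finset (ZMod 2))) :=
    ⟨_, rfl⟩
  rw [← hK]
  have hKmem : ∀ k, k ∈ K ↔ ∀ i, n ≤ i → k i = 0 := by
    intro k
    rw [hK]
    exact taskHFP8b_mem_K n k
  have hKcard : K.card = 2 ^ n := by
    rw [hK]
    exact taskHFP8b_card_K n
  have hFM : pF n ∈ pM := ((mem_pA_iff (pF n)).1 (pF_mem_pA n)).1
  have hFp := pF_proj n
  have hFF : pF n * pF n = pF n := hFp.isIdempotentElem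
  have hFs : star (pF n) = pF n := hFp.isSelfAdjoint
  have hq : ∀ k : ℕ →₀ ZMod 2, pLam (0, k) * pF n * star (pLam (0, k))
      = pLam (0, k) * pF n * pLam (0, k) := by
    intro k
    rw [taskHFP8b_u_star]
  simp only [hq]
  have hproj : ∀ k ∈ K, IsStarProjection (pLam (0, k) * pF n * pLam (0, k)) := by
    intro k _
    refine ⟨?_, ?_⟩
    · show pLam (0, k) * pF n * pLam (0, k) * (pLam (0, k) * pF n * pLam (0, k))
        = pLam (0, k) * pF n * pLam (0, k)
      calc pLam (0, k) * pF n * pLam (0, k) * (pLam (0, k) * pF n * pLam (0, k))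
          = pLam (0, k) * pF n * (pLam (0, k) * pLam (0, k)) * pF n * pLam (0, k) := by
            simp only [mul_assoc]
        _ = pLam (0, k) * pF n * pLam (0, k) := by
            rw [taskHFP8b_u_sq, mul_one, mul_assoc (pLam (0, k)) (pF n) (pF n), hFF]
    · show star (pLam (0, k) * pF n * pLam (0, k)) = pLam (0, k) * pF n * pLam (0, k)
      rw [star_mul, star_mul, taskHFP8b_u_star, hFs, mul_assoc]
  have horth : ∀ k ∈ K, ∀ l ∈ K, k ≠ l →
      (pLam (0, k) * pF n * pLam (0, k)) * (pLam (0, l) * pF n * pLam (0, l)) = 0 := by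
    intro k hk l hl hkl
    have hne : k + l ≠ 0 := by
      intro h0
      apply hkl
      have h1 : k + l + l = l := by rw [h0, zero_add]
      rw [add_assoc, taskHFP8b_add_self, add_zero] at h1
      exact h1
    have hsupp : ∀ i, n ≤ i → (k + l) i = 0 := by
      intro i hi
      rw [Finsupp.add_apply, (hKmem k).1 hk i hi, (hKmem l).1 hl i hi, add_zero]
    calc pLam (0, k) * pF n * pLam (0, k) * (pLam (0, l) * pF n * pLam (0, l))
        = pLam (0, k) * (pF n * (pLam (0, k) * pLam (0, l)) * pF n) * pLam (0, l) := by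
          simp only [mul_assoc]
      _ = 0 := by
          rw [taskHFP8b_u_mul, pF_lam_k_pF n (k + l) hne hsupp, mul_zero, zero_mul]
  have hQ : IsStarProjection (∑ k ∈ K, pLam (0, k) * pF n * pLam (0, k)) :=
    isStarProjection_sum K _ hproj horth
  have hQM : (∑ k ∈ K, pLam (0, k) * pF n * pLam (0, k)) ∈ pM :=
    sum_mem (fun k _ => mul_mem (mul_mem (pLam_mem_pM _) hFM) (pLam_mem_pM _))
  have htr : ∀ k : ℕ →₀ ZMod 2,
      ⟪pOmega, (pLam (0, k) * pF n * pLam (0, k)) pOmega⟫_ℂ = (1 / 2 : ℂ) ^ n := by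
    intro k
    have h1 := pM_trace.2 (pLam (0, k) * pF n) (mul_mem (pLam_mem_pM _) hFM) (pLam (0, k))
      (pLam_mem_pM _)
    have h2 : (pLam (0, k) * pF n * pLam (0, k)) pOmega
        = (pLam (0, k) * pF n) (pLam (0, k) pOmega) := rfl
    have h3 : pLam (0, k) ((pLam (0, k) * pF n) pOmega) = pF n pOmega := by
      rw [← mul_apply_eq_comp, ← mul_assoc, taskHFP8b_u_sq, one_mul]
    rw [h2, h1, h3, pF_trace]
  obtain ⟨Q, hQdef⟩ : ∃ Q, Q = ∑ k ∈ K, pLam (0, k) * pF n * pLam (0, k) := ⟨_, rfl⟩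
  rw [← hQdef] at hQ hQM ⊢
  have htrQ : ⟪pOmega, Q pOmega⟫_ℂ = 1 := by
    rw [hQdef, sum_apply, inner_sum,
      Finset.sum_congr rfl (fun k _ => htr k), Finset.sum_const, hKcard, nsmul_eq_mul]
    push_cast
    rw [← mul_pow]
    norm_num
  have hP : IsStarProjection (1 - Q) := hQ.one_sub
  have hPM : 1 - Q ∈ pM := sub_mem (one_mem pM) hQM
  have hPΩ : (1 - Q) pOmega = 0 := by
    have h1 : ⟪(1 - Q) pOmega, (1 - Q) pOmega⟫_ℂ = ⟪pOmega, (1 - Q) pOmega⟫_ℂ := by
      have h2 : ⟪(1 - Q) pOmega, (1 - Q) pOmega⟫_ℂ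
          = ⟪pOmega, star (1 - Q) ((1 - Q) pOmega)⟫_ℂ := by
        rw [star_eq_adjoint, adjoint_inner_right]
      rw [h2, hP.isSelfAdjoint.star_eq, ← mul_apply_eq_comp,
        hP.isIdempotentElem.eq]
    have h3 : ⟪pOmega, (1 - Q) pOmega⟫_ℂ = 0 := by
      rw [sub_apply, one_apply_eq_self, inner_sub_right, htrQ,
        inner_self_eq_norm_sq_to_K, pOmega_norm]
      norm_num
    rw [h3] at h1
    exact inner_self_eq_zero.1 h1
  have h0 : 1 - Q = 0 := pM_separating (1 - Q) hPM hPΩ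
  exact (sub_eq_zero.1 h0).symm

end Vale.Agent.Lib.P078
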