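import Vale.Agent.Lib.P078.PauliDefs
import Vale.Agent.Lib.P078.Approx
import Vale.Agent.Lib.P078.Factor
import Vale.Agent.Lib.P078.Summary
import Vale.Agent.Lib.P078.AFDDefs
import Vale.Agent.Lib.P078.HF.P8b

namespace Vale.Agent.Lib.P078

open scoped InnerProductSpace Matrix.Norms.L2Operator
open ContinuousLinearMap Filter Topology

variable {H : Type*} [NormedAddCommGroup H] [InnerProductSpace ℂ H] [CompleteSpace H]

/-! ### P8c : the matrix units -/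

lemma taskHFP8c_star (k : ℕ →₀ ZMod 2) : star (pLam (0, k)) = pLam (0, k) := by
  rw [pLam_star]
  have h : pCoc ((0 : ℕ →₀ ZMod 2), k) (0, k) = 1 := pSgn_zero_right k
  rw [h, one_smul]

lemma taskHFP8c_mul (k l : ℕ →₀ ZMod 2) : pLam (0, k) * pLam (0, l) = pLam (0, k + l) := by
  rw [pLam_mul]
  have h : pCoc ((0 : ℕ →₀ ZMod 2), k) (0, l) = 1 := pSgn_zero_right k
  rw [h, one_smul, Prod.mk_add_mk, add_zero]

lemma taskHFP8c_add_self (k : ℕ →₀ ZMod 2) : k + k = 0 := by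
  have h := pIdx_add_self ((0 : ℕ →₀ ZMod 2), k)
  rw [Prod.mk_add_mk] at h
  exact (Prod.ext_iff.1 h).2

lemma taskHFP8c_mul_self (k : ℕ →₀ ZMod 2) : pLam (0, k) * pLam (0, k) = 1 := by
  rw [taskHFP8c_mul, taskHFP8c_add_self]
  exact pLam_zero

lemma taskHFP8c_supp (n : ℕ) (k : ℕ →₀ ZMod 2)
    (hk : k ∈ (Finset.range n).finsupp (fun _ => (Finset.univ : Finset (ZMod 2))))
    (i : ℕ) (hi : n ≤ i) : k i = 0 := by
  rw [Finset.mem_finsupp_iff] at hk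
  rw [← Finsupp.notMem_support_iff]
  intro hmem
  have h1 := hk.1 hmem
  rw [Finset.mem_range] at h1
  omega

lemma taskHFP8c_orth (n : ℕ) (k l : ℕ →₀ ZMod 2)
    (hk : k ∈ (Finset.range n).finsupp (fun _ => (Finset.univ : Finset (ZMod 2))))
    (hl : l ∈ (Finset.range n).finsupp (fun _ => (Finset.univ : Finset (ZMod 2))))
    (hkl : k ≠ l) : pF n * pLam (0, k + l) * pF n = 0 := by
  apply pF_lam_k_pF
  · intro h0
    apply hkl
    have h1 : k + l + l = l := by rw [h0, zero_add]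
    rw [add_assoc, taskHFP8c_add_self, add_zero] at h1
    exact h1
  · intro i hi
    rw [Finsupp.add_apply, taskHFP8c_supp n k hk i hi, taskHFP8c_supp n l hl i hi, add_zero]

theorem pauli_matrix_units (m₀ : ℕ) :
    ∃ m, m₀ ≤ m ∧ ∃ e : Fin m → Fin m → (PHilb →L[ℂ] PHilb), IsMatrixUnitsOver pA pM e ∧
      ∀ i j, ∀ a ∈ pA, e i j * a * e j i ∈ pA := by
  obtain ⟨K, hK⟩ : ∃ K : Finset (ℕ →₀ ZMod 2),
      K = (Finset.range m₀).finsupp (fun _ => (Finset.univ : Finset (ZMod 2))) := ⟨_, rfl⟩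
  have hcard : K.card = 2 ^ m₀ := by
    rw [hK, Finset.card_finsupp, Finset.prod_const, Finset.card_range, Finset.card_univ,
      ZMod.card]
  have hKmem : ∀ k : K, (k : ℕ →₀ ZMod 2) ∈
      (Finset.range m₀).finsupp (fun _ => (Finset.univ : Finset (ZMod 2))) := by
    intro k
    rw [← hK]
    exact k.2
  refine ⟨K.card, ?_, ?_⟩
  · rw [hcard]
    exact Nat.lt_two_pow_self.le
  obtain ⟨φ, -⟩ : ∃ φ : Fin K.card ≃ K, φ = φ := ⟨K.equivFin.symm, rfl⟩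
  have hF := pF_proj m₀
  have hFF : pF m₀ * pF m₀ = pF m₀ := hF.isIdempotentElem
  have hFs : star (pF m₀) = pF m₀ := hF.isSelfAdjoint
  have hFA := pF_mem_pA m₀
  have hFM : pF m₀ ∈ pM := ((mem_pA_iff _).1 hFA).1
  obtain ⟨e, he⟩ : ∃ e : Fin K.card → Fin K.card → (PHilb →L[ℂ] PHilb),
      ∀ i j, e i j = pLam (0, (φ i : ℕ →₀ ZMod 2)) * pF m₀ * pLam (0, (φ j : ℕ →₀ ZMod 2)) :=
    ⟨fun i j => pLam (0, (φ i : ℕ →₀ ZMod 2)) * pF m₀ * pLam (0, (φ j : ℕ →₀ ZMod 2)),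
      fun _ _ => rfl⟩
  refine ⟨e, ⟨?_, ?_, ?_, ?_, ?_⟩, ?_⟩
  · intro i j
    rw [he]
    exact mul_mem (mul_mem (pLam_mem_pM _) hFM) (pLam_mem_pM _)
  · intro i
    rw [he]
    have h1 := pLam_k_normalizes (φ i : ℕ →₀ ZMod 2) hFA
    rw [taskHFP8c_star] at h1
    exact h1
  · intro i j
    rw [he, he, star_mul, star_mul, taskHFP8c_star, taskHFP8c_star, hFs, mul_assoc]
  · intro i j k l
    rw [he i j, he k l]
    by_cases hjk : j = k
    · subst hjk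
      rw [if_pos rfl, he i l]
      calc pLam (0, (φ i : ℕ →₀ ZMod 2)) * pF m₀ * pLam (0, (φ j : ℕ →₀ ZMod 2))
            * (pLam (0, (φ j : ℕ →₀ ZMod 2)) * pF m₀ * pLam (0, (φ l : ℕ →₀ ZMod 2)))
          = pLam (0, (φ i : ℕ →₀ ZMod 2)) * pF m₀
            * (pLam (0, (φ j : ℕ →₀ ZMod 2)) * pLam (0, (φ j : ℕ →₀ ZMod 2)))
            * pF m₀ * pLam (0, (φ l : ℕ →₀ ZMod 2)) := by simp only [mul_assoc]
        _ = pLam (0, (φ i : ℕ →₀ ZMod 2)) * (pF m₀ * pF m₀)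
            * pLam (0, (φ l : ℕ →₀ ZMod 2)) := by
          rw [taskHFP8c_mul_self, mul_one]
          simp only [mul_assoc]
        _ = pLam (0, (φ i : ℕ →₀ ZMod 2)) * pF m₀ * pLam (0, (φ l : ℕ →₀ ZMod 2)) := by
          rw [hFF]
    · rw [if_neg hjk]
      have hne : (φ j : ℕ →₀ ZMod 2) ≠ (φ k : ℕ →₀ ZMod 2) := by
        intro h
        exact hjk (φ.injective (Subtype.ext h))
      have h0 := taskHFP8c_orth m₀ _ _ (hKmem (φ j)) (hKmem (φ k)) hne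
      calc pLam (0, (φ i : ℕ →₀ ZMod 2)) * pF m₀ * pLam (0, (φ j : ℕ →₀ ZMod 2))
            * (pLam (0, (φ k : ℕ →₀ ZMod 2)) * pF m₀ * pLam (0, (φ l : ℕ →₀ ZMod 2)))
          = pLam (0, (φ i : ℕ →₀ ZMod 2))
            * (pF m₀ * (pLam (0, (φ j : ℕ →₀ ZMod 2)) * pLam (0, (φ k : ℕ →₀ ZMod 2)))
              * pF m₀) * pLam (0, (φ l : ℕ →₀ ZMod 2)) := by simp only [mul_assoc]
        _ = 0 := by rw [taskHFP8c_mul, h0, mul_zero, zero_mul]
  · have h1 : ∑ i, e i i = ∑ i, (fun k : K => pLam (0, (k : ℕ →₀ ZMod 2)) * pF m₀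
        * pLam (0, (k : ℕ →₀ ZMod 2))) (φ i) :=
      Finset.sum_congr rfl (fun i _ => he i i)
    rw [h1, Equiv.sum_comp φ (fun k : K => pLam (0, (k : ℕ →₀ ZMod 2)) * pF m₀
        * pLam (0, (k : ℕ →₀ ZMod 2))),
      Finset.sum_coe_sort K (fun k => pLam (0, k) * pF m₀ * pLam (0, k)), hK]
    have h2 := sum_conj_pF m₀
    simp only [taskHFP8c_star] at h2
    exact h2
  · intro i j a ha
    have h1 := pLam_k_normalizes (φ j : ℕ →₀ ZMod 2) ha
    have h2 : pF m₀ * (pLam (0, (φ j : ℕ →₀ ZMod 2)) * a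
        * star (pLam (0, (φ j : ℕ →₀ ZMod 2)))) * pF m₀ ∈ pA := mul_mem (mul_mem hFA h1) hFA
    have h3 := pLam_k_normalizes (φ i : ℕ →₀ ZMod 2) h2
    have e1 : e i j * a * e j i = pLam (0, (φ i : ℕ →₀ ZMod 2))
        * (pF m₀ * (pLam (0, (φ j : ℕ →₀ ZMod 2)) * a
          * star (pLam (0, (φ j : ℕ →₀ ZMod 2)))) * pF m₀)
        * star (pLam (0, (φ i : ℕ →₀ ZMod 2))) := by
      rw [he, he, taskHFP8c_star, taskHFP8c_star]
      simp only [mul_assoc]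
    rw [e1]
    exact h3

end Vale.Agent.Lib.P078
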