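import Vale.Agent.Lib.P078.PauliDefs
import Vale.Agent.Lib.P078.Approx
import Vale.Agent.Lib.P078.Factor
import Vale.Agent.Lib.P078.Summary
import Vale.Agent.Lib.P078.AFDDefs
import Vale.Agent.Lib.P078.HF.P8c
import Vale.Agent.Lib.P078.HF.P7b

namespace Vale.Agent.Lib.P078

open scoped InnerProductSpace Matrix.Norms.L2Operator
open ContinuousLinearMap Filter Topology

variable {H : Type*} [NormedAddCommGroup H] [InnerProductSpace ℂ H] [CompleteSpace H]

/-! ### P8d : the matrix units span the Pauli operators -/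

lemma taskHFP8d_lam_F (n : ℕ) (h : ℕ →₀ ZMod 2) (hh : ∀ i, n ≤ i → h i = 0) :
    pLam (h, 0) * pF n = pF n := by
  rw [pA_masa.2.1 (pLam (h, 0)) (pLam_h_mem_pA h) (pF n) (pF_mem_pA n)]
  exact pF_lam_absorb n h hh

lemma taskHFP8d_key (n : ℕ) (h k l : ℕ →₀ ZMod 2) (hh : ∀ i, n ≤ i → h i = 0) :
    pLam (h, k) * (pLam (0, l) * pF n * pLam (0, l))
      = pSgn (k + l) h • (pLam (0, k + l) * pF n * pLam (0, l)) := by
  have ha : pLam (h, k) * pLam (0, l) = pLam (h, k + l) := by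
    rw [pLam_mul]
    have hc : pCoc (h, k) ((0 : ℕ →₀ ZMod 2), l) = 1 := pSgn_zero_right k
    rw [hc, one_smul, Prod.mk_add_mk, add_zero]
  have hb : pLam (0, k + l) * pLam (h, 0) = pSgn (k + l) h • pLam (h, k + l) := by
    rw [pLam_mul]
    have hc : pCoc ((0 : ℕ →₀ ZMod 2), k + l) (h, (0 : ℕ →₀ ZMod 2)) = pSgn (k + l) h := rfl
    rw [hc, Prod.mk_add_mk, zero_add, add_zero]
  have hb' : pLam (h, k + l) = pSgn (k + l) h • (pLam (0, k + l) * pLam (h, 0)) := by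
    rw [hb, smul_smul, pSgn_mul_self, one_smul]
  calc pLam (h, k) * (pLam (0, l) * pF n * pLam (0, l))
      = (pLam (h, k) * pLam (0, l)) * pF n * pLam (0, l) := by simp only [mul_assoc]
    _ = pSgn (k + l) h • (pLam (0, k + l) * (pLam (h, 0) * pF n) * pLam (0, l)) := by
        rw [ha, hb']
        simp only [smul_mul_assoc, mul_assoc]
    _ = pSgn (k + l) h • (pLam (0, k + l) * pF n * pLam (0, l)) := by
        rw [taskHFP8d_lam_F n h hh]

lemma taskHFP8d_add_mem (n : ℕ) (k l : ℕ →₀ ZMod 2) (hk : ∀ i, n ≤ i → k i = 0)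
    (hl : l ∈ (Finset.range n).finsupp (fun _ => (Finset.univ : Finset (ZMod 2)))) :
    k + l ∈ (Finset.range n).finsupp (fun _ => (Finset.univ : Finset (ZMod 2))) := by
  rw [Finset.mem_finsupp_iff]
  refine ⟨?_, fun i _ => Finset.mem_univ _⟩
  intro i hi
  rw [Finset.mem_range]
  by_contra hni
  have hni' : n ≤ i := not_lt.1 hni
  rw [Finsupp.mem_support_iff, Finsupp.add_apply, hk i hni', taskHFP8c_supp n l hl i hni',
    add_zero] at hi
  exact hi rfl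

theorem pauli_units_span (n : ℕ) :
    ∃ m, n ≤ m ∧ ∃ e : Fin m → Fin m → (PHilb →L[ℂ] PHilb), IsMatrixUnitsOver pA pM e ∧
      (∀ i j, ∀ a ∈ pA, e i j * a * e j i ∈ pA) ∧
      ∀ g ∈ pG n, pLam g ∈ Submodule.span ℂ (Set.range fun p : Fin m × Fin m => e p.1 p.2) := by
  obtain ⟨K, hK⟩ : ∃ K : Finset (ℕ →₀ ZMod 2),
      K = (Finset.range n).finsupp (fun _ => (Finset.univ : Finset (ZMod 2))) := ⟨_, rfl⟩
  have hcard : K.card = 2 ^ n := by
    rw [hK, Finset.card_finsupp, Finset.prod_const, Finset.card_range, Finset.card_univ,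
      ZMod.card]
  have hKmem : ∀ k : K, (k : ℕ →₀ ZMod 2) ∈
      (Finset.range n).finsupp (fun _ => (Finset.univ : Finset (ZMod 2))) := by
    intro k
    rw [← hK]
    exact k.2
  have hKof : ∀ l : ℕ →₀ ZMod 2,
      l ∈ (Finset.range n).finsupp (fun _ => (Finset.univ : Finset (ZMod 2))) → l ∈ K := by
    intro l hl
    rw [hK]
    exact hl
  refine ⟨K.card, ?_, ?_⟩
  · rw [hcard]
    exact Nat.lt_two_pow_self.le
  obtain ⟨φ, -⟩ : ∃ φ : Fin K.card ≃ K, φ = φ := ⟨K.equivFin.symm, rfl⟩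
  have hF := pF_proj n
  have hFF : pF n * pF n = pF n := hF.isIdempotentElem
  have hFs : star (pF n) = pF n := hF.isSelfAdjoint
  have hFA := pF_mem_pA n
  have hFM : pF n ∈ pM := ((mem_pA_iff _).1 hFA).1
  obtain ⟨e, he⟩ : ∃ e : Fin K.card → Fin K.card → (PHilb →L[ℂ] PHilb),
      ∀ i j, e i j = pLam (0, (φ i : ℕ →₀ ZMod 2)) * pF n * pLam (0, (φ j : ℕ →₀ ZMod 2)) :=
    ⟨fun i j => pLam (0, (φ i : ℕ →₀ ZMod 2)) * pF n * pLam (0, (φ j : ℕ →₀ ZMod 2)),
      fun _ _ => rfl⟩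
  have hsum : ∑ i, e i i = 1 := by
    have h1 : ∑ i, e i i = ∑ i, (fun k : K => pLam (0, (k : ℕ →₀ ZMod 2)) * pF n
        * pLam (0, (k : ℕ →₀ ZMod 2))) (φ i) :=
      Finset.sum_congr rfl (fun i _ => he i i)
    rw [h1, Equiv.sum_comp φ (fun k : K => pLam (0, (k : ℕ →₀ ZMod 2)) * pF n
        * pLam (0, (k : ℕ →₀ ZMod 2))),
      Finset.sum_coe_sort K (fun k => pLam (0, k) * pF n * pLam (0, k)), hK]
    have h2 := sum_conj_pF n
    simp only [taskHFP8c_star] at h2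
    exact h2
  refine ⟨e, ⟨?_, ?_, ?_, ?_, hsum⟩, ?_, ?_⟩
  · intro i j
    rw [he]
    exact mul_mem (mul_mem (pLam_mem_pM _) hFM) (pLam_mem_pM _)
  · intro i
    rw [he]
    have h1 := pLam_k_normalizes (φ i : ℕ →₀ ZMod 2) hFA
    rw [taskHFP8c_star] at h1
    exact h1
  · intro i j
    rw [he, he, star_mul, star_mul, taskHFP8c_star, taskHFP8c_star, hFs, mul_assoc]
  · intro i j k l
    rw [he i j, he k l]
    by_cases hjk : j = k
    · subst hjk
      rw [if_pos rfl, he i l]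
      calc pLam (0, (φ i : ℕ →₀ ZMod 2)) * pF n * pLam (0, (φ j : ℕ →₀ ZMod 2))
            * (pLam (0, (φ j : ℕ →₀ ZMod 2)) * pF n * pLam (0, (φ l : ℕ →₀ ZMod 2)))
          = pLam (0, (φ i : ℕ →₀ ZMod 2)) * pF n
            * (pLam (0, (φ j : ℕ →₀ ZMod 2)) * pLam (0, (φ j : ℕ →₀ ZMod 2)))
            * pF n * pLam (0, (φ l : ℕ →₀ ZMod 2)) := by simp only [mul_assoc]
        _ = pLam (0, (φ i : ℕ →₀ ZMod 2)) * (pF n * pF n)
            * pLam (0, (φ l : ℕ →₀ ZMod 2)) := by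
          rw [taskHFP8c_mul_self, mul_one]
          simp only [mul_assoc]
        _ = pLam (0, (φ i : ℕ →₀ ZMod 2)) * pF n * pLam (0, (φ l : ℕ →₀ ZMod 2)) := by
          rw [hFF]
    · rw [if_neg hjk]
      have hne : (φ j : ℕ →₀ ZMod 2) ≠ (φ k : ℕ →₀ ZMod 2) := by
        intro h
        exact hjk (φ.injective (Subtype.ext h))
      have h0 := taskHFP8c_orth n _ _ (hKmem (φ j)) (hKmem (φ k)) hne
      calc pLam (0, (φ i : ℕ →₀ ZMod 2)) * pF n * pLam (0, (φ j : ℕ →₀ ZMod 2))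
            * (pLam (0, (φ k : ℕ →₀ ZMod 2)) * pF n * pLam (0, (φ l : ℕ →₀ ZMod 2)))
          = pLam (0, (φ i : ℕ →₀ ZMod 2))
            * (pF n * (pLam (0, (φ j : ℕ →₀ ZMod 2)) * pLam (0, (φ k : ℕ →₀ ZMod 2)))
              * pF n) * pLam (0, (φ l : ℕ →₀ ZMod 2)) := by simp only [mul_assoc]
        _ = 0 := by rw [taskHFP8c_mul, h0, mul_zero, zero_mul]
  · intro i j a ha
    have h1 := pLam_k_normalizes (φ j : ℕ →₀ ZMod 2) ha
    have h2 : pF n * (pLam (0, (φ j : ℕ →₀ ZMod 2)) * a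
        * star (pLam (0, (φ j : ℕ →₀ ZMod 2)))) * pF n ∈ pA := mul_mem (mul_mem hFA h1) hFA
    have h3 := pLam_k_normalizes (φ i : ℕ →₀ ZMod 2) h2
    have e1 : e i j * a * e j i = pLam (0, (φ i : ℕ →₀ ZMod 2))
        * (pF n * (pLam (0, (φ j : ℕ →₀ ZMod 2)) * a
          * star (pLam (0, (φ j : ℕ →₀ ZMod 2)))) * pF n)
        * star (pLam (0, (φ i : ℕ →₀ ZMod 2))) := by
      rw [he, he, taskHFP8c_star, taskHFP8c_star]
      simp only [mul_assoc]
    rw [e1]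
    exact h3
  · intro g hg
    obtain ⟨h, k⟩ := g
    have hg' := (mem_pG n (h, k)).1 hg
    have hkK : ∀ j : Fin K.card, k + (φ j : ℕ →₀ ZMod 2) ∈ K :=
      fun j => hKof _ (taskHFP8d_add_mem n k _ hg'.2 (hKmem (φ j)))
    have h1 : pLam (h, k) = ∑ j, pLam (h, k) * e j j := by
      rw [← Finset.mul_sum, hsum, mul_one]
    rw [h1]
    refine Submodule.sum_mem _ (fun j _ => ?_)
    have h2 : pLam (h, k) * e j j = pSgn (k + (φ j : ℕ →₀ ZMod 2)) h
        • e (φ.symm ⟨k + (φ j : ℕ →₀ ZMod 2), hkK j⟩) j := by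
      rw [he, he, Equiv.apply_symm_apply]
      exact taskHFP8d_key n h k (φ j) hg'.1
    rw [h2]
    exact Submodule.smul_mem _ _
      (Submodule.subset_span ⟨(φ.symm ⟨k + (φ j : ℕ →₀ ZMod 2), hkK j⟩, j), rfl⟩)

end Vale.Agent.Lib.P078
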