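import Vale.Agent.Lib.P078.PauliDefs
import Vale.Agent.Lib.P078.Approx
import Vale.Agent.Lib.P078.Factor
import Vale.Agent.Lib.P078.Summary
import Vale.Agent.Lib.P078.AFDDefs
import Vale.Agent.Lib.P078.HF.P5c
import Vale.Agent.Lib.P078.HF.P7c
import Vale.Agent.Lib.P078.HF.P8d
import Vale.Agent.Lib.P078.HF.A5
import Vale.Agent.Lib.P078.HF.A6

namespace Vale.Agent.Lib.P078

open scoped InnerProductSpace Matrix.Norms.L2Operator
open ContinuousLinearMap Filter Topology

variable {H : Type*} [NormedAddCommGroup H] [InnerProductSpace ℂ H] [CompleteSpace H]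

/-! ### The hyperfinite factor: summary -/

theorem isApproxTypeOne_of_isAFDOver (A M : VonNeumannAlgebra H) (hA : IsMASA A M) (Ω : H)
    (h : IsAFDOver A M Ω) : IsApproxTypeOne A M Ω := by
  intro x hx hsa η hη
  obtain ⟨m, e, -, he, hnorm, y, hy, hysa, hyn, hyη⟩ := h x hx hsa η hη 0
  obtain ⟨N, hAN, hNM, hN1, heN⟩ := exists_typeOne_of_matrix_units A M hA e he hnorm
  have hspan : ∀ w ∈ Submodule.span ℂ {z : H →L[ℂ] H | ∃ a ∈ A, ∃ i j, z = a * e i j},
      w ∈ N := by
    intro w hw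
    induction hw using Submodule.span_induction with
    | mem v hv =>
      obtain ⟨a, ha, i, j, rfl⟩ := hv
      exact mul_mem (hAN ha) (heN i j)
    | zero => exact zero_mem N
    | add u v _ _ hu hv => exact add_mem hu hv
    | smul c v _ hv => exact N.toStarSubalgebra.smul_mem hv c
  exact ⟨N, hAN, hNM, hN1, y, hspan y hy, hysa, hyn, hyη⟩

theorem exists_units_of_isAFDOver (A M : VonNeumannAlgebra H) (Ω : H) (h : IsAFDOver A M Ω)
    (m₀ : ℕ) : ∃ m, m₀ ≤ m ∧ ∃ e : Fin m → Fin m → (H →L[ℂ] H),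
      IsMatrixUnitsOver A M e ∧ ∀ i j, ∀ a ∈ A, e i j * a * e j i ∈ A := by
  obtain ⟨m, e, hm, he, hnorm, -⟩ := h 0 (zero_mem M) (IsSelfAdjoint.zero _) 1 one_pos m₀
  exact ⟨m, hm, e, he, hnorm⟩

/-- For a MASA `A` of `M` with a separating trace vector such that `A ⊆ M` is approximately
finite-dimensional over `A`, the so-paving numbers are squeezed between the paving numbers of
finite matrices. -/
theorem afd_sandwich (A M : VonNeumannAlgebra H) (hA : IsMASA A M) {Ω : H}
    (hΩ : IsTraceVector M Ω) (hsep : IsSeparating M Ω) (hafd : IsAFDOver A M Ω)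
    {ε ε' : ℝ} (hε : 0 < ε) (hεε' : ε < ε') :
    matrixPavingNumber ε' ≤ soPavingNumber A M ε' ∧
      soPavingNumber A M ε' ≤ matrixPavingNumber ε :=
  ⟨matrixPavingNumber_le_soPavingNumber A M hA hΩ (exists_units_of_isAFDOver A M Ω hafd)
      (hε.trans hεε'),
    soPavingNumber_le_matrixPavingNumber_of_approx_type_one A M hA
      (isCentralizing_of_isTraceVector A M hA.1 hΩ) hsep
      (isApproxTypeOne_of_isAFDOver A M hA Ω hafd) hεε'⟩

lemma pG_mono {n n' : ℕ} (hnn' : n ≤ n') {g : PIdx} (hg : g ∈ pG n) : g ∈ pG n' := by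
  rw [mem_pG] at hg ⊢
  exact ⟨fun i hi => hg.1 i (hnn'.trans hi), fun i hi => hg.2 i (hnn'.trans hi)⟩

/-- The Pauli model is approximately finite-dimensional over its diagonal. -/
theorem pauli_afd : IsAFDOver pA pM pOmega := by
  intro x hx hsa η hη m₀
  obtain ⟨n, hn⟩ := pTrunc_tendsto hx hη
  obtain ⟨m, hm, e, he, hnorm, hspan⟩ := pauli_units_span (max n m₀)
  refine ⟨m, e, (le_max_right n m₀).trans hm, he, hnorm, pTrunc n x, ?_,
    pTrunc_selfAdjoint hx hsa n, pTrunc_norm_le hx n, hn⟩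
  have hle : Submodule.span ℂ (Set.range fun p : Fin m × Fin m => e p.1 p.2)
      ≤ Submodule.span ℂ {z : PHilb →L[ℂ] PHilb | ∃ a ∈ pA, ∃ i j, z = a * e i j} := by
    refine Submodule.span_mono ?_
    rintro z ⟨p, rfl⟩
    exact ⟨1, one_mem pA, p.1, p.2, (one_mul _).symm⟩
  unfold pTrunc
  exact Submodule.sum_mem _ (fun g hg =>
    Submodule.smul_mem _ _ (hle (hspan g (pG_mono (le_max_left n m₀) hg))))

theorem pauli_sandwich (ε ε' : ℝ) (hε : 0 < ε) (hεε' : ε < ε') :
    matrixPavingNumber ε' ≤ soPavingNumber pA pM ε' ∧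
      soPavingNumber pA pM ε' ≤ matrixPavingNumber ε :=
  afd_sandwich pA pM pA_masa pM_trace pM_separating pauli_afd hε hεε'

end Vale.Agent.Lib.P078
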